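import Vale.Agent.P367G.Alg0

/-! Algebra of two by two matrices. -/

set_option linter.all false

namespace Vale.Agent.P367.G

open MeasureTheory ProbabilityTheory Filter Topology Finset Vale.Agent.P146 Matrix
open scoped Classical

noncomputable section

theorem fro_nonneg (A : M2) : 0 ≤ fro A :=
  Finset.sum_nonneg fun _ _ => Finset.sum_nonneg fun _ _ => sq_nonneg _

theorem fro_zero : fro 0 = 0 := by simp [fro]

theorem fro_add_le (A B : M2) : fro (A + B) ≤ 2 * fro A + 2 * fro B := by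
  simp only [fro, Finset.mul_sum, ← Finset.sum_add_distrib]
  refine Finset.sum_le_sum fun a _ => Finset.sum_le_sum fun b _ => ?_
  have h1 := norm_add_le (A a b) (B a b)
  have h2 := pow_le_pow_left₀ (norm_nonneg _) h1 2
  rw [Matrix.add_apply]
  nlinarith [sq_nonneg (‖A a b‖ - ‖B a b‖)]

theorem alg_fro_trace (A : M2) : (fro A : ℂ) = trace (Aᴴ * A) := by
  simp only [fro, trace, Matrix.diag, Matrix.mul_apply, conjTranspose_apply, Complex.ofReal_sum]
  rw [Finset.sum_comm]
  refine Finset.sum_congr rfl fun a _ => Finset.sum_congr rfl fun b _ => ?_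
  rw [Complex.star_def, Complex.conj_mul', Complex.ofReal_pow]

theorem alg_uni_l {V : M2} (hV : Uni V) : Vᴴ * V = 1 := Matrix.mem_unitaryGroup_iff'.1 hV

theorem alg_uni_r {V : M2} (hV : Uni V) : V * Vᴴ = 1 := Matrix.mem_unitaryGroup_iff.1 hV

theorem alg_uni_star {V : M2} (hV : Uni V) : Uni Vᴴ := by
  refine Matrix.mem_unitaryGroup_iff.2 ?_
  rw [star_eq_conjTranspose, conjTranspose_conjTranspose, alg_uni_l hV]

/-- Hint: `fro A = re (trace (Aᴴ * A))`. -/
theorem fro_uni_mul {V : M2} (hV : Uni V) (A : M2) : fro (V * A) = fro A := by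
  apply Complex.ofReal_injective
  rw [alg_fro_trace, alg_fro_trace, conjTranspose_mul, Matrix.mul_assoc, ← Matrix.mul_assoc Vᴴ,
    alg_uni_l hV, Matrix.one_mul]

theorem fro_mul_uni {V : M2} (hV : Uni V) (A : M2) : fro (A * V) = fro A := by
  apply Complex.ofReal_injective
  rw [alg_fro_trace, alg_fro_trace, conjTranspose_mul, Matrix.mul_assoc, trace_mul_comm,
    Matrix.mul_assoc, Matrix.mul_assoc, alg_uni_r hV, Matrix.mul_one]

theorem fro_star (A : M2) : fro Aᴴ = fro A := by
  simp only [fro, conjTranspose_apply, norm_star]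
  exact Finset.sum_comm

theorem alg_fro_neg (A : M2) : fro (-A) = fro A := by simp [fro]

theorem alg_fro_uni {V : M2} (hV : Uni V) : fro V = 2 := by
  have h := fro_uni_mul hV 1
  rw [Matrix.mul_one] at h
  rw [h]
  simp [fro, Matrix.one_apply]
  norm_num

theorem alg_fro_Qb (C : M2) : fro (C * Qb true) ≤ fro C := by
  refine Finset.sum_le_sum fun a _ => Finset.sum_le_sum fun b _ => ?_
  rw [Qb, mul_diagonal]
  split_ifs
  · simp
  · simp

theorem alg_fro_pj {A : M2} (hA : Pj A) (C : M2) : fro (C * A) ≤ fro C := by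
  obtain ⟨U, hU, rfl⟩ := hA
  rw [cj, ← Matrix.mul_assoc, ← Matrix.mul_assoc, fro_mul_uni (alg_uni_star hU)]
  exact (alg_fro_Qb _).trans (fro_mul_uni hU C).le

theorem alg_pj_star {A : M2} (hA : Pj A) : Aᴴ = A := by
  obtain ⟨U, -, rfl⟩ := hA
  have e : (Qb true)ᴴ = Qb true := by
    rw [Qb, diagonal_conjTranspose]
    congr 1
    funext a
    cases a <;> simp
  rw [cj, conjTranspose_mul, conjTranspose_mul, conjTranspose_conjTranspose, e, Matrix.mul_assoc]

theorem fro_uni_sub {V W : M2} (hV : Uni V) (hW : Uni W) : fro (V - W) ≤ 8 := by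
  have h := fro_add_le V (-W)
  rw [alg_fro_neg, alg_fro_uni hV, alg_fro_uni hW, ← sub_eq_add_neg] at h
  linarith

/-- Hint: `V A Vᴴ - W A Wᴴ = (V - W) A Vᴴ + W A (V - W)ᴴ`, and `fro (C * Qb true) ≤ fro C`. -/
theorem fro_cj_sub {V W A : M2} (hV : Uni V) (hW : Uni W) (hA : Pj A) :
    fro (cj V A - cj W A) ≤ 4 * fro (V - W) := by
  have e : cj V A - cj W A = (V - W) * A * Vᴴ + W * ((V - W) * A)ᴴ := by
    rw [conjTranspose_mul, alg_pj_star hA, conjTranspose_sub, cj, cj]
    noncomm_ring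
  have h := fro_add_le ((V - W) * A * Vᴴ) (W * ((V - W) * A)ᴴ)
  rw [fro_mul_uni (alg_uni_star hV), fro_uni_mul hW, fro_star, ← e] at h
  have h2 := alg_fro_pj hA (V - W)
  linarith

variable {Ω : Type} [MeasurableSpace Ω]

theorem meas_fro {A : Ω → M2} (h : ∀ a b, Measurable fun ω => A ω a b) :
    Measurable fun ω => fro (A ω) :=
  Finset.measurable_sum _ fun a _ => Finset.measurable_sum _ fun b _ => (h a b).norm.pow_const 2

theorem alg_meas_mul {V W : Ω → M2} (hV : ∀ a b, Measurable fun ω => V ω a b)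
    (hW : ∀ a b, Measurable fun ω => W ω a b) (a b : Bool) : Measurable fun ω => (V ω * W ω) a b := by
  simp only [Matrix.mul_apply]
  exact Finset.measurable_sum _ fun c _ => (hV a c).mul (hW c b)

theorem MU.mul {V W : Ω → M2} (hV : MU V) (hW : MU W) : MU fun ω => V ω * W ω :=
  ⟨alg_meas_mul hV.1 hW.1, fun ω => uni_mul (hV.2 ω) (hW.2 ω)⟩

theorem MU.ite {V W : Ω → M2} (hV : MU V) (hW : MU W) {p : Ω → Prop}
    (hp : MeasurableSet {ω | p ω}) : MU fun ω => if p ω then V ω else W ω := by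
  refine ⟨fun a b => ?_, fun ω => ?_⟩
  · have e : (fun ω => (if p ω then V ω else W ω) a b) = fun ω => if p ω then V ω a b else W ω a b := by
      funext ω
      split_ifs <;> rfl
    rw [e]
    exact Measurable.ite hp (hV.1 a b) (hW.1 a b)
  · show Uni (if p ω then V ω else W ω)
    split_ifs
    · exact hV.2 ω
    · exact hW.2 ω

theorem mu_const {V : M2} (hV : Uni V) : MU fun _ : Ω => V :=
  ⟨fun _ _ => measurable_const, fun _ => hV⟩

theorem mu_RZ {y : Ω → ℝ} (hy : Measurable y) : MU fun ω => RZ (y ω) :=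
  ⟨fun a b => (cont_RZ a b).measurable.comp hy, fun _ => uni_RZ _⟩

theorem mu_RX {y : Ω → ℝ} (hy : Measurable y) : MU fun ω => RX (y ω) :=
  ⟨fun a b => (cont_RX a b).measurable.comp hy, fun _ => uni_RX _⟩

theorem _root_.Vale.Agent.P367.MQ.gcj {Q W : Ω → M2} (hQ : MQ Q) (hW : MU W) : MQ fun ω => cj (W ω) (Q ω) := by
  refine ⟨alg_meas_mul (alg_meas_mul hW.1 hQ.1) fun a b => ?_, fun ω => (hQ.2 ω).gcj (hW.2 ω)⟩
  exact continuous_star.measurable.comp (hW.1 b a)

theorem mq_Qb {F : Ω → Bool} (hF : Measurable F) : MQ fun ω => Qb (F ω) :=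
  ⟨fun a b => (measurable_of_finite fun c : Bool => Qb c a b).comp hF, fun ω => pj_Qb _⟩

end

end Vale.Agent.P367.G
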