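import Vale.Agent.P367G.Defs2

/-! Algebra of two by two matrices. -/

set_option linter.all false

namespace Vale.Agent.P367.G

open MeasureTheory ProbabilityTheory Filter Topology Finset Vale.Agent.P146 Matrix
open scoped Classical

noncomputable section

theorem cj_mul (V W A : M2) : cj V (cj W A) = cj (V * W) A := by
  simp only [cj, conjTranspose_mul, Matrix.mul_assoc]

theorem cj_one (A : M2) : cj 1 A = A := by
  simp [cj]

theorem cj_smul {c : ℂ} (hc : ‖c‖ = 1) (V A : M2) : cj (c • V) A = cj V A := by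
  have h : c * star c = 1 := by
    rw [Complex.star_def, Complex.mul_conj, Complex.normSq_eq_norm_sq, hc]
    simp
  simp only [cj, conjTranspose_smul, Matrix.smul_mul, Matrix.mul_smul, smul_smul]
  rw [mul_comm, h, one_smul]

theorem uni_one : Uni 1 := one_mem _

theorem uni_mul {V W : M2} (hV : Uni V) (hW : Uni W) : Uni (V * W) := mul_mem hV hW

theorem uni_RZ (t : ℝ) : Uni (RZ t) := by
  rw [Uni, Matrix.mem_unitaryGroup_iff, star_eq_conjTranspose, RZ, diagonal_conjTranspose,
    diagonal_mul_diagonal, ← diagonal_one]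
  congr 1
  funext a
  rw [Pi.star_apply, Complex.star_def, ← Complex.exp_conj, ← Complex.exp_add]
  simp

theorem uni_RX (t : ℝ) : Uni (RX t) := by
  have h : (Real.cos t : ℂ) ^ 2 + (Real.sin t : ℂ) ^ 2 = 1 := by
    exact_mod_cast Real.cos_sq_add_sin_sq t
  rw [Uni, Matrix.mem_unitaryGroup_iff, star_eq_conjTranspose]
  ext a b
  cases a <;> cases b <;>
    simp only [RX, mul_apply, Fintype.sum_bool, conjTranspose_apply, of_apply, one_apply,
      if_true, Bool.true_eq_false, Bool.false_eq_true, if_false, map_neg, map_mul,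
      Complex.star_def, Complex.conj_ofReal, Complex.conj_I]
  · linear_combination h - (Real.sin t : ℂ) ^ 2 * Complex.I_mul_I
  · ring
  · ring
  · linear_combination h - (Real.sin t : ℂ) ^ 2 * Complex.I_mul_I

theorem uni_PX : Uni PX := by
  rw [Uni, Matrix.mem_unitaryGroup_iff, star_eq_conjTranspose]
  ext a b
  cases a <;> cases b <;> simp [PX, mul_apply, conjTranspose_apply]

theorem PX_mul_PX : PX * PX = 1 := by
  ext a b
  cases a <;> cases b <;> simp [PX, mul_apply]

theorem RZ_zero : RZ 0 = 1 := by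
  simp [RZ]

theorem RX_zero : RX 0 = 1 := by
  ext a b
  cases a <;> cases b <;> simp [RX]

theorem RZ_add (s t : ℝ) : RZ (s + t) = RZ s * RZ t := by
  rw [RZ, RZ, RZ, diagonal_mul_diagonal]
  congr 1
  funext a
  rw [← Complex.exp_add]
  congr 1
  push_cast
  ring

theorem RX_add (s t : ℝ) : RX (s + t) = RX s * RX t := by
  ext a b
  cases a <;> cases b <;>
    simp only [RX, mul_apply, Fintype.sum_bool, of_apply, if_true, Bool.true_eq_false,
      Bool.false_eq_true, if_false, Real.cos_add, Real.sin_add, Complex.ofReal_add,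
      Complex.ofReal_sub, Complex.ofReal_mul]
  · linear_combination (-(Real.sin s : ℂ) * Real.sin t) * Complex.I_mul_I
  · ring
  · ring
  · linear_combination (-(Real.sin s : ℂ) * Real.sin t) * Complex.I_mul_I

theorem RX_half : RX (Real.pi / 2) = (-Complex.I) • PX := by
  ext a b
  cases a <;> cases b <;> simp [RX, PX]

theorem cont_RZ (a b : Bool) : Continuous fun t => RZ t a b := by
  simp only [RZ, diagonal_apply]
  split_ifs
  · fun_prop
  · exact continuous_const

theorem cont_RX (a b : Bool) : Continuous fun t => RX t a b := by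
  simp only [RX, of_apply]
  split_ifs <;> fun_prop

theorem pj_Qb (b : Bool) : Pj (Qb b) := by
  cases b
  · refine ⟨PX, uni_PX, ?_⟩
    ext a b
    cases a <;> cases b <;> simp [cj, PX, Qb, mul_apply, conjTranspose_apply]
  · exact ⟨1, uni_one, (cj_one _).symm⟩

theorem _root_.Vale.Agent.P367.Pj.gcj {V A : M2} (hA : Pj A) (hV : Uni V) : Pj (cj V A) := by
  obtain ⟨W, hW, rfl⟩ := hA
  exact ⟨V * W, uni_mul hV hW, cj_mul _ _ _⟩

theorem cj_RZ_Qb (t : ℝ) (b : Bool) : cj (RZ t) (Qb b) = Qb b := by
  have h := (Matrix.mem_unitaryGroup_iff).1 (uni_RZ t)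
  have hc : RZ t * Qb b = Qb b * RZ t := by
    rw [RZ, Qb, diagonal_mul_diagonal, diagonal_mul_diagonal]
    congr 1
    funext a
    ring
  rw [cj, hc, Matrix.mul_assoc, ← star_eq_conjTranspose, h, Matrix.mul_one]

theorem cj_PX_Qb (b : Bool) : cj PX (Qb b) = Qb (!b) := by
  ext a c
  cases b <;> cases a <;> cases c <;> simp [cj, PX, Qb, mul_apply, conjTranspose_apply]

end

end Vale.Agent.P367.G
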