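import Vale.Agent.P367G.Thr0

/-! Thresholds and classes. -/

set_option linter.all false

namespace Vale.Agent.P367.G

open MeasureTheory ProbabilityTheory Filter Topology Finset Vale.Agent.P146 Matrix
open scoped Classical

noncomputable section

variable {M N k : ℕ} {m : Measure (Cl M N k)} {a b : ℝ}

theorem meas_cl (s : Set (Cl M N k)) : MeasurableSet {l : Lab M N k | l.1 ∈ s} :=
  measurable_fst (MeasurableSet.of_discrete (s := s))

theorem meas_Wc (c : Fin M × Fin N) : MeasurableSet (Wc k c) := meas_cl {Sum.inl c}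

theorem meas_Win (T : Finset (Fin M × Fin N)) : MeasurableSet (Win k T) :=
  meas_cl {x | ∃ c ∈ T, x = Sum.inl c}

theorem meas_Hb (r : Fin M) (i : Fin k) : MeasurableSet (Hb N r i) :=
  meas_cl {Sum.inr (r, i.castSucc)}

theorem meas_Dom (r : Fin M) (T : Finset (Fin M × Fin N)) (i : Fin k) :
    MeasurableSet (Dom r T i) :=
  (meas_Win _).union (meas_cl {x | ∃ j ≤ i, x = Sum.inr (r, j.castSucc)})

theorem thr_real (h : ClLaw m a b) (s : Set (Cl M N k)) :
    (m.prod un).real {l | l.1 ∈ s} = m.real s := by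
  have := h.prob
  have e : {l : Lab M N k | l.1 ∈ s} = s ×ˢ Set.univ := by
    ext l
    simp
  rw [e, measureReal_prod_prod, probReal_univ, mul_one]

theorem thr_win (h : ClLaw m a b) (T : Finset (Fin M × Fin N)) :
    m.real {x | ∃ c ∈ T, x = Sum.inl c} = T.card * a := by
  have := h.prob
  have e : {x : Cl M N k | ∃ c ∈ T, x = Sum.inl c} =
      ((T.map Function.Embedding.inl : Finset (Cl M N k)) : Set (Cl M N k)) := by
    ext x
    simp [eq_comm]
  rw [e, ← sum_measureReal_singleton, Finset.sum_map]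
  simp [h.wk]

theorem ClLaw.Wc (h : ClLaw m a b) (c : Fin M × Fin N) : (m.prod un).real (Wc k c) = a :=
  (thr_real h {Sum.inl c}).trans (h.wk c)

theorem ClLaw.Hb (h : ClLaw m a b) (r : Fin M) (i : Fin k) : (m.prod un).real (Hb N r i) = b :=
  (thr_real h {Sum.inr (r, i.castSucc)}).trans (h.bus _)

theorem ClLaw.Win (h : ClLaw m a b) (T : Finset (Fin M × Fin N)) :
    (m.prod un).real (Win k T) = T.card * a :=
  (thr_real h {x | ∃ c ∈ T, x = Sum.inl c}).trans (thr_win h T)

theorem ClLaw.Win_compl (h : ClLaw m a b) (T : Finset (Fin M × Fin N)) :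
    (m.prod un).real (Vale.Agent.P367.G.Win k Tᶜ)ᶜ = T.card * a + M * (k + 1) * b := by
  have := h.prob
  have e : ((T.card + Tᶜ.card : ℕ) : ℝ) = M * N := by
    rw [Finset.card_add_card_compl]
    simp
  have t := h.tot
  rw [← e] at t
  rw [measureReal_compl (meas_Win _), probReal_univ, h.Win]
  push_cast at t
  linarith

theorem card_Tr (r : Fin M) : (Tr N r).card = N := by
  have e : Tr N r = {r} ×ˢ univ := by
    ext c
    simp only [Tr, Finset.mem_filter, Finset.mem_univ, true_and, Finset.mem_product,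
      Finset.mem_singleton, and_true]
  rw [e]
  simp

/-- a weighted sum of Dirac masses -/
theorem exists_clLaw (M N k : ℕ) {a b : ℝ} (ha : 0 < a) (hb : 0 < b)
    (h : M * N * a + M * (k + 1) * b = 1) : ∃ m : Measure (Cl M N k), ClLaw m a b := by
  have key : ∀ x : Cl M N k, (∑ c : Cl M N k, ENNReal.ofReal
      (Sum.elim (fun _ => a) (fun _ => b) c) • Measure.dirac c : Measure (Cl M N k)) {x} =
      ENNReal.ofReal (Sum.elim (fun _ => a) (fun _ => b) x) := by
    intro x
    rw [Measure.finset_sum_apply, Finset.sum_eq_single x]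
    · simp
    · intro c _ hc
      simp [hc]
    · simp
  refine ⟨∑ c : Cl M N k, ENNReal.ofReal (Sum.elim (fun _ => a) (fun _ => b) c) • Measure.dirac c,
    ⟨?_⟩, ha, hb, fun c => ?_, fun c => ?_, h⟩
  · rw [Measure.finset_sum_apply]
    simp only [Measure.smul_apply, measure_univ, smul_eq_mul, mul_one]
    rw [← ENNReal.ofReal_sum_of_nonneg, Fintype.sum_sum_type, ← ENNReal.ofReal_one, ← h]
    · simp
    · rintro (c | c) _
      · exact ha.le
      · exact hb.le
  · rw [measureReal_def, key]
    exact ENNReal.toReal_ofReal ha.le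
  · rw [measureReal_def, key]
    exact ENNReal.toReal_ofReal hb.le

/-- integrals of functions of the class and of the threshold -/
theorem ClLaw.int_Win (h : ClLaw m a b) (T : Finset (Fin M × Fin N)) {φ : ℝ → ℝ}
    (hφ : Measurable φ) {C : ℝ} (hC : ∀ U, |φ U| ≤ C) :
    ∫ l, (if l ∈ Vale.Agent.P367.G.Win k T then φ l.2 else 0) ∂m.prod un =
      T.card * a * ∫ U, φ U ∂un := by
  have := h.prob
  have e : (fun l : Lab M N k => if l ∈ Vale.Agent.P367.G.Win k T then φ l.2 else 0) = fun l =>
      {x : Cl M N k | ∃ c ∈ T, x = Sum.inl c}.indicator (1 : Cl M N k → ℝ) l.1 * φ l.2 := by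
    funext l
    by_cases hl : l ∈ Vale.Agent.P367.G.Win k T
    · rw [if_pos hl, Set.indicator_of_mem (a := l.1) hl, Pi.one_apply, one_mul]
    · rw [if_neg hl, Set.indicator_of_notMem (a := l.1) hl, zero_mul]
  rw [e, integral_prod_mul, integral_indicator_one MeasurableSet.of_discrete, thr_win h]

end

end Vale.Agent.P367.G
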