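import Vale.Agent.P367G.Gau2
import Vale.Agent.P367G.Thr

/-! The bus. -/

set_option linter.all false

namespace Vale.Agent.P367.G

open MeasureTheory ProbabilityTheory Filter Topology Finset Vale.Agent.P146 Matrix
open scoped Classical

noncomputable section

variable {M N k : ℕ} {Ω : Type} [MeasurableSpace Ω] {m : Measure (Cl M N k)} {P : Measure Ω}
  [IsProbabilityMeasure P] {X : Data (m.prod un) P} {Pr : Prog k} {B a b : ℝ} {K : ℕ}
  {σ : Ω → Bool} {r : Fin M} {T : Finset (Fin M × Fin N)}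

variable {i : Fin k} {c : Fin M × Fin N}

theorem bus_dec : Measurable fun x : ℝ => !decide (x < 0) := by
  have h : (fun x : ℝ => !decide (x < 0)) = fun x => if x < 0 then false else true := by
    funext x
    split_ifs with h <;> simp [h]
  rw [h]
  exact Measurable.ite (measurableSet_lt measurable_id measurable_const) measurable_const
    measurable_const

theorem bus_abs (x : ℝ) : spin (!decide (x < 0)) * x = |x| := by
  by_cases h : x < 0
  · simp [spin, h, abs_of_neg h]
  · simp [spin, h, abs_of_nonneg (not_lt.1 h)]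

theorem bus_pt (x l : ℝ) (s : Bool) :
    (spin (if x + l * spin s < 0 then !s else s) - 1) ^ 2 ≤ if l ≤ |x| then 4 else 0 := by
  have h1 := le_abs_self x
  have h2 := neg_abs_le x
  by_cases h : l ≤ |x|
  · rw [if_pos h]
    generalize (if x + l * spin s < 0 then !s else s) = t
    cases t <;> norm_num [spin]
  · rw [if_neg h]
    rw [not_le] at h
    cases s
    · rw [if_pos (by simp only [spin, Bool.false_eq_true, if_false]; linarith)]
      simp [spin]
    · rw [if_neg (by simp only [spin, if_true]; linarith)]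
      simp [spin]

theorem bus_disj (r : Fin M) (i : Fin k) : Disjoint (Win k (univ : Finset (Fin M × Fin N)))
    (Hb N r i) := by
  rw [Set.disjoint_left]
  rintro l ⟨c, -, h1⟩ h2
  exact Sum.inl_ne_inr (h1.symm.trans h2)

theorem bus_ind {A : Set (Lab M N k)} (hA : MeasurableSet A) :
    ∫ ω, (if X.lab ω ∈ A then (1 : ℝ) else 0) ∂P = (m.prod un).real A := by
  have h1 : (fun ω => if X.lab ω ∈ A then (1 : ℝ) else 0) = (X.lab ⁻¹' A).indicator 1 := by
    funext ω
    simp [Set.indicator_apply]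
  rw [h1, integral_indicator_one (X.mlab hA), ← map_measureReal_apply X.mlab hA, X.law]

theorem bus_var {w : Lp ℝ 2 P} {v : ℝ} (h : ‖w‖ ^ 2 = v) : ((‖w‖₊ ^ 2 : NNReal) : ℝ) = v := by
  rw [← h]
  rfl

theorem bus_lab [IsProbabilityMeasure (m.prod un)] {A : Set (Lab M N k)} (hA : MeasurableSet A)
    (w : Lp ℝ 2 P) {ψ : ℝ → ℝ} (hψ : Measurable ψ) :
    ∫ ω, (if X.lab ω ∈ A then (1 : ℝ) else 0) * ψ (X.S w ω) ∂P =
      (m.prod un).real A * ∫ x, ψ x ∂gaussianReal 0 (‖w‖₊ ^ 2) := by
  rw [X.int_mul (V := ∅) (fun g hg => hg.elim)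
    (Measurable.ite (X.sig_lab ∅ hA) measurable_const measurable_const) hψ, bus_ind hA]

theorem meas_gw (σ : Ω → Bool) (c : Fin M × Fin N) : Measurable (gw X σ c) :=
  bus_dec.comp (Lp.stronglyMeasurable _).measurable

theorem meas_rd (σ : Ω → Bool) (r : Fin M) (i : Fin k) (c : Fin M × Fin N) :
    Measurable (rd X σ r i c) :=
  (Lp.stronglyMeasurable _).measurable

theorem meas_eps (hσ : Measurable σ) (r : Fin M) (i : Fin k) (c : Fin M × Fin N) :
    Measurable (eps X σ r i c) :=
  Measurable.ite (measurableSet_lt (meas_rd σ r i c) measurable_const)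
    ((measurable_of_countable fun b : Bool => !b).comp hσ) hσ

/-- `fld_ae`, `Sa_zero`, `orth` with `V = sup (Win k univ)` -/
theorem wr_eq (hm : ClLaw m a b) (hσ : Ok X σ) (r : Fin M) (i : Fin k) (c : Fin M × Fin N) :
    ∀ᵐ ω ∂P, X.lab ω ∈ Hb N r i → X.fld (Wc k c) σ ω = X.S (X.msg (Wc k c) σ) ω := by
  haveI := hm.prob
  have h1 := X.Sa_zero (meas_Hb r i) (f := X.msg (Wc k c) σ) fun g hg =>
    X.orth (V := X.sup (Win k univ)) (fun g' hg' => X.sup_orth (bus_disj r i) hg' hg)
      (Measurable.ite (X.sig_lab _ (meas_Wc c)) (meas_spin.comp hσ.sg) measurable_const)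
      (X.msg_ae (meas_Wc c) hσ.meas)
  filter_upwards [h1, X.fld_ae (Wc k c) σ] with ω h2 h3 h4
  rw [h3, h2 h4, add_zero]

/-- `Sa_one` with `e = msg (Wc k c) σ`, `‖e‖ ^ 2 = a`, and
`inner (msg H gw) (S e) = E [1_H |S e|] = b * √a * c0` (`Data.ind`, `int_abs_gauss`). -/
theorem rd_eq (hm : ClLaw m a b) (hσ : Measurable σ) (r : Fin M) (i : Fin k) (c : Fin M × Fin N) :
    ∀ᵐ ω ∂P, X.lab ω ∈ Wc k c → rd X σ r i c ω =
      X.S (X.msg (Hb N r i) (gw X σ c)) ω + b * c0 / √a * spin (σ ω) := by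
  haveI := hm.prob
  have hn : ‖X.msg (Wc k c) σ‖ ^ 2 = a := by rw [X.norm_msg (meas_Wc c) hσ, hm.Wc]
  have he : X.msg (Wc k c) σ ≠ 0 := fun h => by
    rw [h, norm_zero] at hn
    linarith [hm.apos]
  have hf := X.msg_ae (meas_Hb r i) (meas_gw (X := X) σ c)
  have h1 := X.Sa_one he (Measurable.ite (X.sig_lab _ (meas_Hb r i))
    (meas_spin.comp (bus_dec.comp (X.sig_S (Set.mem_singleton _)))) measurable_const) hf
  have h2 : inner ℝ (X.msg (Hb N r i) (gw X σ c)) (X.S (X.msg (Wc k c) σ)) = b * (√a * c0) := by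
    rw [inner_L, ← hm.Hb r i, ← bus_var hn, ← int_abs_gauss,
      ← bus_lab (X := X) (meas_Hb r i) _ measurable_abs]
    refine integral_congr_ae ?_
    filter_upwards [hf] with ω h3
    rw [h3]
    split_ifs
    · rw [one_mul, gw, bus_abs]
    · rw [zero_mul, zero_mul]
  have h3 : b * (√a * c0) / a = b * c0 / √a := by
    have h4 := Real.sqrt_pos.2 hm.apos
    rw [div_eq_div_iff hm.apos.ne' h4.ne']
    linear_combination b * c0 * Real.mul_self_sqrt hm.apos.le
  rw [h2, hn, h3] at h1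
  filter_upwards [X.fld_ae (Hb N r i) (gw X σ c), X.msg_ae (meas_Wc c) hσ,
    Lp.coeFn_smul (b * c0 / √a) (X.msg (Wc k c) σ)] with ω h4 h5 h6 h7
  rw [rd, h4, h1, h6, Pi.smul_apply, h5, if_pos h7, smul_eq_mul]

theorem bus_norm (hm : ClLaw m a b) (σ : Ω → Bool) (r : Fin M) (i : Fin k) (c : Fin M × Fin N) :
    ‖X.msg (Hb N r i) (gw X σ c)‖ ^ 2 = b := by
  haveI := hm.prob
  rw [X.norm_msg (meas_Hb r i) (meas_gw σ c), hm.Hb]

theorem bus_ne (hm : ClLaw m a b) (σ : Ω → Bool) (r : Fin M) (i : Fin k) (c : Fin M × Fin N) :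
    X.msg (Hb N r i) (gw X σ c) ≠ 0 := fun h => by
  have h1 := bus_norm (X := X) hm σ r i c
  rw [h, norm_zero] at h1
  linarith [hm.bpos]

theorem rd_ne (hm : ClLaw m a b) (hσ : Measurable σ) (r : Fin M) (i : Fin k) (c : Fin M × Fin N) :
    ∀ᵐ ω ∂P, X.lab ω ∈ Wc k c → rd X σ r i c ω ≠ 0 := by
  haveI := hm.prob
  filter_upwards [rd_eq hm hσ r i c, X.S_ne (bus_ne hm σ r i c) (b * c0 / √a),
    X.S_ne (bus_ne hm σ r i c) (-(b * c0 / √a))] with ω h1 h2 h3 h4 h5
  rw [h1 h4] at h5
  generalize b * c0 / √a = l at h2 h3 h5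
  cases h : σ ω
  · rw [h] at h5
    exact h2 (by simp only [spin, Bool.false_eq_true, if_false] at h5; linarith)
  · rw [h] at h5
    exact h3 (by simp only [spin, if_true] at h5; linarith)

/-- the event is contained in `{lab ∈ Wc, l ≤ |S w|}`, `l = b c0 / √a`; `gauss_cheb` -/
theorem eps_bad (hm : ClLaw m a b) (hσ : Measurable σ) (r : Fin M) (i : Fin k)
    (c : Fin M × Fin N) :
    ∫ ω, (if X.lab ω ∈ Wc k c then (spin (eps X σ r i c ω) - 1) ^ 2 else 0) ∂P ≤
      4 * a * (a / (b * c0 ^ 2)) := by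
  haveI := hm.prob
  have ha := hm.apos
  have hb := hm.bpos
  have hc := c0_pos
  have hl : 0 < b * c0 / √a := by positivity
  have hs : MeasurableSet {x : ℝ | b * c0 / √a ≤ |x|} :=
    measurableSet_le measurable_const measurable_abs
  have hψ : Measurable fun x : ℝ => if b * c0 / √a ≤ |x| then (4 : ℝ) else 0 :=
    Measurable.ite hs measurable_const measurable_const
  have h1 := bus_lab (X := X) (meas_Wc c) (X.msg (Hb N r i) (gw X σ c)) hψ
  have h2 : (fun x : ℝ => if b * c0 / √a ≤ |x| then (4 : ℝ) else 0) =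
      {x : ℝ | b * c0 / √a ≤ |x|}.indicator fun _ => 4 := by
    funext x
    simp [Set.indicator_apply]
  have h3 := gauss_cheb (‖X.msg (Hb N r i) (gw X σ c)‖₊ ^ 2) hl
  rw [bus_var (bus_norm hm σ r i c)] at h3
  have h4 : b / (b * c0 / √a) ^ 2 = a / (b * c0 ^ 2) := by
    rw [div_pow, Real.sq_sqrt ha.le]
    field_simp
  rw [hm.Wc] at h1
  conv at h1 => rhs; rw [h2, integral_indicator_const _ hs, smul_eq_mul]
  refine le_trans (integral_mono_of_nonneg (Eventually.of_forall fun ω => ?_) ?_ ?_)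
    (h1.le.trans ((mul_le_mul_of_nonneg_left (mul_le_mul_of_nonneg_right (h3.trans h4.le)
      (by norm_num)) ha.le).trans_eq (by ring)))
  · dsimp only
    split_ifs <;> positivity
  · refine Integrable.of_bound (((Measurable.ite (X.mlab (meas_Wc c)) measurable_const
      measurable_const).mul (hψ.comp (X.meas_S _))).aestronglyMeasurable) 4
      (Eventually.of_forall fun ω => ?_)
    split_ifs <;> norm_num
  · filter_upwards [rd_eq hm hσ r i c] with ω h5
    by_cases h6 : X.lab ω ∈ Wc k c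
    · rw [if_pos h6, if_pos h6, one_mul, eps, h5 h6]
      exact bus_pt _ _ _
    · rw [if_neg h6, if_neg h6, zero_mul]

/-- Split according to `σ`, `int_mul` with `V = sup (Win k univ)` and the kernel
`w = msg (Hb N r i) (gw X σ c)`, then `gauss_sym`. -/
theorem eps_int (hm : ClLaw m a b) (hσ : Ok X σ) (r : Fin M) (i : Fin k) (c : Fin M × Fin N) :
    ∃ κ : ℝ, ∀ Y : Ω → ℝ, Measurable[X.sig (X.sup (Win k univ))] Y → Integrable Y P →
      ∫ ω, (if X.lab ω ∈ Wc k c then spin (eps X σ r i c ω) * Y ω else 0) ∂P =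
        κ * ∫ ω, (if X.lab ω ∈ Wc k c then Y ω else 0) ∂P := by
  haveI := hm.prob
  have hv : ‖X.msg (Hb N r i) (gw X σ c)‖₊ ^ 2 ≠ 0 :=
    pow_ne_zero _ (nnnorm_ne_zero_iff.2 (bus_ne hm σ r i c))
  have ho : ∀ g ∈ X.sup (Win k univ), inner ℝ g (X.msg (Hb N r i) (gw X σ c)) = 0 := fun g hg =>
    X.sup_orth (bus_disj r i) hg (X.msg_sup (meas_Hb r i) (meas_gw σ c))
  have hψ1 : Measurable fun x : ℝ => if x + b * c0 / √a < 0 then (-1 : ℝ) else 1 :=
    Measurable.ite (measurableSet_lt (by fun_prop) measurable_const) measurable_const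
      measurable_const
  have hψ2 : Measurable fun x : ℝ => if x - b * c0 / √a < 0 then (1 : ℝ) else -1 :=
    Measurable.ite (measurableSet_lt (by fun_prop) measurable_const) measurable_const
      measurable_const
  refine ⟨∫ x, (if x + b * c0 / √a < 0 then (-1 : ℝ) else 1)
    ∂gaussianReal 0 (‖X.msg (Hb N r i) (gw X σ c)‖₊ ^ 2), fun Y hY hI => ?_⟩
  have hm' : ∀ s : Bool, Measurable[X.sig (X.sup (Win k univ))]
      fun ω => if X.lab ω ∈ Wc k c ∧ σ ω = s then Y ω else 0 := fun s =>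
    Measurable.ite ((X.sig_lab _ (meas_Wc c)).inter (hσ.sg (measurableSet_singleton s))) hY
      measurable_const
  have hi : ∀ s : Bool, Integrable (fun ω => if X.lab ω ∈ Wc k c ∧ σ ω = s then Y ω else 0) P :=
    fun s => hI.norm.mono' ((hm' s).mono (X.sig_le _) le_rfl).aestronglyMeasurable
      (Eventually.of_forall fun ω => by split_ifs <;> simp)
  have h1 := X.int_mul ho (hm' true) hψ1
  have h2 := X.int_mul ho (hm' false) hψ2
  rw [← gauss_sym hv] at h2
  have h3 : ∫ ω, (if X.lab ω ∈ Wc k c then Y ω else 0) ∂P =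
      ∫ ω, (if X.lab ω ∈ Wc k c ∧ σ ω = true then Y ω else 0) ∂P +
        ∫ ω, (if X.lab ω ∈ Wc k c ∧ σ ω = false then Y ω else 0) ∂P := by
    rw [← integral_add (hi true) (hi false)]
    refine integral_congr_ae (Eventually.of_forall fun ω => ?_)
    by_cases h : X.lab ω ∈ Wc k c <;> cases h' : σ ω <;> simp [h, h']
  rw [h3, mul_add, mul_comm _ (integral P _), mul_comm _ (integral P _), ← h1, ← h2,
    ← integral_add]
  · refine integral_congr_ae ?_
    filter_upwards [rd_eq hm hσ.meas r i c] with ω h5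
    by_cases h6 : X.lab ω ∈ Wc k c
    · rw [if_pos h6, eps, h5 h6]
      cases σ ω
      · simp only [spin, Bool.false_eq_true, if_false, and_false, zero_mul, zero_add, h6, and_self,
          if_true, mul_neg, mul_one, ← sub_eq_add_neg, Bool.not_false]
        split_ifs <;> simp_all
      · simp only [spin, Bool.true_eq_false, if_false, and_false, zero_mul, add_zero, h6, and_self,
          if_true, mul_one, Bool.not_true]
        split_ifs <;> simp_all
    · simp [h6]
  · exact (hi true).mul_bdd (c := 1) (hψ1.comp (X.meas_S _)).aestronglyMeasurable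
      (Eventually.of_forall fun ω => by split_ifs <;> simp)
  · exact (hi false).mul_bdd (c := 1) (hψ2.comp (X.meas_S _)).aestronglyMeasurable
      (Eventually.of_forall fun ω => by split_ifs <;> simp)

end

end Vale.Agent.P367.G
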