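import Vale.Agent.P367G.Ker

/-! The kernels are close to the reference. -/

set_option linter.all false

namespace Vale.Agent.P367.G

open MeasureTheory ProbabilityTheory Filter Topology Finset Vale.Agent.P146 Matrix
open scoped Classical

noncomputable section

variable {M N k : ℕ} {Ω : Type} [MeasurableSpace Ω] {m : Measure (Cl M N k)} {P : Measure Ω}
  [IsProbabilityMeasure P] {X : Data (m.prod un) P} {Pr : Prog k} {B a b : ℝ} {K : ℕ}
  {σ : Ω → Bool} {r : Fin M} {T : Finset (Fin M × Fin N)}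

theorem close_u (h : Pr.Nice B) (i : Fin k) (x y : Fin k → ℝ) :
    (Pr.u i x - Pr.u i y) ^ 2 ≤ B ^ 2 * k * ∑ j ∈ univ.filter (· < i), (x j - y j) ^ 2 := by
  have e : Pr.u i x = Pr.u i fun j => if j < i then x j else y j :=
    h.ad i _ _ fun j hj => by rw [if_pos hj]
  have h1 := h.ul i (fun j => if j < i then x j else y j) y
  have h2 := sq_sum_le_card_mul_sum_sq (s := (univ : Finset (Fin k)))
    (f := fun j => |(if j < i then x j else y j) - y j|)
  have h3 : ∑ j, |(if j < i then x j else y j) - y j| ^ 2 =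
      ∑ j ∈ univ.filter (· < i), (x j - y j) ^ 2 := by
    rw [sum_filter]
    refine sum_congr rfl fun j _ => ?_
    split_ifs <;> simp
  rw [h3, card_univ, Fintype.card_fin] at h2
  rw [e, ← sq_abs, mul_assoc]
  refine (pow_le_pow_left₀ (abs_nonneg _) h1 2).trans ?_
  rw [mul_pow]
  exact mul_le_mul_of_nonneg_left h2 (sq_nonneg _)

theorem close_st (hK : 0 < K) (hB : 1 ≤ B) {v U : ℝ} (hv : |v| ≤ B) (hU : |U| ≤ 1) (s w : ℝ) :
    (∑ κ : Fin K, B / K * (s * if v / B - thr K κ U < 0 then -1 else 1) - w) ^ 2 ≤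
      3 * B ^ 2 * (s - 1) ^ 2 + 12 * B ^ 2 / K ^ 2 + 3 * (v - w) ^ 2 := by
  have hB0 : 0 < B := by linarith
  have hK0 : (0 : ℝ) < K := Nat.cast_pos.2 hK
  have h1 := stair hK (c := v / B) (U := U)
    (by rw [abs_div, abs_of_pos hB0, div_le_one hB0]; exact hv) hU
  set S : ℝ := ∑ κ : Fin K, if v / B - thr K κ U < 0 then (-1 : ℝ) else 1 with hS
  have h2 : |S| ≤ K := by
    refine (abs_sum_le_sum_abs _ _).trans (le_of_eq ?_)
    rw [sum_congr rfl fun κ _ => show |if v / B - thr K κ U < 0 then (-1 : ℝ) else 1| = 1 by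
      split_ifs <;> simp]
    simp
  have h3 : (1 / (K : ℝ) * S) ^ 2 ≤ 1 := by
    rw [← sq_abs, abs_mul, abs_of_pos (by positivity : (0 : ℝ) < 1 / K)]
    refine pow_le_one₀ (by positivity) ?_
    rw [one_div, inv_mul_le_iff₀ hK0, mul_one]
    exact h2
  have h4 : (1 / (K : ℝ) * S - v / B) ^ 2 ≤ 4 / K ^ 2 := by
    rw [← sq_abs]
    refine (pow_le_pow_left₀ (abs_nonneg _) h1 2).trans (le_of_eq ?_)
    ring
  have e : ∑ κ : Fin K, B / K * (s * if v / B - thr K κ U < 0 then -1 else 1) - w =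
      B * (s - 1) * (1 / K * S) + B * (1 / K * S - v / B) + (v - w) := by
    rw [← mul_sum, ← mul_sum, ← hS]
    field_simp
    ring
  have h5 := mul_le_mul_of_nonneg_left h3 (sq_nonneg (B * (s - 1)))
  have h6 := mul_le_mul_of_nonneg_left h4 (sq_nonneg B)
  have h7 : ∀ p q t : ℝ, (p + q + t) ^ 2 ≤ 3 * p ^ 2 + 3 * q ^ 2 + 3 * t ^ 2 := fun p q t => by
    nlinarith [sq_nonneg (p - q), sq_nonneg (q - t), sq_nonneg (p - t)]
  rw [e]
  refine (h7 _ _ _).trans ?_
  rw [mul_pow _ (1 / K * S), mul_pow B (1 / K * S - v / B)]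
  have e2 : 12 * B ^ 2 / K ^ 2 = 3 * (B ^ 2 * (4 / K ^ 2)) := by ring
  have e3 : 3 * B ^ 2 * (s - 1) ^ 2 = 3 * ((B * (s - 1)) ^ 2 * 1) := by ring
  rw [e2, e3]
  linarith

theorem close_ae (hm : ClLaw m a b) (h : Pr.Nice B) (hσ : Measurable σ) (i : Fin k) :
    ∀ᵐ ω ∂P, ker X Pr B K σ r T i ω = ∑ c ∈ Tᶜ, ∑ κ : Fin K, B / K *
      if X.lab ω ∈ Wc k c then spin (sb X Pr B K σ r T i c κ ω) else 0 := by
  haveI := hm.prob
  have h1 : ∀ c κ, ((B / K) • X.msg (Wc k c) (sb X Pr B K σ r T i c κ) : Lp ℝ 2 P) =ᵐ[P] fun ω =>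
      B / K * if X.lab ω ∈ Wc k c then spin (sb X Pr B K σ r T i c κ ω) else 0 := fun c κ => by
    filter_upwards [Lp.coeFn_smul (B / K) (X.msg (Wc k c) (sb X Pr B K σ r T i c κ)),
      X.msg_ae (meas_Wc c) (meas_sb (X := X) h hσ r T i c κ)] with ω e1 e2
    rw [e1, Pi.smul_apply, e2, smul_eq_mul]
  have h2 : ∀ c, (∑ κ : Fin K, (B / K) • X.msg (Wc k c) (sb X Pr B K σ r T i c κ) : Lp ℝ 2 P)
      =ᵐ[P] fun ω => ∑ κ : Fin K, B / K *
        if X.lab ω ∈ Wc k c then spin (sb X Pr B K σ r T i c κ ω) else 0 := fun c => by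
    filter_upwards [Lp.coeFn_finsetSum univ fun κ : Fin K =>
      (B / K) • X.msg (Wc k c) (sb X Pr B K σ r T i c κ), ae_all_iff.2 (h1 c)] with ω e1 e2
    rw [e1, Finset.sum_apply]
    exact sum_congr rfl fun κ _ => e2 κ
  rw [ker_eq h]
  filter_upwards [Lp.coeFn_finsetSum Tᶜ fun c => ∑ κ : Fin K,
    (B / K) • X.msg (Wc k c) (sb X Pr B K σ r T i c κ), ae_all_iff.2 h2] with ω e1 e2
  rw [e1, Finset.sum_apply]
  exact sum_congr rfl fun c _ => e2 c

theorem close_ind {A : Set (Lab M N k)} (hA : MeasurableSet A) (t : ℝ) :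
    ∫ ω, (if X.lab ω ∈ A then t else 0) ∂P = (m.prod un).real A * t := by
  have e := map_measureReal_apply (μ := P) X.mlab hA
  rw [X.law] at e
  rw [e, ← smul_eq_mul, ← integral_indicator_const t (X.mlab hA)]
  rfl

theorem close_int {A : Set (Lab M N k)} (hA : MeasurableSet A) {f : Ω → ℝ} (hf : Integrable f P) :
    Integrable (fun ω => if X.lab ω ∈ A then f ω else 0) P :=
  hf.indicator (X.mlab hA)

/-- the bound on the class `c` -/
def closeG (X : Data (m.prod un) P) (Pr : Prog k) (B : ℝ) (K : ℕ) (σ : Ω → Bool) (r : Fin M)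
    (T : Finset (Fin M × Fin N)) (i : Fin k) (c : Fin M × Fin N) (ω : Ω) : ℝ :=
  3 * B ^ 2 * (if X.lab ω ∈ Wc k c then (spin (eps X σ r i c ω) - 1) ^ 2 else 0) +
    (if X.lab ω ∈ Wc k c then 12 * B ^ 2 / K ^ 2 else 0) +
    3 * B ^ 2 * k * ∑ j ∈ univ.filter (· < i), if X.lab ω ∈ Wc k c then
      (X.S (ker X Pr B K σ r (insert c T) j) ω - X.S (X.rf Pr j) ω) ^ 2 else 0

theorem close_G (hm : ClLaw m a b) (hσ : Measurable σ) (i : Fin k) (c : Fin M × Fin N)
    {D : Fin k → ℝ} (ih : ∀ j, j < i →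
      ‖ker X Pr B K σ r (insert c T) j - X.rf Pr j‖ ^ 2 ≤ D j) :
    Integrable (closeG X Pr B K σ r T i c) P ∧ ∫ ω, closeG X Pr B K σ r T i c ω ∂P ≤
      a * (12 * B ^ 2 * (a / (b * c0 ^ 2)) + 12 * B ^ 2 / K ^ 2 +
        3 * B ^ 2 * k * ∑ j ∈ univ.filter (· < i), D j) := by
  haveI := hm.prob
  have i1 : Integrable (fun ω => 3 * B ^ 2 *
      if X.lab ω ∈ Wc k c then (spin (eps X σ r i c ω) - 1) ^ 2 else 0) P := by
    refine (close_int (meas_Wc c) (MemLp.integrable_sq (memLp_bd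
      ((meas_spin.comp (meas_eps hσ r i c)).sub_const 1) (C := 2) fun ω => ?_))).const_mul _
    simp only [Function.comp]
    cases eps X σ r i c ω <;> norm_num [spin]
  have i2 : Integrable (fun ω => if X.lab ω ∈ Wc k c then 12 * B ^ 2 / K ^ 2 else 0) P :=
    close_int (meas_Wc c) (integrable_const _)
  have i3 : ∀ j, Integrable (fun ω => if X.lab ω ∈ Wc k c then
      (X.S (ker X Pr B K σ r (insert c T) j) ω - X.S (X.rf Pr j) ω) ^ 2 else 0) P := fun j =>
    close_int (meas_Wc c) ((Lp.memLp _).sub (Lp.memLp _)).integrable_sq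
  have i4 := (integrable_finsetSum (univ.filter (· < i)) fun j _ => i3 j).const_mul
    (3 * B ^ 2 * k)
  refine ⟨(i1.add i2).add i4, ?_⟩
  unfold closeG
  rw [integral_add (i1.fun_add i2) i4, integral_add i1 i2, integral_const_mul, integral_const_mul,
    integral_finsetSum _ fun j _ => i3 j, close_ind (meas_Wc c), hm.Wc]
  have h1 := mul_le_mul_of_nonneg_left (eps_bad (X := X) hm hσ r i c)
    (by positivity : 0 ≤ 3 * B ^ 2)
  have h2 : ∑ j ∈ univ.filter (· < i), ∫ ω, (if X.lab ω ∈ Wc k c then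
      (X.S (ker X Pr B K σ r (insert c T) j) ω - X.S (X.rf Pr j) ω) ^ 2 else 0) ∂P ≤
      a * ∑ j ∈ univ.filter (· < i), D j := by
    rw [mul_sum]
    refine sum_le_sum fun j hj => ?_
    rw [X.int_ind_sq (meas_Wc c), hm.Wc]
    exact mul_le_mul_of_nonneg_left (ih j (mem_filter.1 hj).2) hm.apos.le
  have h3 := mul_le_mul_of_nonneg_left h2 (by positivity : 0 ≤ 3 * B ^ 2 * k)
  linarith

theorem close_pt (hm : ClLaw m a b) (h : Pr.Nice B) (hK : 0 < K) (hσ : Measurable σ) (i : Fin k)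
    {A : Set (Lab M N k)} (hA : ∀ l, l ∈ A ↔ l ∉ Win k Tᶜ) :
    ∀ᵐ ω ∂P, (ker X Pr B K σ r T i - X.rf Pr i : Lp ℝ 2 P) ω ^ 2 ≤
      (if X.lab ω ∈ A then B ^ 2 else 0) + ∑ c ∈ Tᶜ, closeG X Pr B K σ r T i c ω := by
  haveI := hm.prob
  have hU : ∀ᵐ ω ∂P, |(X.lab ω).2| ≤ 1 := by
    have h1 : ∀ᵐ l ∂m.prod un, |l.2| ≤ 1 :=
      Measure.quasiMeasurePreserving_snd.ae un_ae
    rw [← X.law] at h1
    exact ae_of_ae_map X.mlab.aemeasurable h1
  filter_upwards [Lp.coeFn_sub (ker X Pr B K σ r T i) (X.rf Pr i),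
    close_ae (X := X) (K := K) (r := r) (T := T) hm h hσ i, X.rf_ae h i, hU] with ω e1 e2 e3 hU
  rw [e1, Pi.sub_apply, e2, e3]
  by_cases hω : X.lab ω ∈ Win k Tᶜ
  · rw [if_neg fun h' => (hA _).1 h' hω, zero_add]
    obtain ⟨c, hc, hl⟩ := hω
    have hc' : X.lab ω ∈ Wc k c := hl
    have hn : ∀ c', c' ≠ c → X.lab ω ∉ Wc k c' := fun c' hne h' =>
      hne (Sum.inl_injective (Eq.trans (Eq.symm h') hl))
    rw [sum_eq_single_of_mem c hc fun c' _ hne => by simp [hn c' hne],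
      sum_eq_single_of_mem c hc fun c' _ hne => by simp [closeG, hn c' hne]]
    simp only [closeG, if_pos hc', sb, spin_bit]
    refine (close_st hK h.one_le (h.ub i _) hU _ _).trans ?_
    have h1 := close_u h i (X.vec (ker X Pr B K σ r (insert c T)) ω) (X.vec (X.rf Pr) ω)
    simp only [Data.vec] at h1 ⊢
    linarith
  · have hn : ∀ c ∈ Tᶜ, X.lab ω ∉ Wc k c := fun c hc h' => hω ⟨c, hc, h'⟩
    rw [if_pos ((hA _).2 hω), sum_eq_zero fun c hc => by simp [hn c hc],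
      sum_eq_zero fun c hc => by simp [closeG, hn c hc], zero_sub, add_zero, neg_sq, ← sq_abs]
    exact pow_le_pow_left₀ (abs_nonneg _) (h.ub i _) 2

/-- Almost surely `ker T i = ∑ c ∈ Tᶜ, 1_c * spin eps * st` with `|st| ≤ B`,
`|st - u i (x c)| ≤ 2 B / K` (`stair`), `x c = vec (ker (insert c T))`, and
`|u i x - u i y| ≤ B * ∑ j < i, |x j - y j|` (adaptedness and `Nice.ul`). Use `rf_ae`, `norm_L`,
`(s + t + u) ^ 2 ≤ 3 (s ^ 2 + t ^ 2 + u ^ 2)`, `eps_bad`, `int_ind_sq`, `Win_compl`,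
`Tᶜ.card * a ≤ 1`. -/
theorem close_step (hm : ClLaw m a b) (h : Pr.Nice B) (hK : 0 < K) (hσ : Measurable σ) (i : Fin k)
    {D : Fin k → ℝ} (hD : ∀ j, 0 ≤ D j) (ih : ∀ c, c ∉ T → ∀ j, j < i →
      ‖ker X Pr B K σ r (insert c T) j - X.rf Pr j‖ ^ 2 ≤ D j) :
    ‖ker X Pr B K σ r T i - X.rf Pr i‖ ^ 2 ≤ B ^ 2 * (T.card * a + M * (k + 1) * b) +
      12 * B ^ 2 * (a / (b * c0 ^ 2)) + 12 * B ^ 2 / K ^ 2 +
      3 * B ^ 2 * k * ∑ j ∈ univ.filter (· < i), D j := by
  haveI := hm.prob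
  have hG := fun c (hc : c ∈ Tᶜ) => close_G (X := X) (Pr := Pr) (B := B) (K := K) (r := r) (T := T)
    hm hσ i c (ih c (mem_compl.1 hc))
  have i1 := close_int (X := X) (meas_Win Tᶜ).compl (integrable_const (B ^ 2))
  have i2 := integrable_finsetSum Tᶜ fun c hc => (hG c hc).1
  have h1 := integral_mono_of_nonneg (Eventually.of_forall fun ω => sq_nonneg _) (i1.add i2)
    (close_pt (X := X) (r := r) (T := T) hm h hK hσ i fun _ => Iff.rfl)
  rw [← norm_L] at h1
  refine h1.trans ?_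
  simp only [Pi.add_apply]
  rw [integral_add i1 i2, integral_finsetSum _ fun c hc => (hG c hc).1,
    close_ind (meas_Win _).compl, hm.Win_compl]
  have h2 := sum_le_sum fun c hc => (hG c hc).2
  rw [sum_const, nsmul_eq_mul, ← mul_assoc, ← hm.Win] at h2
  have h3 : 0 ≤ 12 * B ^ 2 * (a / (b * c0 ^ 2)) + 12 * B ^ 2 / K ^ 2 +
      3 * B ^ 2 * k * ∑ j ∈ univ.filter (· < i), D j := by
    have := hm.apos
    have := hm.bpos
    have := sum_nonneg fun j (_ : j ∈ univ.filter (· < i)) => hD j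
    positivity
  have h4 := mul_le_of_le_one_left h3 (measureReal_le_one (μ := m.prod un) (s := Win k Tᶜ))
  linarith

/-- strong induction on `i`; `1 + x * ∑ j < i, (1 + x) ^ j = (1 + x) ^ i` -/
theorem close (hm : ClLaw m a b) (h : Pr.Nice B) (hK : 0 < K) (hσ : Measurable σ) (i : Fin k)
    {T : Finset (Fin M × Fin N)} (hT : T.card + i ≤ N + k) :
    ‖ker X Pr B K σ r T i - X.rf Pr i‖ ^ 2 ≤ err a b M N k B K * (1 + 3 * B ^ 2 * k) ^ (i : ℕ) := by
  have ha := hm.apos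
  have hb := hm.bpos
  have he : 0 ≤ err a b M N k B K := by
    unfold err
    positivity
  induction hn : (i : ℕ) using Nat.strong_induction_on generalizing i T with
  | _ n ih =>
    subst hn
    have h1 := close_step (X := X) (r := r) (T := T) hm h hK hσ i
      (D := fun j => err a b M N k B K * (1 + 3 * B ^ 2 * k) ^ (j : ℕ)) (fun j => by positivity)
      fun c hc j hj => ih j hj j (by rw [card_insert_of_notMem hc]; have : (j : ℕ) < i := hj; omega)
        rfl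
    have h2 : ∑ j ∈ univ.filter (· < i), err a b M N k B K * (1 + 3 * B ^ 2 * k) ^ (j : ℕ) =
        err a b M N k B K * ∑ j ∈ range i, (1 + 3 * B ^ 2 * k) ^ j := by
      rw [← mul_sum, sum_filter]
      congr 1
      refine (Fin.sum_univ_eq_sum_range
        (fun j => if j < (i : ℕ) then (1 + 3 * B ^ 2 * k) ^ j else 0) k).trans ?_
      rw [← sum_filter]
      congr 1
      ext j
      simp only [mem_filter, mem_range]
      omega
    have h3 := mul_geom_sum (1 + 3 * B ^ 2 * k) i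
    have h4 : B ^ 2 * (T.card * a) ≤ B ^ 2 * ((N + k) * a) :=
      mul_le_mul_of_nonneg_left (mul_le_mul_of_nonneg_right
        (by exact_mod_cast (Nat.le_add_right _ _).trans hT) ha.le) (sq_nonneg _)
    rw [h2] at h1
    have h5 : err a b M N k B K * (1 + 3 * B ^ 2 * k) ^ (i : ℕ) = err a b M N k B K +
        3 * B ^ 2 * k * (err a b M N k B K * ∑ j ∈ range i, (1 + 3 * B ^ 2 * k) ^ j) := by
      linear_combination -(err a b M N k B K) * h3
    rw [h5]
    refine h1.trans (add_le_add ?_ le_rfl)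
    unfold err
    linarith

end

end Vale.Agent.P367.G
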