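import Vale.Agent.P367.Defs43

/-! The game: ideal qubit fields on a Gaussian data space. -/

set_option linter.all false

namespace Vale.Agent.P367

open MeasureTheory ProbabilityTheory Filter Topology Finset Vale.Agent.P146 Matrix

noncomputable section

/-- projector on the complement of the basis state `b` -/
def Qb (b : Bool) : M2 := Matrix.diagonal fun a => if a = b then 0 else 1

/-- conjugation -/
def cj (V A : M2) : M2 := V * A * Vᴴ

/-- rank one projectors -/
def Pj (A : M2) : Prop := ∃ W, Uni W ∧ A = cj W (Qb true)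

/-- squared Frobenius norm -/
def fro (A : M2) : ℝ := ∑ a, ∑ b, ‖A a b‖ ^ 2

variable {Ω : Type} [MeasurableSpace Ω]

/-- measurable fields of projectors -/
def MQ (Q : Ω → M2) : Prop := (∀ a b, Measurable fun ω => Q ω a b) ∧ ∀ ω, Pj (Q ω)

open Classical in
/-- class of a function in `L2` -/
def toL (P : Measure Ω) (F : Ω → ℝ) : Lp ℝ 2 P := if h : MemLp F 2 P then h.toLp F else 0

/-- the data space: a label and an isometry onto Gaussian variables independent of the label -/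
structure Data {Λ : Type} [MeasurableSpace Λ] (ν : Measure Λ) (P : Measure Ω) where
  lab : Ω → Λ
  S : Lp ℝ 2 P →ₗᵢ[ℝ] Lp ℝ 2 P
  mlab : Measurable lab
  law : P.map lab = ν
  gauss : ∀ f, P.map (S f) = gaussianReal 0 (‖f‖₊ ^ 2)
  ind : ∀ f, IndepFun lab (S f) P

variable {Λ : Type} [MeasurableSpace Λ] {ν : Measure Λ} {P : Measure Ω}

/-- the adjoint of `S` -/
def Data.Sa (X : Data ν P) : Lp ℝ 2 P →L[ℝ] Lp ℝ 2 P :=
  ContinuousLinearMap.adjoint X.S.toContinuousLinearMap

open Classical in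
/-- the message of the senders with labels in `A` -/
def Data.msg (X : Data ν P) (A : Set Λ) (F : Ω → Bool) : Lp ℝ 2 P :=
  toL P fun ω => if X.lab ω ∈ A then spin (F ω) else 0

/-- the field seen by the receivers -/
def Data.fld (X : Data ν P) (A : Set Λ) (F : Ω → Bool) : Ω → ℝ :=
  (X.S (X.msg A F) + X.Sa (X.msg A F) : Lp ℝ 2 P)

/-- energy of a classical configuration -/
def Data.en (X : Data ν P) (F : Ω → Bool) : ℝ :=
  inner ℝ (X.msg Set.univ F) (X.S (X.msg Set.univ F))

open Classical in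
/-- the rules of the game -/
structure Rules (X : Data ν P) (Reach : (Ω → M2) → Prop) : Prop where
  init : Reach fun _ => Qb true
  gate : ∀ (V : Λ → M2) (Q : Ω → M2), GOK V → MQ Q → Reach Q →
    Reach fun ω => cj (V (X.lab ω)) (Q ω)
  cpl : ∀ (R A : Set Λ) (γ : ℝ) (F : Ω → Bool) (Q : Ω → M2), MeasurableSet R → MeasurableSet A →
    Disjoint R A → Measurable F → MQ Q → Reach Q → (∀ ω, X.lab ω ∈ A → Q ω = Qb (F ω)) →
    Reach fun ω => if X.lab ω ∈ R then cj (RZ (γ * X.fld A F ω)) (Q ω) else Q ω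
  lim : ∀ Q : Ω → M2, MQ Q →
    (∀ δ > 0, ∃ Q', MQ Q' ∧ Reach Q' ∧ ∫ ω, fro (Q ω - Q' ω) ∂P ≤ δ) → Reach Q

/-- part G: the game runs programs -/
def PartG : Prop :=
  ∀ (k : ℕ) (Pr : Prog k) (B : ℝ), Pr.Nice B → ∀ ε > 0, ∃ (Λ : Type) (_ : MeasurableSpace Λ)
    (_ : MeasurableSpace.CountablyGenerated Λ) (ν : Measure Λ) (_ : IsProbabilityMeasure ν),
    ∀ (Ω : Type) [MeasurableSpace Ω] (P : Measure Ω) [IsProbabilityMeasure P] (X : Data ν P)
      (Reach : (Ω → M2) → Prop), Rules X Reach →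
      ∃ F : Ω → Bool, Measurable F ∧ Reach (fun ω => Qb (F ω)) ∧ Pr.val - ε ≤ X.en F

/-- part F: QAOA plays the game -/
def PartF : Prop :=
  ∀ (Λ : Type) [MeasurableSpace Λ] [MeasurableSpace.CountablyGenerated Λ] (ν : Measure Λ)
    [IsProbabilityMeasure ν], ∃ (Ω : Type) (_ : MeasurableSpace Ω) (P : Measure Ω)
    (_ : IsProbabilityMeasure P) (X : Data ν P) (Reach : (Ω → M2) → Prop), Rules X Reach ∧
      ∀ F : Ω → Bool, Measurable F → Reach (fun ω => Qb (F ω)) → ∀ ε > 0,
        ∃ (p : ℕ) (γ β : Fin p → ℝ) (v : ℝ),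
          Tendsto (fun n => val n γ β) atTop (𝓝 v) ∧ X.en F - ε ≤ v

end

end Vale.Agent.P367
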