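import Vale.Agent.P367G.Defs

/-! Internal definitions of part G. -/

set_option linter.all false

namespace Vale.Agent.P367.G

open MeasureTheory ProbabilityTheory Filter Topology Finset Vale.Agent.P146 Matrix
open scoped Classical

noncomputable section

section Gen

variable {Ω : Type} [MeasurableSpace Ω] {Λ : Type} [MeasurableSpace Λ] {ν : Measure Λ}
  {P : Measure Ω}

/-- measurable fields of unitaries -/
def MU (W : Ω → M2) : Prop := (∀ a b, Measurable fun ω => W ω a b) ∧ ∀ ω, Uni (W ω)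

/-- `W` can be applied when the sites with labels in `D` hold the bits `σ` -/
def Opr (X : Data ν P) (Reach : (Ω → M2) → Prop) (D : Set Λ) (σ : Ω → Bool) (W : Ω → M2) : Prop :=
  ∀ Q, MQ Q → Reach Q → (∀ ω, X.lab ω ∈ D → Q ω = Qb (σ ω)) → Reach fun ω => cj (W ω) (Q ω)

/-- the sites with labels in `R` can receive the field `y` -/
def Snd (X : Data ν P) (Reach : (Ω → M2) → Prop) (D : Set Λ) (σ : Ω → Bool) (R : Set Λ)
    (y : Ω → ℝ) : Prop :=
  ∀ γ : ℝ, Opr X Reach D σ fun ω => if X.lab ω ∈ R then RZ (γ * y ω) else 1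

/-- conditional flip -/
def Flp (X : Data ν P) (C : Set Λ) (s : Ω → Bool) (ω : Ω) : M2 :=
  if X.lab ω ∈ C ∧ s ω = true then PX else 1

/-- the bits after a conditional flip -/
def flp (X : Data ν P) (C : Set Λ) (s σ : Ω → Bool) (ω : Ω) : Bool :=
  if X.lab ω ∈ C ∧ s ω = true then !σ ω else σ ω

/-- the label and the fields with kernels in `V` -/
def _root_.Vale.Agent.P367.Data.proc (X : Data ν P) (V : Set (Lp ℝ 2 P)) (ω : Ω) : Λ × (V → ℝ) :=
  (X.lab ω, fun g => X.S g.1 ω)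

/-- the sigma field of the label and of the fields with kernels in `V` -/
def _root_.Vale.Agent.P367.Data.sig (X : Data ν P) (V : Set (Lp ℝ 2 P)) : MeasurableSpace Ω :=
  MeasurableSpace.comap (X.proc V) inferInstance

/-- kernels supported on the labels in `A` -/
def _root_.Vale.Agent.P367.Data.sup (X : Data ν P) (A : Set Λ) : Set (Lp ℝ 2 P) :=
  {g | ∀ᵐ ω ∂P, X.lab ω ∉ A → g ω = 0}

/-- vector of fields -/
def _root_.Vale.Agent.P367.Data.vec (X : Data ν P) {ι : Type} (f : ι → Lp ℝ 2 P) (ω : Ω) (i : ι) : ℝ := X.S (f i) ω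

/-- reference kernels, levels below `l` -/
def _root_.Vale.Agent.P367.Data.RR (X : Data ν P) {k : ℕ} (Pr : Prog k) : ℕ → Fin k → Lp ℝ 2 P
  | 0 => fun _ => 0
  | l + 1 => fun i => if (i : ℕ) = l then toL P fun ω => Pr.u i (X.vec (X.RR Pr l) ω)
      else X.RR Pr l i

/-- reference kernels -/
def _root_.Vale.Agent.P367.Data.rf (X : Data ν P) {k : ℕ} (Pr : Prog k) : Fin k → Lp ℝ 2 P := X.RR Pr k

end Gen

/-- uniform law on `[-1, 1]` -/
def un : Measure ℝ := (2 : ENNReal)⁻¹ • volume.restrict (Set.Icc (-1 : ℝ) 1)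

/-- mean of the absolute value of a standard Gaussian -/
def c0 : ℝ := ∫ x, |x| ∂gaussianReal 0 1

/-- shifted grid of thresholds -/
def thr (K : ℕ) (κ : Fin K) (U : ℝ) : ℝ := -1 + (2 * (κ : ℝ) + 1 + U) / K

/-- classes: work classes `(stage, part)` and buses `(stage, level)` -/
abbrev Cl (M N k : ℕ) : Type := (Fin M × Fin N) ⊕ (Fin M × Fin (k + 1))

abbrev Lab (M N k : ℕ) : Type := Cl M N k × ℝ

instance (M N k : ℕ) : MeasurableSingletonClass (Cl M N k) := ⟨fun _ =>
  measurableSet_sum_iff.2 ⟨MeasurableSet.of_discrete, MeasurableSet.of_discrete⟩⟩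

/-- law of the class -/
structure ClLaw {M N k : ℕ} (m : Measure (Cl M N k)) (a b : ℝ) : Prop where
  prob : IsProbabilityMeasure m
  apos : 0 < a
  bpos : 0 < b
  wk : ∀ c, m.real {Sum.inl c} = a
  bus : ∀ c, m.real {Sum.inr c} = b
  tot : M * N * a + M * (k + 1) * b = 1

section Game

variable {M N k : ℕ}

def Wc (k : ℕ) (c : Fin M × Fin N) : Set (Lab M N k) := {l | l.1 = Sum.inl c}

/-- work classes in `T` -/
def Win (k : ℕ) (T : Finset (Fin M × Fin N)) : Set (Lab M N k) := {l | ∃ c ∈ T, l.1 = Sum.inl c}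

def Hb (N : ℕ) (r : Fin M) (i : Fin k) : Set (Lab M N k) := {l | l.1 = Sum.inr (r, i.castSucc)}

/-- the work classes of the stage `r` -/
def Tr (N : ℕ) (r : Fin M) : Finset (Fin M × Fin N) := univ.filter fun c => c.1 = r

/-- sites which hold bits while the level `i` is sent -/
def Dom (r : Fin M) (T : Finset (Fin M × Fin N)) (i : Fin k) : Set (Lab M N k) :=
  Win k Tᶜ ∪ {l | ∃ j ≤ i, l ∈ Hb N r j}

variable {Ω : Type} [MeasurableSpace Ω] {m : Measure (Cl M N k)} {P : Measure Ω}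
  (X : Data (m.prod un) P) (Pr : Prog k) (B : ℝ) (K : ℕ)

/-- the bit written on a bus by the class `c` -/
def gw (σ : Ω → Bool) (c : Fin M × Fin N) (ω : Ω) : Bool :=
  !decide (X.S (X.msg (Wc k c) σ) ω < 0)

/-- the field read from the bus -/
def rd (σ : Ω → Bool) (r : Fin M) (i : Fin k) (c : Fin M × Fin N) : Ω → ℝ :=
  X.fld (Hb N r i) (gw X σ c)

/-- the bit of the class `c` after it was freed -/
def eps (σ : Ω → Bool) (r : Fin M) (i : Fin k) (c : Fin M × Fin N) (ω : Ω) : Bool :=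
  if rd X σ r i c ω < 0 then !σ ω else σ ω

/-- the bit sent: `e` times the sign of `a / B - thr` -/
def bit (e : Ω → Bool) (a : Ω → ℝ) (κ : Fin K) (ω : Ω) : Bool :=
  if a ω / B - thr K κ (X.lab ω).2 < 0 then !e ω else e ω

/-- kernels of the fields, levels below `l`, the classes in `T` being skipped -/
def KK (σ : Ω → Bool) (r : Fin M) : ℕ → Finset (Fin M × Fin N) → Fin k → Lp ℝ 2 P
  | 0 => fun _ _ => 0
  | l + 1 => fun T i => if (i : ℕ) = l then ∑ c ∈ Tᶜ, ∑ κ : Fin K, (B / K) • X.msg (Wc k c)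
      (bit X B K (eps X σ r i c) (fun ω => Pr.u i (X.vec (KK σ r l (insert c T)) ω)) κ)
      else KK σ r l T i

def ker (σ : Ω → Bool) (r : Fin M) (T : Finset (Fin M × Fin N)) : Fin k → Lp ℝ 2 P :=
  KK X Pr B K σ r k T

/-- the bit sent by the class `c` -/
def sb (σ : Ω → Bool) (r : Fin M) (T : Finset (Fin M × Fin N)) (i : Fin k) (c : Fin M × Fin N)
    (κ : Fin K) : Ω → Bool :=
  bit X B K (eps X σ r i c) (fun ω => Pr.u i (X.vec (ker X Pr B K σ r (insert c T)) ω)) κ

/-- the output is negative -/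
def neg (f : Fin k → Lp ℝ 2 P) (ω : Ω) : Bool := decide (Pr.μ (X.vec f ω) - (X.lab ω).2 < 0)

/-- the configuration before the stage `r` -/
def cfg : ℕ → Ω → Bool
  | 0 => fun _ => true
  | r + 1 => if h : r < M then flp X (Win k (Tr N ⟨r, h⟩))
      (neg X Pr (ker X Pr B K (cfg r) ⟨r, h⟩ (Tr N ⟨r, h⟩))) (cfg r) else cfg r

/-- configurations allowed at the start of the stage `r` -/
structure Ok (σ : Ω → Bool) : Prop where
  meas : Measurable σ
  sg : Measurable[X.sig (X.sup (Win k univ))] σ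
  bus : ∀ ω, X.lab ω ∉ Win k univ → σ ω = true

/-- error of one level -/
def err (a b : ℝ) (M N k : ℕ) (B : ℝ) (K : ℕ) : ℝ :=
  B ^ 2 * ((N + k) * a + M * (k + 1) * b) + 12 * B ^ 2 * (a / (b * c0 ^ 2)) + 12 * B ^ 2 / K ^ 2

end Game

end

end Vale.Agent.P367.G
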