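import Vale.Agent.P367G.Qsp0

/-! Approximation of controlled rotations. -/

set_option linter.all false

namespace Vale.Agent.P367.G

open MeasureTheory ProbabilityTheory Filter Topology Finset Vale.Agent.P146 Matrix
open scoped Classical

noncomputable section

variable {ι : Type} [Fintype ι]

/-- classes of matrix functions generated by constants and phases -/
structure Gen (G : ((ι → ℝ) → M2) → Prop) : Prop where
  uni : ∀ V, G V → ∀ y, Uni (V y)
  const : ∀ V, Uni V → G fun _ => V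
  ph : ∀ (i : ι) (γ : ℝ), G fun y => RZ (γ * y i)
  mul : ∀ V W, G V → G W → G fun y => V y * W y

variable {G : ((ι → ℝ) → M2) → Prop}

theorem qsp_RZ (h : Gen G) (w : ι → ℝ) (φ : ℝ) : G fun y => RZ (∑ i, w i * y i + φ) := by
  have key : ∀ S : Finset ι, G fun y => RZ (∑ i ∈ S, w i * y i + φ) := by
    intro S
    induction S using Finset.induction_on with
    | empty => simpa using h.const _ (uni_RZ φ)
    | insert i S hi ih =>
      have := h.mul _ _ (h.ph i (w i)) ih
      simpa only [Finset.sum_insert hi, add_assoc, RZ_add] using this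
  exact key _

theorem qsp_pow (h : Gen G) {V : (ι → ℝ) → M2} (hV : G V) (n : ℕ) : G fun y => V y ^ n := by
  induction n with
  | zero => simpa using h.const _ uni_one
  | succ n ih => simpa only [pow_succ] using h.mul _ _ ih hV

theorem qsp_RX_pow (t : ℝ) (n : ℕ) : RX t ^ n = RX (n * t) := by
  induction n with
  | zero => simp [RX_zero]
  | succ n ih => rw [pow_succ, ih, ← RX_add]; congr 1; push_cast; ring

theorem qsp_cos (h : Gen G) (w : ι → ℝ) (φ t : ℝ) {δ : ℝ} (hδ : 0 < δ) :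
    ∃ V, G V ∧ ∀ y, fro (V y - RX (t * Real.cos (∑ i, w i * y i + φ))) ≤ δ := by
  obtain ⟨C, hC, hst⟩ := trot_step
  obtain ⟨n, hn⟩ := exists_nat_ge (1 + |t| + C * t ^ 4 / δ)
  have hq : 0 ≤ C * t ^ 4 / δ := by positivity
  have ht := abs_nonneg t
  have hn1 : (1 : ℝ) ≤ n := by linarith
  have hn0 : (0 : ℝ) < n := by linarith
  have hτ : |t / (2 * n)| ≤ 1 / 2 := by
    rw [abs_div, abs_of_pos (by positivity : (0 : ℝ) < 2 * n), div_le_iff₀ (by positivity)]
    linarith
  have g1 : G fun y => RZ ((∑ i, w i * y i + φ) / 2) := by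
    have := qsp_RZ h (fun i => w i / 2) (φ / 2)
    convert this using 3 with y
    rw [add_div, Finset.sum_div]
    congr 1
    exact Finset.sum_congr rfl fun i _ => by ring
  have g2 : G fun y => RZ (-((∑ i, w i * y i + φ) / 2)) := by
    have := qsp_RZ h (fun i => -(w i / 2)) (-(φ / 2))
    convert this using 3 with y
    rw [add_div, Finset.sum_div, neg_add, ← Finset.sum_neg_distrib]
    congr 1
    exact Finset.sum_congr rfl fun i _ => by ring
  have g3 := h.const _ (uni_RX (t / (2 * n)))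
  have g4 := h.mul _ _ (h.mul _ _ (h.mul _ _ g1 g3) g2) (h.mul _ _ (h.mul _ _ g2 g3) g1)
  refine ⟨_, qsp_pow h g4 n, fun y => ?_⟩
  have e : RX (t * Real.cos (∑ i, w i * y i + φ)) =
      RX (2 * (t / (2 * n)) * Real.cos (∑ i, w i * y i + φ)) ^ n := by
    rw [qsp_RX_pow]
    congr 1
    field_simp
  rw [e]
  refine (fro_pow_sub (h.uni _ g4 y) (uni_RX _) n).trans ?_
  refine (mul_le_mul_of_nonneg_left (hst _ _ hτ) (by positivity)).trans ?_
  have e2 : (n : ℝ) ^ 2 * (C * (t / (2 * n)) ^ 4) = C * t ^ 4 / (16 * n ^ 2) := by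
    field_simp
    ring
  rw [e2, div_le_iff₀ (by positivity)]
  have h1 : C * t ^ 4 / δ ≤ n := by linarith
  rw [div_le_iff₀ hδ] at h1
  have h2 : (n : ℝ) ≤ 16 * n ^ 2 := by nlinarith
  nlinarith

/-- uniform approximability -/
def qspA (G : ((ι → ℝ) → M2) → Prop) (χ : (ι → ℝ) → ℝ) : Prop :=
  ∀ δ : ℝ, 0 < δ → ∃ V, G V ∧ ∀ y, fro (V y - RX (χ y)) ≤ δ

theorem qspA_add (h : Gen G) {χ χ' : (ι → ℝ) → ℝ} (h1 : qspA G χ) (h2 : qspA G χ') :
    qspA G fun y => χ y + χ' y := by
  intro δ hδ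
  obtain ⟨V, hV, hV'⟩ := h1 (δ / 4) (by positivity)
  obtain ⟨W, hW, hW'⟩ := h2 (δ / 4) (by positivity)
  refine ⟨_, h.mul _ _ hV hW, fun y => ?_⟩
  have e : V y * W y - RX (χ y + χ' y) =
      (V y - RX (χ y)) * W y + RX (χ y) * (W y - RX (χ' y)) := by
    rw [RX_add, Matrix.sub_mul, Matrix.mul_sub]
    abel
  rw [e]
  refine (fro_add_le _ _).trans ?_
  rw [fro_mul_uni (h.uni _ hW y), fro_uni_mul (uni_RX _)]
  linarith [hV' y, hW' y]

/-- approximability of all modulations -/
def qspT (G : ((ι → ℝ) → M2) → Prop) (f : (ι → ℝ) → ℝ) : Prop :=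
  ∀ (w : ι → ℝ) (φ t : ℝ), qspA G fun y => t * Real.cos (∑ i, w i * y i + φ) * f y

/-- the generators -/
def qspC (w : ι → ℝ) (φ : ℝ) : C(ι → ℝ, ℝ) :=
  ⟨fun y => Real.cos (∑ i, w i * y i + φ), by fun_prop⟩

theorem qsp_adj (h : Gen G) (g : C(ι → ℝ, ℝ))
    (hg : g ∈ Algebra.adjoin ℝ (Set.range fun p : (ι → ℝ) × ℝ => qspC p.1 p.2)) :
    ∀ f, qspT G f → qspT G fun y => g y * f y := by
  induction hg using Algebra.adjoin_induction with
  | mem g hg =>
    obtain ⟨⟨w', φ'⟩, rfl⟩ := hg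
    intro f hf w φ t
    have := qspA_add h (hf (w + w') (φ + φ') (t / 2)) (hf (w - w') (φ - φ') (t / 2))
    convert this using 2 with y
    have e1 : ∑ i, (w + w') i * y i + (φ + φ') =
        (∑ i, w i * y i + φ) + (∑ i, w' i * y i + φ') := by
      simp only [Pi.add_apply, add_mul, Finset.sum_add_distrib]
      ring
    have e2 : ∑ i, (w - w') i * y i + (φ - φ') =
        (∑ i, w i * y i + φ) - (∑ i, w' i * y i + φ') := by
      simp only [Pi.sub_apply, sub_mul, Finset.sum_sub_distrib]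
      ring
    rw [e1, e2, Real.cos_add (∑ i, w i * y i + φ), Real.cos_sub (∑ i, w i * y i + φ)]
    simp only [qspC, ContinuousMap.coe_mk]
    ring
  | algebraMap r =>
    intro f hf w φ t
    convert hf w φ (t * r) using 2 with y
    simp only [Algebra.algebraMap_eq_smul_one, ContinuousMap.smul_apply, ContinuousMap.one_apply,
      smul_eq_mul]
    ring
  | add g g' _ _ ih ih' =>
    intro f hf w φ t
    convert qspA_add h (ih f hf w φ t) (ih' f hf w φ t) using 2 with y
    simp only [ContinuousMap.add_apply]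
    ring
  | mul g g' _ _ ih ih' =>
    intro f hf
    convert ih _ (ih' f hf) using 2 with y
    simp only [ContinuousMap.mul_apply]
    ring

theorem qsp_sep : (Algebra.adjoin ℝ
    (Set.range fun p : (ι → ℝ) × ℝ => qspC p.1 p.2)).SeparatesPoints := by
  intro x y hxy
  obtain ⟨i, hi⟩ := Function.ne_iff.1 hxy
  have hd : x i - y i ≠ 0 := sub_ne_zero.2 hi
  refine ⟨_, ⟨qspC (Pi.single i (Real.pi / (x i - y i))) (-(Real.pi / (x i - y i) * y i)),
    Algebra.subset_adjoin ⟨(_, _), rfl⟩, rfl⟩, ?_⟩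
  have e : ∀ z : ι → ℝ, ∑ j, (Pi.single i (Real.pi / (x i - y i)) : ι → ℝ) j * z j =
      Real.pi / (x i - y i) * z i := by
    intro z
    rw [Finset.sum_eq_single i]
    · simp
    · intro j _ hj
      simp [Pi.single_eq_of_ne hj]
    · simp
  simp only [qspC, ContinuousMap.coe_mk, e]
  have e1 : Real.pi / (x i - y i) * x i + -(Real.pi / (x i - y i) * y i) = Real.pi := by
    field_simp
    ring
  rw [e1, add_neg_cancel, Real.cos_pi, Real.cos_zero]
  norm_num

theorem qsp_lip (a b : ℝ) : fro (RX a - RX b) ≤ 4 * (a - b) ^ 2 := by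
  have h1 : ‖(Real.cos a : ℂ) - (Real.cos b : ℂ)‖ ^ 2 ≤ (a - b) ^ 2 := by
    rw [← Complex.ofReal_sub, Complex.norm_real, Real.norm_eq_abs, ← sq_abs (a - b)]
    exact pow_le_pow_left₀ (abs_nonneg _) (Real.abs_cos_sub_cos_le a b) 2
  have h2 : ‖-(Complex.I * (Real.sin a : ℂ)) - -(Complex.I * (Real.sin b : ℂ))‖ ^ 2 ≤
      (a - b) ^ 2 := by
    have e : -(Complex.I * (Real.sin a : ℂ)) - -(Complex.I * (Real.sin b : ℂ)) =
        -(Complex.I * ((Real.sin a - Real.sin b : ℝ) : ℂ)) := by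
      push_cast
      ring
    rw [e, norm_neg, norm_mul, Complex.norm_I, one_mul, Complex.norm_real, Real.norm_eq_abs,
      ← sq_abs (a - b)]
    exact pow_le_pow_left₀ (abs_nonneg _) (Real.abs_sin_sub_sin_le a b) 2
  simp only [fro, Fintype.sum_bool, Matrix.sub_apply, RX, Matrix.of_apply, if_true,
    Bool.true_eq_false, Bool.false_eq_true, if_false]
  linarith

/-- The set of continuous `χ` on the cube for which the claim holds is closed under sums
(`RX_add`) and uniform limits and contains the span of the functions `cos (w ⬝ y + φ)`, which is a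
subalgebra separating points: `ContinuousMap.subalgebra_topologicalClosure_eq_top_of_separatesPoints`
(or `exists_mem_subalgebra_near_continuous_of_separatesPoints`). -/
theorem qsp (h : Gen G) {χ : (ι → ℝ) → ℝ} (hχ : Continuous χ) (ρ : ℝ) {δ : ℝ} (hδ : 0 < δ) :
    ∃ V, G V ∧ ∀ y, (∀ i, |y i| ≤ ρ) → fro (V y - RX (χ y)) ≤ δ := by
  have hK : IsCompact (Set.pi Set.univ fun _ : ι => Set.Icc (-ρ) ρ) :=
    isCompact_univ_pi fun _ => isCompact_Icc
  obtain ⟨g, hg, hg'⟩ :=
    ContinuousMap.exists_mem_subalgebra_near_continuous_of_isCompact_of_separatesPoints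
      (qsp_sep (ι := ι)) ⟨χ, hχ⟩ hK (ε := Real.sqrt δ / 4) (by positivity)
  have h1 : qspT G fun _ => 1 := by
    intro w φ t δ' hδ'
    simpa only [mul_one] using qsp_cos h w φ t hδ'
  obtain ⟨V, hV, hV'⟩ := qsp_adj h g hg _ h1 0 0 1 (δ / 4) (by positivity)
  refine ⟨V, hV, fun y hy => ?_⟩
  have h2 := hV' y
  simp only [Pi.zero_apply, zero_mul, Finset.sum_const_zero, add_zero, Real.cos_zero,
    mul_one, one_mul] at h2
  have h3 := hg' y fun i _ => abs_le.1 (hy i)
  rw [Real.norm_eq_abs] at h3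
  have h4 : (g y - χ y) ^ 2 ≤ δ / 16 := by
    have := pow_le_pow_left₀ (abs_nonneg _) h3.le 2
    rw [sq_abs, div_pow, Real.sq_sqrt hδ.le] at this
    simp only [ContinuousMap.coe_mk] at this
    linarith
  have e : V y - RX (χ y) = (V y - RX (g y)) + (RX (g y) - RX (χ y)) := by abel
  rw [e]
  refine (fro_add_le _ _).trans ?_
  linarith [qsp_lip (g y) (χ y)]

end

end Vale.Agent.P367.G
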