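import Vale.Agent.P367G.Ops
import Vale.Agent.P367G.Qsp

/-! Sharp conditional flips. -/

set_option linter.all false

namespace Vale.Agent.P367.G

open MeasureTheory ProbabilityTheory Filter Topology Finset Vale.Agent.P146 Matrix
open scoped Classical

noncomputable section

variable {Ω : Type} [MeasurableSpace Ω] {Λ : Type} [MeasurableSpace Λ] {ν : Measure Λ}
  [IsProbabilityMeasure ν] {P : Measure Ω} [IsProbabilityMeasure P] {X : Data ν P}
  {Reach : (Ω → M2) → Prop}

theorem flip_mu {R : Set Λ} (hR : MeasurableSet R) {ι : Type} [Fintype ι] {y : ι → Ω → ℝ}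
    (hy : ∀ i, Measurable (y i)) {V : (ι → ℝ) → M2} (hV : ∀ a b, Continuous fun z => V z a b)
    (hU : ∀ z, Uni (V z)) : MU fun ω => if X.lab ω ∈ R then V (fun i => y i ω) else 1 :=
  MU.ite ⟨fun a b => (hV a b).measurable.comp (measurable_pi_lambda _ hy), fun _ => hU _⟩
    (mu_const uni_one) (X.mlab hR)

theorem flip_gen (h : Rules X Reach) {D R : Set Λ} {σ : Ω → Bool} (hR : MeasurableSet R)
    (hd : Disjoint R D) {ι : Type} [Fintype ι] {y : ι → Ω → ℝ} (hy : ∀ i, Measurable (y i))
    (hS : ∀ i, Snd X Reach D σ R (y i)) : Gen fun V : (ι → ℝ) → M2 =>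
      (∀ a b, Continuous fun z => V z a b) ∧ (∀ z, Uni (V z)) ∧
        Opr X Reach D σ fun ω => if X.lab ω ∈ R then V (fun i => y i ω) else 1 where
  uni _ hV := hV.2.1
  const V hV := ⟨fun _ _ => continuous_const, fun _ => hV,
    opr_gate h (V := fun l => if l ∈ R then V else 1) ((mu_const hV).ite (mu_const uni_one) hR)⟩
  ph i γ := ⟨fun a b => (cont_RZ a b).comp (by fun_prop), fun _ => uni_RZ _, hS i γ⟩
  mul V W hV hW := by
    refine ⟨fun a b => ?_, fun z => uni_mul (hV.2.1 z) (hW.2.1 z), (Opr.comp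
      (flip_mu hR hy hW.1 hW.2.1) hW.2.2 hV.2.2 fun ω hω => ⟨hω, ?_⟩).congr fun ω A => ?_⟩
    · simp only [Matrix.mul_apply]
      exact continuous_finset_sum _ fun c _ => (hV.1 a c).mul (hW.1 c b)
    · rw [if_neg fun h1 => Set.disjoint_left.1 hd h1 hω, cj_one]
    · split_ifs
      · rfl
      · rw [Matrix.one_mul]

theorem flip_ev {x : ℝ} {b : Bool} (h0 : x ≠ 0) (hb : b = true ↔ x < 0) : ∀ᶠ n : ℕ in atTop,
    RX (Real.pi / 2 * max 0 (min 1 (-(n * x)))) = if b = true then RX (Real.pi / 2) else 1 := by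
  rcases h0.lt_or_gt with h | h
  · filter_upwards [(tendsto_natCast_atTop_atTop.atTop_mul_const (neg_pos.2 h)).eventually_ge_atTop
      1] with n hn
    rw [if_pos (hb.2 h), min_eq_left (by linarith), max_eq_right zero_le_one, mul_one]
  · refine Eventually.of_forall fun n => ?_
    rw [if_neg fun h1 => h.not_gt (hb.1 h1), max_eq_left ((min_le_right _ _).trans
      (neg_nonpos.2 (by positivity))), mul_zero, RX_zero]

/-- Apply `qsp` to the class of `V` with continuous entries, unitary values and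
`Opr X Reach D σ fun ω => if X.lab ω ∈ R then V (fun i => y i ω) else 1` (`opr_gate`, `Opr.comp`;
the operations are trivial on `D`). With `χ n y = π / 2 * max 0 (min 1 (-(n * F y)))`, `ρ = n`,
`δ = 1 / (n + 1)` the approximants tend almost surely to
`if X.lab ω ∈ R ∧ s ω then RX (π / 2) else 1`; dominated convergence (`fro_uni_sub`), `opr_lim`,
then `Opr.congr` with `RX_half`, `cj_smul`. -/
theorem flip (h : Rules X Reach) {D R : Set Λ} {σ s : Ω → Bool} (hR : MeasurableSet R)
    (hd : Disjoint R D) {ι : Type} [Fintype ι] {y : ι → Ω → ℝ} (hy : ∀ i, Measurable (y i))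
    (hS : ∀ i, Snd X Reach D σ R (y i)) {F : (ι → ℝ) → ℝ} (hF : Continuous F) (hs : Measurable s)
    (H : ∀ᵐ ω ∂P, X.lab ω ∈ R → F (fun i => y i ω) ≠ 0 ∧ (s ω = true ↔ F (fun i => y i ω) < 0)) :
    Opr X Reach D σ (Flp X R s) := by
  choose V hV hV' using fun n : ℕ => qsp (flip_gen h hR hd hy hS)
    (χ := fun z => Real.pi / 2 * max 0 (min 1 (-(n * F z)))) (by fun_prop) n
    (Nat.one_div_pos_of_nat (n := n))
  have h1 : MU fun ω => if X.lab ω ∈ R ∧ s ω = true then RX (Real.pi / 2) else 1 := by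
    have h0 := (mu_const (uni_RX (Real.pi / 2))).ite (mu_const uni_one)
      (p := fun ω => X.lab ω ∈ R ∧ s ω = true)
      ((X.mlab hR).inter (hs (measurableSet_singleton true)))
    refine (congrArg MU (funext fun ω => ?_)).mp h0
    by_cases h4 : X.lab ω ∈ R ∧ s ω = true
    · rw [if_pos h4, if_pos h4]
    · rw [if_neg h4, if_neg h4]
  have h2 := fun n => flip_mu (X := X) hR hy (hV n).1 (hV n).2.1
  have h3 := tendsto_integral_of_dominated_convergence (μ := P) (f := fun _ => (0 : ℝ))
    (F := fun n ω => fro ((if X.lab ω ∈ R ∧ s ω = true then RX (Real.pi / 2) else 1) -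
      if X.lab ω ∈ R then V n (fun i => y i ω) else 1)) (fun _ => 8)
    (fun n => (meas_fro fun a b => (h1.1 a b).sub ((h2 n).1 a b)).aestronglyMeasurable)
    (integrable_const _) (fun n => Eventually.of_forall fun ω => by
      rw [Real.norm_of_nonneg (fro_nonneg _)]
      exact fro_uni_sub (h1.2 ω) ((h2 n).2 ω)) (H.mono fun ω hω => by
      by_cases h4 : X.lab ω ∈ R
      · refine squeeze_zero' (Eventually.of_forall fun n => fro_nonneg _) ?_
          tendsto_one_div_add_atTop_nhds_zero_nat
        filter_upwards [flip_ev (hω h4).1 (hω h4).2, eventually_all.2 fun i =>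
          tendsto_natCast_atTop_atTop.eventually_ge_atTop |y i ω|] with n e1 e2
        simp only [h4, true_and, if_true]
        rw [← e1, ← alg_fro_neg, neg_sub]
        exact hV' n _ e2
      · simp only [h4, false_and, if_false, sub_self, fro_zero, tendsto_const_nhds_iff])
  rw [integral_zero] at h3
  refine (opr_lim h h1 fun δ hδ => ?_).congr fun ω A => ?_
  · obtain ⟨n, hn⟩ := (h3.eventually_le_const hδ).exists
    exact ⟨_, h2 n, (hV n).2.2, hn⟩
  · rw [Flp]
    split_ifs
    · rw [RX_half, cj_smul (by simp)]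
    · rfl

end

end Vale.Agent.P367.G
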