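import Vale.Agent.P367G.Ker
import Vale.Agent.P367G.Flip

/-! The game produces the configuration. -/

set_option linter.all false

namespace Vale.Agent.P367.G

open MeasureTheory ProbabilityTheory Filter Topology Finset Vale.Agent.P146 Matrix
open scoped Classical

noncomputable section

variable {M N k : ℕ} {Ω : Type} [MeasurableSpace Ω] {m : Measure (Cl M N k)} {P : Measure Ω}
  [IsProbabilityMeasure P] {X : Data (m.prod un) P} {Pr : Prog k} {B a b : ℝ} {K : ℕ}
  {σ : Ω → Bool} {r : Fin M} {T : Finset (Fin M × Fin N)}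

variable {Reach : (Ω → M2) → Prop}

theorem Send_dom {i : Fin k} {l : Lab M N k} : l ∈ Dom r T i ↔
    (∃ c, c ∉ T ∧ l.1 = Sum.inl c) ∨ ∃ j ≤ i, l.1 = Sum.inr (r, j.castSucc) := by
  simp [Dom, Win, Hb]

theorem Send_one (c : Fin M × Fin N) : Win k {c} = Wc k c := by
  ext l; simp [Win, Wc]

theorem Send_lip (h : Pr.Nice B) (i : Fin k) : Continuous (Pr.u i) := by
  refine continuous_iff_continuousAt.2 fun x => ?_
  rw [ContinuousAt, tendsto_iff_norm_sub_tendsto_zero]
  have hc : Continuous fun y : Fin k → ℝ => B * ∑ j, |y j - x j| := by fun_prop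
  have h0 := hc.tendsto x
  simp only [sub_self, abs_zero, sum_const_zero, mul_zero] at h0
  exact squeeze_zero (fun _ => norm_nonneg _) (fun y => h.ul i y x) h0

theorem Send_dec {z : Ω → ℝ} (hz : Measurable z) : Measurable fun ω => decide (z ω < 0) :=
  measurable_to_bool (by simpa [Set.preimage] using measurableSet_lt hz measurable_const)

theorem Send_one_flip (hR : Rules X Reach) {D R : Set (Lab M N k)} {σ : Ω → Bool}
    (hm : IsProbabilityMeasure (m.prod un)) (hRm : MeasurableSet R) (hd : Disjoint R D)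
    {y z : Ω → ℝ} (hy : Measurable y) (hz : Measurable z) (hS : Snd X Reach D σ R y)
    (H : ∀ᵐ ω ∂P, X.lab ω ∈ R → y ω = z ω ∧ z ω ≠ 0) :
    Opr X Reach D σ (Flp X R fun ω => decide (z ω < 0)) := by
  refine flip (ι := Unit) (y := fun _ => y) (F := fun v => v ()) hR hRm hd (fun _ => hy)
    (fun _ => hS) (continuous_apply ()) ?_ ?_
  · exact Send_dec hz
  · filter_upwards [H] with ω h1 h2
    obtain ⟨e, h3⟩ := h1 h2
    simp [e, h3]

/-- One bit of one class. Three uses of `Snd.conj` with `D = Dom r T i`: first `C = Hb N r i`,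
`s = decide (S (msg (Wc k c) σ) < 0)` (`flip` with one field, `snd_cpl`, `wr_eq`, `S_ne`), then
`C = Wc k c`, `s = decide (rd < 0)` (`msg_congr`, `rd_ne`), then `C = Wc k c` with the fields
`if j < i then S (ker (insert c T) j) else 0` and the label `(X.lab ω).2` (index type
`Option (Fin k)`, hypothesis `ih`, `Snd.mono`, `ae_lab_vec`, `un_thr_ne`, adaptedness);
finally `snd_cpl`, `msg_congr`, `ons`, `Snd.ae`. -/
theorem snd_bit (hR : Rules X Reach) (hm : ClLaw m a b) (h : Pr.Nice B) (hσ : Ok X σ)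
    {T' : Finset (Fin M × Fin N)} (hT : T' ⊆ T) {c : Fin M × Fin N} (hc : c ∉ T) (i : Fin k)
    (κ : Fin K) (ih : ∀ j, j < i → Snd X Reach (Dom r (insert c T) j) σ (Win k {c})
      (X.S (ker X Pr B K σ r (insert c T) j))) :
    Snd X Reach (Dom r T i) σ (Win k T') (X.S (X.msg (Wc k c) (sb X Pr B K σ r T i c κ))) := by
  haveI := hm.prob
  have hp : IsProbabilityMeasure (m.prod un) := inferInstance
  have hRD : Disjoint (Win k T') (Dom r T i) := by
    refine Set.disjoint_left.2 fun l h1 h2 => ?_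
    obtain ⟨c1, h3, h4⟩ := h1
    rcases Send_dom.1 h2 with ⟨c2, h5, h6⟩ | ⟨j, -, h6⟩
    · rw [h4] at h6
      exact h5 (Sum.inl.inj h6 ▸ hT h3)
    · rw [h4] at h6
      exact Sum.inl_ne_inr h6
  have hHD : Hb N r i ⊆ Dom r T i := fun l hl => Send_dom.2 (Or.inr ⟨i, le_rfl, hl⟩)
  have hWD : Wc k c ⊆ Dom r T i := fun l hl => Send_dom.2 (Or.inl ⟨c, hc, hl⟩)
  have hHW : Disjoint (Hb N r i) (Wc k c) := Set.disjoint_left.2 fun l h1 h2 => by
    have h3 : l.1 = Sum.inr (r, i.castSucc) := h1
    have h4 : l.1 = Sum.inl c := h2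
    rw [h3] at h4
    exact Sum.inr_ne_inl h4
  have mR := meas_Win (k := k) T'
  have mH := meas_Hb (N := N) r i
  have mW := meas_Wc (k := k) c
  have my := X.meas_S (X.msg (Wc k c) (sb X Pr B K σ r T i c κ))
  -- write
  have hne : X.msg (Wc k c) σ ≠ 0 := fun e => by
    have h1 := X.norm_msg mW hσ.meas
    rw [e, hm.Wc] at h1
    have := hm.apos
    simp at h1
    linarith
  set s1 : Ω → Bool := fun ω => decide (X.S (X.msg (Wc k c) σ) ω < 0) with hs1
  have ms1 : Measurable s1 :=
    Send_dec (X.meas_S (X.msg (Wc k c) σ))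
  refine Snd.conj mR mH ms1 my hRD hHD (Send_one_flip hR hp mH Set.disjoint_sdiff_right
    (meas_fld X _ _) (X.meas_S _) (snd_cpl hR mH mW hHW
      (fun l hl => ⟨hWD hl, fun h' => Set.disjoint_left.1 hHW h' hl⟩) hσ.meas) ?_) ?_
  · filter_upwards [wr_eq hm hσ r i c, X.S_ne hne 0] with ω h1 h2 h3 using ⟨h1 h3, h2⟩
  set σ1 := flp X (Hb N r i) s1 σ with hσ1
  have m1 : Measurable σ1 := meas_flp mH ms1 hσ.meas
  have e1 : ∀ ω, X.lab ω ∈ Hb N r i → σ1 ω = gw X σ c ω := fun ω hω => by
    have h1 : σ ω = true := hσ.bus ω fun ⟨c', _, h2⟩ => by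
      have h3 : (X.lab ω).1 = Sum.inr (r, i.castSucc) := hω
      rw [h3] at h2
      exact Sum.inr_ne_inl h2
    by_cases h2 : X.S (X.msg (Wc k c) σ) ω < 0 <;> simp [hσ1, flp, gw, hs1, hω, h1, h2]
  have e1' : ∀ ω, X.lab ω ∉ Hb N r i → σ1 ω = σ ω := fun ω hω => by simp [hσ1, flp, hω]
  have f1 : X.fld (Hb N r i) σ1 = rd X σ r i c := by
    unfold rd Data.fld
    rw [X.msg_congr e1]
  -- read
  set s2 : Ω → Bool := fun ω => decide (rd X σ r i c ω < 0) with hs2
  have ms2 : Measurable s2 :=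
    Send_dec (meas_rd (X := X) σ r i c)
  refine Snd.conj mR mW ms2 my hRD hWD (Send_one_flip hR hp mW Set.disjoint_sdiff_right
    (meas_fld X _ _) (meas_rd σ r i c) (snd_cpl hR mW mH hHW.symm
      (fun l hl => ⟨hHD hl, fun h' => Set.disjoint_left.1 hHW hl h'⟩) m1) ?_) ?_
  · filter_upwards [rd_ne hm hσ.meas r i c] with ω h1 h2 using ⟨by rw [f1], h1 h2⟩
  set σ2 := flp X (Wc k c) s2 σ1 with hσ2
  have m2 : Measurable σ2 := meas_flp mW ms2 m1
  have e2 : ∀ ω, X.lab ω ∈ Wc k c → σ2 ω = eps X σ r i c ω := fun ω hω => by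
    have h1 := e1' ω fun h' => Set.disjoint_left.1 hHW h' hω
    by_cases h2 : rd X σ r i c ω < 0 <;> simp [hσ2, flp, eps, hs2, hω, h1, h2]
  have e2' : ∀ ω, X.lab ω ∉ Wc k c → σ2 ω = σ1 ω := fun ω hω => by simp [hσ2, flp, hω]
  -- compute
  set x := X.vec (ker X Pr B K σ r (insert c T)) with hx
  have mx : Measurable x := X.meas_vec _
  set s3 : Ω → Bool := fun ω => decide (Pr.u i (x ω) / B - thr K κ (X.lab ω).2 < 0) with hs3
  have mU : Measurable fun ω => (X.lab ω).2 := measurable_snd.comp X.mlab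
  have ms3 : Measurable s3 :=
    Send_dec ((((h.mu i).comp mx).div_const B).sub ((meas_thr κ).measurable.comp mU))
  refine Snd.conj mR mW ms3 my hRD hWD (flip (ι := Option (Fin k))
    (y := fun o ω => o.elim (X.lab ω).2 fun j => if j < i then x ω j else 0)
    (F := fun v => Pr.u i (fun j => v (some j)) / B - thr K κ (v none)) hR mW
    Set.disjoint_sdiff_right ?_ ?_ ?_ ms3 ?_) ?_
  · rintro (_ | j)
    · exact mU
    · by_cases hj : j < i
      · simp only [Option.elim, hj, if_true]
        exact (measurable_pi_apply j).comp mx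
      · simp [hj]
  · rintro (_ | j)
    · exact snd_lab (U := fun l : Lab M N k => l.2) hR mW measurable_snd
    · by_cases hj : j < i
      · simp only [Option.elim, hj, if_true]
        have h1 := ih j hj
        rw [Send_one] at h1
        refine h1.mono fun ω hω => ?_
        have h2 : X.lab ω ∉ Wc k c ∧ X.lab ω ∉ Hb N r i ∧ X.lab ω ∈ Dom r T i := by
          rcases Send_dom.1 hω with ⟨c2, h5, h6⟩ | ⟨j', h5, h6⟩
          · refine ⟨fun h7 => ?_, fun h7 => ?_,
              Send_dom.2 (Or.inl ⟨c2, fun h7 => h5 (mem_insert_of_mem h7), h6⟩)⟩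
            · have h8 : (X.lab ω).1 = Sum.inl c := h7
              rw [h6] at h8
              exact h5 (Sum.inl.inj h8 ▸ mem_insert_self _ _)
            · have h8 : (X.lab ω).1 = Sum.inr (r, i.castSucc) := h7
              rw [h6] at h8
              exact Sum.inl_ne_inr h8
          · refine ⟨fun h7 => ?_, fun h7 => ?_,
              Send_dom.2 (Or.inr ⟨j', h5.trans hj.le, h6⟩)⟩
            · have h8 : (X.lab ω).1 = Sum.inl c := h7
              rw [h6] at h8
              exact Sum.inr_ne_inl h8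
            · have h8 : (X.lab ω).1 = Sum.inr (r, i.castSucc) := h7
              rw [h6] at h8
              have h9 := Fin.castSucc_injective _ (Prod.ext_iff.1 (Sum.inr.inj h8)).2
              exact absurd (h9 ▸ h5) (not_le.2 hj)
        exact ⟨⟨h2.2.2, h2.1⟩, by rw [e2' ω h2.1, e1' ω h2.2.1]⟩
      · simp only [Option.elim, hj, if_false]
        exact snd_lab (U := fun _ => 0) hR mW measurable_const
  · exact (((Send_lip h i).comp (continuous_pi fun j => continuous_apply _)).div_const B).sub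
      ((meas_thr κ).comp (continuous_apply _))
  · have h1 := X.ae_lab_vec (ker X Pr B K σ r (insert c T))
      (p := fun z => Pr.u i z.2 / B - thr K κ z.1.2 ≠ 0)
      (((((h.mu i).comp measurable_snd).div_const B).sub ((meas_thr κ).measurable.comp
        (measurable_snd.comp measurable_fst))) (measurableSet_singleton 0)).compl
      fun v => (measurePreserving_snd (μ := m) (ν := un)).quasiMeasurePreserving.ae
        (un_thr_ne κ (Pr.u i v / B))
    filter_upwards [h1] with ω h2 _
    have h3 : Pr.u i (fun j => if j < i then x ω j else 0) = Pr.u i (x ω) :=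
      h.ad i _ _ fun j hj => by simp [hj]
    simp only [Option.elim, h3]
    exact ⟨h2, by simp [hs3]⟩
  set σ3 := flp X (Wc k c) s3 σ2 with hσ3
  have m3 : Measurable σ3 := meas_flp mW ms3 m2
  have e3 : ∀ ω, X.lab ω ∈ Wc k c → σ3 ω = sb X Pr B K σ r T i c κ ω := fun ω hω => by
    have h1 := e2 ω hω
    by_cases h2 : Pr.u i (x ω) / B - thr K κ (X.lab ω).2 < 0 <;>
      simp only [hσ3, flp, sb, bit, hs3, hω, h1, h2, ← hx, decide_true, decide_false, and_self,
        if_true, if_false, and_false, Bool.false_eq_true]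
  have f3 : X.fld (Wc k c) σ3 = X.fld (Wc k c) (sb X Pr B K σ r T i c κ) := by
    unfold Data.fld
    rw [X.msg_congr e3]
  refine (snd_cpl hR mR mW (hRD.mono_right hWD) hWD m3).ae hR mR (meas_fld X _ _) my ?_
  filter_upwards [ons (K := K) hm h hσ r hc i κ] with ω h1 h2
  obtain ⟨c1, h3, h4⟩ := h2
  rw [f3]
  exact h1 ⟨c1, hT h3, h4⟩

/-- strong induction on `i`, `ker_eq`, `snd_sum`, `Snd.smul`, `Snd.ae` -/
theorem snd_ker (hR : Rules X Reach) (hm : ClLaw m a b) (h : Pr.Nice B) (hσ : Ok X σ) (i : Fin k)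
    {T T' : Finset (Fin M × Fin N)} (hT : T' ⊆ T) :
    Snd X Reach (Dom r T i) σ (Win k T') (X.S (ker X Pr B K σ r T i)) := by
  haveI := hm.prob
  induction i using Fin.strong_induction_on generalizing T T' with
  | _ i ih => ?_
  have mR := meas_Win (k := k) T'
  have h1 := snd_sum hR mR (Tᶜ ×ˢ (univ : Finset (Fin K)))
    (z := fun q ω => B / K * X.S (X.msg (Wc k q.1) (sb X Pr B K σ r T i q.1 q.2)) ω)
    (fun q => (X.meas_S _).const_mul _) fun q hq =>
      (snd_bit hR hm h hσ hT (mem_compl.1 (mem_product.1 hq).1) i q.2 fun j hj =>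
        ih j hj (singleton_subset_iff.2 (mem_insert_self _ _))).smul (B / K)
  refine h1.ae hR mR (Finset.measurable_fun_sum _ fun q _ => (X.meas_S _).const_mul _)
    (X.meas_S _) ?_
  rw [ker_eq h, ← sum_product' (f := fun c κ => (B / K) • X.msg (Wc k c)
    (sb X Pr B K σ r T i c κ)), map_sum]
  have h2 := Lp.coeFn_finsetSum (Tᶜ ×ˢ (univ : Finset (Fin K)))
    fun q => X.S ((B / K) • X.msg (Wc k q.1) (sb X Pr B K σ r T i q.1 q.2))
  have h3 : ∀ᵐ ω ∂P, ∀ q : (Fin M × Fin N) × Fin K,
      X.S ((B / K) • X.msg (Wc k q.1) (sb X Pr B K σ r T i q.1 q.2)) ω =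
        B / K * X.S (X.msg (Wc k q.1) (sb X Pr B K σ r T i q.1 q.2)) ω :=
    ae_all_iff.2 fun q => by
      rw [map_smul]
      filter_upwards [Lp.coeFn_smul (B / K)
        (X.S (X.msg (Wc k q.1) (sb X Pr B K σ r T i q.1 q.2)))] with ω h4 using by simpa using h4
  filter_upwards [h2, h3] with ω h4 h5 _
  rw [h4]
  simp only [Finset.sum_apply, h5]

theorem stage (hR : Rules X Reach) (hm : ClLaw m a b) (h : Pr.Nice B) (hσ : Ok X σ) :
    Opr X Reach (Win k (Tr N r))ᶜ σ
      (Flp X (Win k (Tr N r)) (neg X Pr (ker X Pr B K σ r (Tr N r)))) := by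
  haveI := hm.prob
  have mR := meas_Win (k := k) (Tr N r)
  have mU : Measurable fun ω => (X.lab ω).2 := measurable_snd.comp X.mlab
  refine flip (ι := Option (Fin k))
    (y := fun o ω => o.elim (X.lab ω).2 fun j => X.S (ker X Pr B K σ r (Tr N r) j) ω)
    (F := fun v => Pr.μ (fun j => v (some j)) - v none) hR mR disjoint_compl_right ?_ ?_ ?_
    (meas_neg h _) ?_
  · rintro (_ | j)
    · exact mU
    · exact X.meas_S _
  · rintro (_ | j)
    · exact snd_lab (U := fun l : Lab M N k => l.2) hR mR measurable_snd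
    · have h1 := snd_ker (K := K) (r := r) (T := Tr N r) hR hm h hσ j subset_rfl
      refine h1.mono fun ω hω => ⟨fun ⟨c1, h3, h4⟩ => ?_, rfl⟩
      rcases Send_dom.1 hω with ⟨c2, h5, h6⟩ | ⟨j', -, h6⟩
      · rw [h4] at h6
        exact h5 (Sum.inl.inj h6 ▸ h3)
      · rw [h4] at h6
        exact Sum.inl_ne_inr h6
  · exact (h.md.continuous.comp (continuous_pi fun j => continuous_apply _)).sub
      (continuous_apply _)
  · have h1 := X.ae_lab_vec (ker X Pr B K σ r (Tr N r)) (p := fun z => Pr.μ z.2 - z.1.2 ≠ 0)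
      (((h.mm.comp measurable_snd).sub (measurable_snd.comp measurable_fst))
        (measurableSet_singleton 0)).compl
      fun v => (measurePreserving_snd (μ := m) (ν := un)).quasiMeasurePreserving.ae
        ((un_ne (Pr.μ v)).mono fun U hU => sub_ne_zero.2 hU.symm)
    filter_upwards [h1] with ω h2 _
    exact ⟨h2, decide_eq_true_iff⟩

theorem reach_cfg (hR : Rules X Reach) (hm : ClLaw m a b) (h : Pr.Nice B) (n : ℕ) :
    Reach fun ω => Qb (cfg X Pr B K n ω) := by
  haveI := hm.prob
  induction n with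
  | zero => exact hR.init
  | succ n ih =>
    by_cases hn : n < M
    · have h1 := stage (K := K) (r := ⟨n, hn⟩) hR hm h (ok_cfg (K := K) hm h n) _
        (mq_Qb (ok_cfg (K := K) hm h n).meas) ih fun _ _ => rfl
      simp only [cfg, hn, dif_pos, ← cj_Flp]
      exact h1
    · simpa only [cfg, hn, dif_neg, not_false_eq_true] using ih

end

end Vale.Agent.P367.G
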