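import Vale.Agent.P367G.Close
import Vale.Agent.P367G.Send

/-! Part G. -/

set_option linter.all false

namespace Vale.Agent.P367.G

open MeasureTheory ProbabilityTheory Filter Topology Finset Vale.Agent.P146 Matrix
open scoped Classical

noncomputable section

variable {M N k : ℕ} {Ω : Type} [MeasurableSpace Ω] {m : Measure (Cl M N k)} {P : Measure Ω}
  [IsProbabilityMeasure P] {X : Data (m.prod un) P} {Pr : Prog k} {B a b : ℝ} {K : ℕ}
  {σ : Ω → Bool} {r : Fin M} {T : Finset (Fin M × Fin N)}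

theorem fin_int (X : Data (m.prod un) P) {A : Set (Lab M N k)} (hA : MeasurableSet A)
    {f : Ω → ℝ} (hf : Measurable f) {C : ℝ} (hC : 0 ≤ C) (h : ∀ ω, |f ω| ≤ C) :
    Integrable (fun ω => if X.lab ω ∈ A then f ω else 0) P := by
  refine (memLp_bd (C := C) (Measurable.ite (X.mlab hA) hf measurable_const) fun ω => ?_).integrable
    one_le_two
  split_ifs
  exacts [h ω, by simpa using hC]

theorem fin_not {F : Ω → Bool} (h : Measurable F) : Measurable fun ω => !F ω :=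
  (Measurable.of_discrete (f := not)).comp h

theorem fin_sq (x y : Bool) : |(spin x - spin y) ^ 2| ≤ 4 := by
  cases x <;> cases y <;> norm_num [spin]

theorem fin_err (hm : ClLaw m a b) : 0 ≤ err a b M N k B K := by
  have := hm.apos
  have := hm.bpos
  unfold err
  positivity

theorem fin_stage (hm : ClLaw m a b) (h : Pr.Nice B) (hK : 0 < K) (hσ : Measurable σ) (r : Fin M) :
    ∫ ω, (if X.lab ω ∈ Win k (Tr N r) then
      (spin (neg X Pr (ker X Pr B K σ r (Tr N r)) ω) - spin (neg X Pr (X.rf Pr) ω)) ^ 2 else 0) ∂P ≤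
      N * a * (2 * B * k * √(err a b M N k B K * (1 + 3 * B ^ 2 * k) ^ k)) := by
  refine (neg_close hm h _ _ _).trans ?_
  have ha := hm.apos
  have hB := h.one_le
  rw [card_Tr, mul_assoc (2 * B)]
  gcongr
  refine (Finset.sum_le_card_nsmul _ _ √(err a b M N k B K * (1 + 3 * B ^ 2 * k) ^ k)
    fun i _ => ?_).trans (by simp)
  refine Real.le_sqrt_of_sq_le ((close hm h hK hσ i (by rw [card_Tr]; omega)).trans ?_)
  refine mul_le_mul_of_nonneg_left (pow_le_pow_right₀ ?_ i.2.le) (fin_err hm)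
  have : 0 ≤ 3 * B ^ 2 * (k : ℝ) := by positivity
  linarith

/-- split according to the class: buses (mass `M (k + 1) b`, square at most four) and the stages
(`cfg_eq`, `neg_close` with `T = Tr N r`, `close`, `card_Tr`, `M * N * a ≤ 1`) -/
theorem cfg_close (hm : ClLaw m a b) (h : Pr.Nice B) (hK : 0 < K) :
    ‖X.msg Set.univ (cfg X Pr B K M) - X.msg Set.univ fun ω => !neg X Pr (X.rf Pr) ω‖ ^ 2 ≤
      4 * (M * (k + 1) * b) + 2 * B * k * √(err a b M N k B K * (1 + 3 * B ^ 2 * k) ^ k) := by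
  have := hm.prob
  have mF : ∀ n, Measurable (cfg X Pr B K n) := fun n => (ok_cfg hm h n).meas
  have mG : Measurable fun ω => !neg X Pr (X.rf Pr) ω := fin_not (meas_neg h _)
  let g : Fin M → Ω → ℝ := fun r ω => if X.lab ω ∈ Win k (Tr N r) then
    (spin (neg X Pr (ker X Pr B K (cfg X Pr B K r) r (Tr N r)) ω) -
      spin (neg X Pr (X.rf Pr) ω)) ^ 2 else 0
  have ig : ∀ r, Integrable (g r) P := fun r => fin_int X (meas_Win _)
    (((meas_spin.comp (meas_neg h _)).sub (meas_spin.comp (meas_neg h _))).pow_const 2)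
    (by norm_num) fun ω => fin_sq _ _
  have g0 : ∀ r ω, 0 ≤ g r ω := fun r ω => by
    simp only [g]
    split_ifs <;> positivity
  obtain ⟨A, hA, hAm, hAc⟩ : ∃ A : Set (Lab M N k), MeasurableSet A ∧
      (m.prod un).real A = M * (k + 1) * b ∧ ∀ l, l ∉ A → ∃ c, l.1 = Sum.inl c :=
    ⟨(Win k ∅ᶜ)ᶜ, (meas_Win _).compl, by simpa using hm.Win_compl ∅,
      fun l hl => (not_not.1 hl).imp fun c hc => hc.2⟩
  have i0 : Integrable (fun ω => if X.lab ω ∈ A then (4 : ℝ) else 0) P :=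
    fin_int X hA (f := fun _ => 4) measurable_const (C := 4) (by norm_num) fun _ => by norm_num
  have e0 : ∫ ω, (if X.lab ω ∈ A then (4 : ℝ) else 0) ∂P = 4 * (M * (k + 1) * b) := by
    have e := integral_indicator_const (μ := P) (4 : ℝ) (X.mlab hA)
    rw [← map_measureReal_apply X.mlab hA, X.law, hAm] at e
    refine Eq.trans ?_ (e.trans (by simp [mul_comm]))
    rfl
  have hle : ‖X.msg Set.univ (cfg X Pr B K M) - X.msg Set.univ fun ω => !neg X Pr (X.rf Pr) ω‖ ^ 2 ≤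
      ∫ ω, ((if X.lab ω ∈ A then (4 : ℝ) else 0) + ∑ r, g r ω) ∂P := by
    rw [norm_L]
    refine integral_mono_of_nonneg (ae_of_all _ fun ω => sq_nonneg _)
      (i0.add (integrable_finset_sum _ fun r _ => ig r)) ?_
    filter_upwards [Lp.coeFn_sub (X.msg Set.univ (cfg X Pr B K M))
      (X.msg Set.univ fun ω => !neg X Pr (X.rf Pr) ω), X.msg_ae MeasurableSet.univ (mF M),
      X.msg_ae MeasurableSet.univ mG] with ω h1 h2 h3
    rw [h1, Pi.sub_apply, h2, h3, if_pos (Set.mem_univ _), if_pos (Set.mem_univ _)]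
    have hs : 0 ≤ ∑ r, g r ω := Finset.sum_nonneg fun r _ => g0 r ω
    split_ifs with hω
    · linarith [(le_abs_self _).trans (fin_sq (cfg X Pr B K M ω) (!neg X Pr (X.rf Pr) ω))]
    · obtain ⟨c, hc⟩ := hAc _ hω
      have hc' : X.lab ω ∈ Win k (Tr N c.1) := ⟨c, by simp [Tr], hc⟩
      refine le_trans ?_ ((Finset.single_le_sum (fun r _ => g0 r ω) (mem_univ c.1)).trans
        (zero_add _).ge)
      rw [cfg_eq M (c := c) hc, if_pos c.1.2, spin_not, spin_not]
      simp only [g, if_pos hc']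
      exact le_of_eq (by ring)
  rw [integral_add i0 (integrable_finset_sum _ fun r _ => ig r), e0,
    integral_finset_sum _ fun r _ => ig r] at hle
  refine hle.trans (add_le_add le_rfl ?_)
  refine (Finset.sum_le_card_nsmul _ _ _ fun (r : Fin M) _ =>
    fin_stage hm h hK (mF r) r).trans ?_
  have hB := h.one_le
  have hb := hm.bpos
  have h1 : M * N * a ≤ 1 := by
    have : 0 ≤ (M : ℝ) * (k + 1) * b := by positivity
    linarith [hm.tot]
  rw [Finset.card_fin, nsmul_eq_mul, ← mul_assoc, ← mul_assoc (M : ℝ)]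
  exact mul_le_of_le_one_left (by positivity) h1

/-- choose `η`, then `M`, `K`, then `N`; `a = (1 - η) / (M N)`, `b = η / (M (k + 1))` -/
theorem par (k : ℕ) (B : ℝ) {δ : ℝ} (hδ : 0 < δ) : ∃ (M N K : ℕ) (a b : ℝ), 0 < K ∧ 0 < a ∧ 0 < b ∧
    M * N * a + M * (k + 1) * b = 1 ∧ M * (k + 1) * b ≤ δ ∧ err a b M N k B K ≤ δ := by
  obtain ⟨η, h0, h1, h2, h3⟩ : ∃ η : ℝ, 0 < η ∧ η < 1 ∧ η ≤ δ ∧ B ^ 2 * η ≤ δ / 2 := by
    have e : 0 < 2 * (B ^ 2 + 1) := by positivity
    have e1 : min (1 / 2) (δ / (2 * (B ^ 2 + 1))) * (2 * (B ^ 2 + 1)) ≤ δ :=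
      (le_div_iff₀ e).1 (min_le_right _ _)
    have e2 : 0 < min (1 / 2) (δ / (2 * (B ^ 2 + 1))) := by positivity
    refine ⟨_, e2, (min_le_left _ _).trans_lt (by norm_num), ?_, ?_⟩ <;> nlinarith [sq_nonneg B]
  have hc := c0_pos
  obtain ⟨n, hn⟩ := exists_nat_gt
    ((B ^ 2 * (1 + k) + 12 * B ^ 2 * ((k + 1) / (η * c0 ^ 2)) + 12 * B ^ 2) / (δ / 2))
  have hn0 : (0 : ℝ) < n := lt_of_le_of_lt (by positivity) hn
  have hn1 : (1 : ℝ) ≤ n := by exact_mod_cast Nat.cast_pos.1 hn0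
  have h4 : 0 < 1 - η := sub_pos.2 h1
  have e : (n : ℝ) * (k + 1) * (η / (n * (k + 1))) = η := by field_simp
  refine ⟨n, n, n, (1 - η) / (n * n), η / (n * (k + 1)), Nat.cast_pos.1 hn0, by positivity,
    by positivity, by rw [e]; field_simp; ring, by rwa [e], ?_⟩
  rw [err, e]
  rw [div_lt_comm₀ (by positivity) hn0] at hn
  have b1 : ((n : ℝ) + k) * ((1 - η) / (n * n)) ≤ (1 + k) / n := by
    rw [← mul_div_assoc, div_le_div_iff₀ (by positivity) hn0]
    have : ((n : ℝ) + k) * (1 - η) ≤ (1 + k) * n := by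
      have : (0 : ℝ) ≤ k := by positivity
      nlinarith [mul_nonneg (add_nonneg hn0.le this) h0.le, mul_nonneg this (sub_nonneg.2 hn1)]
    nlinarith
  have b2 : (1 - η) / (n * n) / (η / (n * (k + 1)) * c0 ^ 2) ≤ (k + 1) / (η * c0 ^ 2) / n := by
    have : (1 - η) / (n * n) / (η / (n * (k + 1)) * c0 ^ 2) =
        (1 - η) * ((k + 1) / (η * c0 ^ 2) / n) := by field_simp
    rw [this]
    exact mul_le_of_le_one_left (by positivity) (by linarith)
  have b3 : 12 * B ^ 2 / (n : ℝ) ^ 2 ≤ 12 * B ^ 2 / n := by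
    gcongr
    nlinarith
  have e2 : (B ^ 2 * (1 + k) + 12 * B ^ 2 * ((k + 1) / (η * c0 ^ 2)) + 12 * B ^ 2) / n =
      B ^ 2 * ((1 + k) / n) + 12 * B ^ 2 * ((k + 1) / (η * c0 ^ 2) / n) + 12 * B ^ 2 / n := by
    ring
  rw [e2] at hn
  have c1 := mul_le_mul_of_nonneg_left b1 (sq_nonneg B)
  have c2 := mul_le_mul_of_nonneg_left b2 (by positivity : 0 ≤ 12 * B ^ 2)
  rw [mul_add]
  linarith

theorem partG : PartG := by
  intro k Pr B h ε hε
  have hB := h.one_le
  obtain ⟨δ, hδ, h1⟩ : ∃ δ : ℝ, 0 < δ ∧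
      4 * δ + 2 * B * k * √(δ * (1 + 3 * B ^ 2 * k) ^ k) < (ε / 2) ^ 2 := by
    have c : Continuous fun δ : ℝ => 4 * δ + 2 * B * k * √(δ * (1 + 3 * B ^ 2 * k) ^ k) := by
      fun_prop
    have e := c.continuousAt (x := 0) |>.eventually_lt continuousAt_const
      (show _ < (ε / 2) ^ 2 by simpa using (by positivity : 0 < (ε / 2) ^ 2))
    exact ((eventually_mem_nhdsWithin (s := Set.Ioi (0 : ℝ)) (a := 0)).and
      (e.filter_mono nhdsWithin_le_nhds)).exists
  obtain ⟨M, N, K, a, b, hK, ha, hb, ht, h2, h3⟩ := par k B hδ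
  obtain ⟨m, hm⟩ := exists_clLaw M N k ha hb ht
  have := hm.prob
  refine ⟨Lab M N k, inferInstance, inferInstance, m.prod un, inferInstance, ?_⟩
  intro Ω _ P _ X Reach hR
  have mF := (ok_cfg (X := X) (K := K) hm h M).meas
  refine ⟨cfg X Pr B K M, mF, reach_cfg hR hm h M, ?_⟩
  have h4 := X.en_lip mF (fin_not (meas_neg (X := X) h (X.rf Pr)))
  have h5 := cfg_close (X := X) hm h hK
  have h6 : √(err a b M N k B K * (1 + 3 * B ^ 2 * k) ^ k) ≤ √(δ * (1 + 3 * B ^ 2 * k) ^ k) := by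
    gcongr
  have h7 := mul_le_mul_of_nonneg_left h6 (by positivity : 0 ≤ 2 * B * k)
  have h8 := (abs_lt_of_sq_lt_sq' (show _ < (ε / 2) ^ 2 by
    refine h5.trans_lt ?_
    linarith) (by positivity)).2
  rw [en_ref hm.prob h] at h4
  linarith [(abs_le.1 h4).1]

end

end Vale.Agent.P367.G
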