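import Vale.Agent.P367G.Defs2

/-! Independence in the data space. -/

set_option linter.all false

namespace Vale.Agent.P367.G

open MeasureTheory ProbabilityTheory Filter Topology Finset Vale.Agent.P146 Matrix
open scoped Classical

noncomputable section

variable {Ω : Type} [MeasurableSpace Ω] {Λ : Type} [MeasurableSpace Λ] {ν : Measure Λ}
  [IsProbabilityMeasure ν] {P : Measure Ω} [IsProbabilityMeasure P]

theorem _root_.Vale.Agent.P367.Data.meas_S (X : Data ν P) (f : Lp ℝ 2 P) : Measurable (X.S f) := (Lp.stronglyMeasurable _).measurable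

theorem _root_.Vale.Agent.P367.Data.meas_vec (X : Data ν P) {ι : Type} (f : ι → Lp ℝ 2 P) : Measurable (X.vec f) :=
  measurable_pi_lambda _ fun i => X.meas_S (f i)

theorem _root_.Vale.Agent.P367.Data.meas_proc (X : Data ν P) (V : Set (Lp ℝ 2 P)) : Measurable (X.proc V) :=
  X.mlab.prodMk (measurable_pi_lambda _ fun g => X.meas_S g.1)

theorem _root_.Vale.Agent.P367.Data.sig_le (X : Data ν P) (V : Set (Lp ℝ 2 P)) : X.sig V ≤ ‹MeasurableSpace Ω› :=
  (X.meas_proc V).comap_le

theorem _root_.Vale.Agent.P367.Data.sig_mono (X : Data ν P) {V V' : Set (Lp ℝ 2 P)} (h : V ⊆ V') :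
    X.sig V ≤ X.sig V' := by
  have h1 : Measurable fun z : Λ × (V' → ℝ) => ((z.1, fun g => z.2 ⟨g.1, h g.2⟩) : Λ × (V → ℝ)) :=
    measurable_fst.prodMk (measurable_pi_lambda _ fun g =>
      (measurable_pi_apply _).comp measurable_snd)
  have h2 : Measurable[X.sig V'] (X.proc V') := comap_measurable _
  exact (h1.comp h2).comap_le

theorem _root_.Vale.Agent.P367.Data.sig_lab (X : Data ν P) (V : Set (Lp ℝ 2 P)) : Measurable[X.sig V] X.lab := by
  have h2 : Measurable[X.sig V] (X.proc V) := comap_measurable _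
  exact measurable_fst.comp h2

theorem _root_.Vale.Agent.P367.Data.sig_S (X : Data ν P) {V : Set (Lp ℝ 2 P)} {f : Lp ℝ 2 P} (hf : f ∈ V) :
    Measurable[X.sig V] (X.S f) := by
  have h2 : Measurable[X.sig V] (X.proc V) := comap_measurable _
  exact ((measurable_pi_apply (⟨f, hf⟩ : V)).comp measurable_snd).comp h2

theorem _root_.Vale.Agent.P367.Data.sig_vec (X : Data ν P) {V : Set (Lp ℝ 2 P)} {ι : Type} {f : ι → Lp ℝ 2 P}
    (hf : ∀ i, f i ∈ V) : Measurable[X.sig V] (X.vec f) :=
  @measurable_pi_lambda _ _ _ (X.sig V) _ _ fun i => X.sig_S (hf i)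

/-- the characteristic identity: `∑ t i * S (f i) = S (∑ t i • f i)` almost surely, `Data.ind`,
`Data.gauss`, `charFun_gaussianReal` -/
theorem _root_.Vale.Agent.P367.Data.chr (X : Data ν P) {ι : Type} [Fintype ι] (f : ι → Lp ℝ 2 P) (t : ι → ℝ)
    {A : Set Λ} (hA : MeasurableSet A) :
    ∫ ω in X.lab ⁻¹' A, Complex.exp ((∑ i, t i * X.vec f ω i : ℝ) * Complex.I) ∂P =
      (ν.real A : ℝ) * Complex.exp (-(‖∑ i, t i • f i‖ ^ 2 / 2 : ℝ)) := by
  obtain ⟨g, hg⟩ : ∃ g, g = ∑ i, t i • f i := ⟨_, rfl⟩
  have h1 : ∀ᵐ ω ∂P, ∑ i, t i * X.vec f ω i = X.S g ω := by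
    have e : X.S g = ∑ i, t i • X.S (f i) := by simp [hg]
    have a1 := Lp.coeFn_fun_finsetSum Finset.univ fun i => t i • X.S (f i)
    have a2 : ∀ᵐ ω ∂P, ∀ i, (t i • X.S (f i) : Lp ℝ 2 P) ω = t i * X.vec f ω i :=
      ae_all_iff.2 fun i => Lp.coeFn_smul (t i) (X.S (f i))
    rw [e]
    filter_upwards [a1, a2] with ω b1 b2
    rw [b1]
    exact Finset.sum_congr rfl fun i _ => (b2 i).symm
  have m1 : Measurable (A.indicator fun _ => (1 : ℂ)) := measurable_const.indicator hA
  have m2 : Measurable fun x : ℝ => Complex.exp (x * Complex.I) := by fun_prop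
  have h2 := (X.ind g).integral_fun_comp_mul_comp X.mlab.aemeasurable (X.meas_S g).aemeasurable
    m1.aestronglyMeasurable m2.aestronglyMeasurable
  have h3 : ∫ ω, A.indicator (fun _ => (1 : ℂ)) (X.lab ω) ∂P = (ν.real A : ℝ) := by
    rw [← integral_map X.mlab.aemeasurable m1.aestronglyMeasurable, X.law, integral_indicator hA]
    simp
  have h4 : ∫ ω, Complex.exp (X.S g ω * Complex.I) ∂P = Complex.exp (-(‖g‖ ^ 2 / 2 : ℝ)) := by
    rw [← integral_map (X.meas_S g).aemeasurable m2.aestronglyMeasurable, X.gauss]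
    have a1 := charFun_gaussianReal (μ := 0) (v := ‖g‖₊ ^ 2) 1
    rw [charFun_apply_real] at a1
    simpa using a1
  rw [← hg, ← h3, ← h4, ← h2, ← integral_indicator (X.mlab hA)]
  refine integral_congr_ae ?_
  filter_upwards [h1] with ω hω
  by_cases h : X.lab ω ∈ A
  · rw [Set.indicator_of_mem (show ω ∈ X.lab ⁻¹' A from h), Set.indicator_of_mem h, hω, one_mul]
  · rw [Set.indicator_of_notMem (show ω ∉ X.lab ⁻¹' A from h), Set.indicator_of_notMem h, zero_mul]

/-- For measurable `A` the finite measures `(P.restrict (lab ⁻¹' A)).map vec` and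
`ν A • P.map vec` have the same characteristic function (transport to `EuclideanSpace ℝ ι`,
`Measure.ext_of_charFun`). -/
theorem _root_.Vale.Agent.P367.Data.ind_vec (X : Data ν P) {ι : Type} [Fintype ι] (f : ι → Lp ℝ 2 P) :
    IndepFun X.lab (X.vec f) P := by
  rw [indepFun_iff_measure_inter_preimage_eq_mul]
  intro A B hA hB
  have hv := X.meas_vec f
  haveI : IsFiniteMeasure (ν A • P.map (X.vec f)) := Measure.smul_finite _ (measure_ne_top ν A)
  have key : (P.restrict (X.lab ⁻¹' A)).map (X.vec f) = ν A • P.map (X.vec f) := by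
    refine Measure.ext_of_charFunDual (funext fun L => ?_)
    have e : ∀ v : ι → ℝ, L v = ∑ i, (L fun j => if i = j then 1 else 0) * v i := fun v => by
      rw [← L.coe_coe, LinearMap.pi_apply_eq_sum_univ]
      exact Finset.sum_congr rfl fun i _ => mul_comm _ _
    have m : Measurable fun v : ι → ℝ => Complex.exp (L v * Complex.I) := by fun_prop
    have c1 := X.chr f (fun i => L fun j => if i = j then 1 else 0) hA
    have c2 := X.chr f (fun i => L fun j => if i = j then 1 else 0) MeasurableSet.univ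
    simp only [← e] at c1 c2
    rw [Set.preimage_univ, Measure.restrict_univ, probReal_univ, Complex.ofReal_one, one_mul] at c2
    rw [charFunDual_apply, charFunDual_apply, integral_smul_measure,
      integral_map hv.aemeasurable m.aestronglyMeasurable,
      integral_map hv.aemeasurable m.aestronglyMeasurable, c1, c2]
    rfl
  have h1 := congrArg (fun μ : Measure (ι → ℝ) => μ B) key
  simp only [Measure.smul_apply, smul_eq_mul] at h1
  rw [Measure.map_apply hv hB, Measure.map_apply hv hB, Measure.restrict_apply (hv hB),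
    Set.inter_comm] at h1
  rw [h1, ← Measure.map_apply X.mlab hA, X.law]

end

end Vale.Agent.P367.G
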