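import Vale.Agent.P367G.Gau0

/-! Independence in the data space. -/

set_option linter.all false

namespace Vale.Agent.P367.G

open MeasureTheory ProbabilityTheory Filter Topology Finset Vale.Agent.P146 Matrix
open scoped Classical

noncomputable section

variable {Ω : Type} [MeasurableSpace Ω] {Λ : Type} [MeasurableSpace Λ] {ν : Measure Λ}
  [IsProbabilityMeasure ν] {P : Measure Ω} [IsProbabilityMeasure P]

lemma gau1_triple {α β γ : Type} [MeasurableSpace α] [MeasurableSpace β] [MeasurableSpace γ]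
    {L : Ω → α} {Y : Ω → β} {Z : Ω → γ} (hL : Measurable L) (hY : Measurable Y)
    (hZ : Measurable Z) (h1 : IndepFun L (fun ω => (Y ω, Z ω)) P) (h2 : IndepFun Y Z P) :
    IndepFun (fun ω => (L ω, Y ω)) Z P := by
  have h3 : IndepFun L Y P := h1.comp measurable_id measurable_fst
  rw [indepFun_iff_map_prod_eq_prod_map_map hL.aemeasurable (hY.prodMk hZ).aemeasurable] at h1
  rw [indepFun_iff_map_prod_eq_prod_map_map hY.aemeasurable hZ.aemeasurable] at h2
  rw [indepFun_iff_map_prod_eq_prod_map_map hL.aemeasurable hY.aemeasurable] at h3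
  rw [indepFun_iff_map_prod_eq_prod_map_map (hL.prodMk hY).aemeasurable hZ.aemeasurable, h3]
  apply (MeasurableEquiv.prodAssoc (α := α) (β := β) (γ := γ)).map_measurableEquiv_injective
  rw [Measure.prodAssoc_prod, ← h2, ← h1, Measure.map_map MeasurableEquiv.prodAssoc.measurable
    ((hL.prodMk hY).prodMk hZ)]
  rfl

lemma gau1_cf (X : Data ν P) {ι : Type} [Fintype ι] [DecidableEq ι] (f : ι → Lp ℝ 2 P)
    (L : StrongDual ℝ (ι → ℝ)) : charFunDual (P.map (X.vec f)) L =
      Complex.exp (-(‖∑ i, L (Pi.single i 1) • f i‖ ^ 2 / 2 : ℝ)) := by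
  have h := X.chr f (fun i => L (Pi.single i 1)) MeasurableSet.univ
  rw [Set.preimage_univ, Measure.restrict_univ, probReal_univ, Complex.ofReal_one, one_mul] at h
  rw [charFunDual_apply, integral_map (X.meas_vec f).aemeasurable
    (Continuous.aestronglyMeasurable (by fun_prop)), ← h]
  refine integral_congr_ae (Eventually.of_forall fun ω => ?_)
  beta_reduce
  congr 3
  conv_lhs => rw [← Finset.univ_sum_single (X.vec f ω), map_sum]
  refine Finset.sum_congr rfl fun i _ => ?_
  have : (Pi.single i (X.vec f ω i) : ι → ℝ) = X.vec f ω i • (Pi.single i 1 : ι → ℝ) := by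
    rw [← Pi.single_smul, smul_eq_mul, mul_one]
  rw [this, map_smul, smul_eq_mul, mul_comm]

lemma gau1_cf1 (v : NNReal) (L : StrongDual ℝ ℝ) :
    charFunDual (gaussianReal 0 v) L = Complex.exp (-(v * L 1 ^ 2 / 2 : ℝ)) := by
  have : charFunDual (gaussianReal 0 v) L = charFun (gaussianReal 0 v) (L 1) := by
    rw [charFunDual_apply, charFun_apply_real]
    refine integral_congr_ae (Eventually.of_forall fun x => ?_)
    have : L x = L 1 * x := by rw [mul_comm, ← smul_eq_mul, ← map_smul, smul_eq_mul, mul_one]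
    beta_reduce
    rw [this, Complex.ofReal_mul]
  rw [this, charFun_gaussianReal]
  congr 1
  push_cast
  ring

lemma gau1_fin (X : Data ν P) {ι : Type} [Fintype ι] (f : ι → Lp ℝ 2 P) {w : Lp ℝ 2 P}
    (h : ∀ i, inner ℝ (f i) w = 0) : IndepFun (X.vec f) (X.S w) P := by
  rw [indepFun_iff_charFunDual_prod (X.meas_vec f).aemeasurable (X.meas_S w).aemeasurable]
  intro L
  let T : (Option ι → ℝ) →L[ℝ] (ι → ℝ) × ℝ :=
    (ContinuousLinearMap.pi fun i => ContinuousLinearMap.proj (some i)).prod
      (ContinuousLinearMap.proj none)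
  have e : P.map (fun ω => (X.vec f ω, X.S w ω)) =
      (P.map (X.vec fun o : Option ι => o.elim w f)).map T := by
    rw [Measure.map_map T.continuous.measurable (X.meas_vec _)]
    rfl
  have t0 : T (Pi.single none 1) = (0, 1) := by
    ext i <;> simp [T]
  have t1 : ∀ i, T (Pi.single (some i) 1) = (Pi.single i 1, 0) := fun i => by
    ext j <;> simp [T, Pi.single_apply]
  rw [e, charFunDual_map, gau1_cf, gau1_cf, X.gauss, gau1_cf1, ← Complex.exp_add,
    Fintype.sum_option]
  simp only [ContinuousLinearMap.comp_apply, t0, t1, Option.elim, ContinuousLinearMap.inl_apply,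
    ContinuousLinearMap.inr_apply]
  have o : inner ℝ (L (0, 1) • w) (∑ i, L (Pi.single i 1, 0) • f i) = 0 := by
    rw [real_inner_comm, sum_inner]
    exact Finset.sum_eq_zero fun i _ => by rw [inner_smul_left, inner_smul_right, h i]; simp
  rw [norm_add_sq_real, o, norm_smul, mul_pow, Real.norm_eq_abs, sq_abs]
  congr 1
  push_cast
  ring



/-- Finite families first: `vec f` and `S w` are independent by characteristic functions
(Pythagoras), the label is independent of the pair (`ind_vec` on `Option ι`). Then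
`IndepFun.process_indepFun` or a pi system argument. -/
theorem _root_.Vale.Agent.P367.Data.ind_proc (X : Data ν P) {V : Set (Lp ℝ 2 P)} {w : Lp ℝ 2 P}
    (h : ∀ g ∈ V, inner ℝ g w = 0) : IndepFun (X.proc V) (X.S w) P := by
  have h1 : IndepFun X.lab (fun ω (o : Option V) => X.S (o.elim w Subtype.val) ω) P :=
    IndepFun.indepFun_process X.mlab (fun _ => X.meas_S _) fun I =>
      X.ind_vec fun i : I => (i.1.elim w Subtype.val : Lp ℝ 2 P)
  have h2 : IndepFun (fun ω (g : V) => X.S g.1 ω) (X.S w) P :=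
    IndepFun.process_indepFun (fun _ => X.meas_S _) (X.meas_S w) fun I =>
      gau1_fin X (fun i : I => (i.1.1 : Lp ℝ 2 P)) fun i => h _ i.1.2
  exact gau1_triple X.mlab (measurable_pi_lambda _ fun _ => X.meas_S _) (X.meas_S w)
    (h1.comp measurable_id (show Measurable fun y : Option V → ℝ => (fun g : V => y (some g), y none)
      by fun_prop)) h2

/-- `Y` factors through `proc`; `IndepFun.integral_mul_eq_mul_integral` -/
theorem _root_.Vale.Agent.P367.Data.int_mul (X : Data ν P) {V : Set (Lp ℝ 2 P)} {w : Lp ℝ 2 P}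
    (h : ∀ g ∈ V, inner ℝ g w = 0) {Y : Ω → ℝ} (hY : Measurable[X.sig V] Y) {ψ : ℝ → ℝ}
    (hψ : Measurable ψ) :
    ∫ ω, Y ω * ψ (X.S w ω) ∂P = (∫ ω, Y ω ∂P) * ∫ x, ψ x ∂gaussianReal 0 (‖w‖₊ ^ 2) := by
  have h1 : IndepFun Y (fun ω => ψ (X.S w ω)) P := by
    have h0 := X.ind_proc h
    rw [IndepFun_iff_Indep] at h0 ⊢
    exact indep_of_indep_of_le h0 hY.comap_le
      (hψ.comp (comap_measurable (X.S w : Ω → ℝ))).comap_le
  rw [h1.integral_fun_mul_eq_mul_integral (hY.mono (X.sig_le V) le_rfl).aestronglyMeasurable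
    (hψ.comp (X.meas_S w)).aestronglyMeasurable, ← X.gauss w,
    integral_map (X.meas_S w).aemeasurable hψ.aestronglyMeasurable]

/-- characteristic functions, `charFun_pi` or `iIndepFun_iff_map_fun_eq_pi_map` -/
theorem _root_.Vale.Agent.P367.Data.law_gk (X : Data ν P) {k : ℕ} {f : Fin k → Lp ℝ 2 P} (hf : Orthonormal ℝ f) :
    P.map (X.vec f) = gk k := by
  have := Measure.isProbabilityMeasure_map (μ := P) (X.meas_vec f).aemeasurable
  unfold gk
  refine Measure.ext_of_charFunDual (funext fun L => ?_)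
  rw [gau1_cf, charFunDual_pi]
  simp only [gau1_cf1, ← Complex.exp_sum]
  have e : ‖∑ i, L (Pi.single i 1) • f i‖ ^ 2 = ∑ i, L (Pi.single i 1) ^ 2 := by
    rw [← real_inner_self_eq_norm_sq, hf.inner_sum]
    simp [sq]
  rw [e]
  congr 1
  push_cast
  simp [Finset.sum_div]

end

end Vale.Agent.P367.G
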