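import Vale.Agent.P367G.Gau2a

/-! Messages, adjoint, supports. -/

set_option linter.all false

namespace Vale.Agent.P367.G

open MeasureTheory ProbabilityTheory Filter Topology Finset Vale.Agent.P146 Matrix
open scoped Classical

noncomputable section

variable {Ω : Type} [MeasurableSpace Ω] {Λ : Type} [MeasurableSpace Λ] {ν : Measure Λ}
  [IsProbabilityMeasure ν] {P : Measure Ω} [IsProbabilityMeasure P]

variable (X : Data ν P) {A A' : Set Λ} {F F' : Ω → Bool}

/-- `int_mul` with `ψ = id` -/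
theorem _root_.Vale.Agent.P367.Data.orth {V : Set (Lp ℝ 2 P)} {w f : Lp ℝ 2 P} (h : ∀ g ∈ V, inner ℝ g w = 0)
    {Y : Ω → ℝ} (hY : Measurable[X.sig V] Y) (hf : f =ᵐ[P] Y) : inner ℝ f (X.S w) = 0 := by
  have h1 : ∫ ω, Y ω * X.S w ω ∂P = _ := X.int_mul h hY (ψ := fun x => x) measurable_id
  rw [integral_id_gaussianReal, mul_zero] at h1
  rw [inner_L, ← h1]
  refine integral_congr_ae ?_
  filter_upwards [hf] with ω h2
  rw [h2]

/-- test against `g = 1_A * Sa f` -/
theorem _root_.Vale.Agent.P367.Data.Sa_zero (hA : MeasurableSet A) {f : Lp ℝ 2 P}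
    (h : ∀ g ∈ X.sup A, inner ℝ f (X.S g) = 0) : ∀ᵐ ω ∂P, X.lab ω ∈ A → X.Sa f ω = 0 := by
  have hm : MemLp ((X.lab ⁻¹' A).indicator (X.Sa f)) 2 P :=
    (Lp.memLp (X.Sa f)).indicator (X.mlab hA)
  have h1 := hm.coeFn_toLp
  have h2 : hm.toLp _ ∈ X.sup A := by
    filter_upwards [h1] with ω h3 h4
    rw [h3, Set.indicator_of_notMem (s := X.lab ⁻¹' A) h4]
  have h3 : ‖hm.toLp _‖ ^ 2 = 0 := by
    rw [norm_L, ← h _ h2, ← X.inner_Sa, inner_L]
    refine integral_congr_ae ?_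
    filter_upwards [h1] with ω h4
    rw [h4]
    by_cases h5 : ω ∈ X.lab ⁻¹' A
    · rw [Set.indicator_of_mem h5, sq]
    · rw [Set.indicator_of_notMem h5, mul_zero, sq, mul_zero]
  rw [norm_eq_zero.1 (pow_eq_zero_iff two_ne_zero |>.1 h3)] at h1
  filter_upwards [h1, Lp.coeFn_zero ℝ 2 P] with ω h4 h5 h6
  rw [Set.indicator_of_mem (s := X.lab ⁻¹' A) h6, h5] at h4
  exact h4.symm

/-- projection on an orthonormal family: decompose the test vector, `orth` with `V = range e` -/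
theorem _root_.Vale.Agent.P367.Data.Sa_proj {ι : Type} [Fintype ι] {e : ι → Lp ℝ 2 P} (he : Orthonormal ℝ e)
    {f : Lp ℝ 2 P} {Y : Ω → ℝ} (hY : Measurable[X.sig (Set.range e)] Y) (hf : f =ᵐ[P] Y) :
    X.Sa f = ∑ i, inner ℝ f (X.S (e i)) • e i := by
  refine ext_inner_right ℝ fun v => ?_
  have h1 := X.orth (V := Set.range e) (w := v - ∑ i, inner ℝ (e i) v • e i) (by
    rintro _ ⟨j, rfl⟩
    rw [inner_sub_right, he.inner_right_fintype, sub_self]) hY hf
  rw [map_sub, map_sum, inner_sub_right, inner_sum, sub_eq_zero] at h1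
  rw [X.inner_Sa, h1, sum_inner]
  refine Finset.sum_congr rfl fun i _ => ?_
  rw [map_smul, real_inner_smul_right, real_inner_smul_left, mul_comm]

theorem _root_.Vale.Agent.P367.Data.Sa_one {e f : Lp ℝ 2 P} (he : e ≠ 0) {Y : Ω → ℝ} (hY : Measurable[X.sig {e}] Y)
    (hf : f =ᵐ[P] Y) : X.Sa f = (inner ℝ f (X.S e) / ‖e‖ ^ 2) • e := by
  refine ext_inner_right ℝ fun v => ?_
  have h0 : ‖e‖ ^ 2 ≠ 0 := pow_ne_zero 2 (norm_ne_zero_iff.2 he)
  have h1 := X.orth (V := {e}) (w := v - (inner ℝ e v / ‖e‖ ^ 2) • e) (by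
    rintro _ rfl
    rw [inner_sub_right, real_inner_smul_right, real_inner_self_eq_norm_sq, div_mul_cancel₀ _ h0,
      sub_self]) hY hf
  rw [map_sub, map_smul, inner_sub_right, real_inner_smul_right, sub_eq_zero] at h1
  rw [X.inner_Sa, h1, real_inner_smul_left]
  ring

/-- Fubini for the pair of the label and a vector of fields (`ind_vec`) -/
theorem _root_.Vale.Agent.P367.Data.int_lab_vec {ι : Type} [Fintype ι] (f : ι → Lp ℝ 2 P) {H : Λ × (ι → ℝ) → ℝ}
    (hH : Measurable H) (hi : Integrable (fun ω => H (X.lab ω, X.vec f ω)) P) :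
    ∫ ω, H (X.lab ω, X.vec f ω) ∂P = ∫ ω, ∫ l, H (l, X.vec f ω) ∂ν ∂P := by
  have hm := (X.mlab.prodMk (X.meas_vec f)).aemeasurable (μ := P)
  have h1 := (indepFun_iff_map_prod_eq_prod_map_map X.mlab.aemeasurable
    (X.meas_vec f).aemeasurable).1 (X.ind_vec f)
  rw [X.law] at h1
  have h2 := (integrable_map_measure hH.aestronglyMeasurable hm).2 hi
  rw [← integral_map hm hH.aestronglyMeasurable, h1]
  rw [h1] at h2
  rw [integral_prod_symm _ h2, integral_map (X.meas_vec f).aemeasurable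
    hH.stronglyMeasurable.integral_prod_left'.aestronglyMeasurable]

theorem _root_.Vale.Agent.P367.Data.ae_lab_vec {ι : Type} [Fintype ι] (f : ι → Lp ℝ 2 P) {p : Λ × (ι → ℝ) → Prop}
    (hp : MeasurableSet {z | p z}) (h : ∀ x, ∀ᵐ l ∂ν, p (l, x)) :
    ∀ᵐ ω ∂P, p (X.lab ω, X.vec f ω) := by
  have hm := ((X.meas_vec f).prodMk X.mlab).aemeasurable (μ := P)
  have h1 := (indepFun_iff_map_prod_eq_prod_map_map (X.meas_vec f).aemeasurable
    X.mlab.aemeasurable).1 (X.ind_vec f).symm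
  rw [X.law] at h1
  refine ae_of_ae_map (p := fun z : (ι → ℝ) × Λ => p z.swap) hm ?_
  rw [h1]
  exact (Measure.ae_prod_iff_ae_ae (measurable_swap hp)).2 (Eventually.of_forall h)

theorem _root_.Vale.Agent.P367.Data.int_ind_sq (hA : MeasurableSet A) (f g : Lp ℝ 2 P) :
    ∫ ω, (if X.lab ω ∈ A then (X.S f ω - X.S g ω) ^ 2 else 0) ∂P = ν.real A * ‖f - g‖ ^ 2 := by
  have hY : Measurable[X.sig ∅] fun ω => A.indicator (fun _ => (1 : ℝ)) (X.lab ω) :=
    (measurable_const.indicator hA).comp (X.sig_lab ∅)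
  have hψ : Measurable fun x : ℝ => x ^ 2 := measurable_id.pow_const 2
  have h1 := X.int_mul (V := ∅) (w := f - g) (fun _ h => h.elim) hY hψ
  rw [← X.gauss, integral_map (X.meas_S _).aemeasurable hψ.aestronglyMeasurable, ← norm_L,
    X.S.norm_map, ← integral_map X.mlab.aemeasurable
      (measurable_const.indicator hA).aestronglyMeasurable, X.law, integral_indicator_const _ hA,
    smul_eq_mul, mul_one] at h1
  rw [← h1, map_sub]
  refine integral_congr_ae ?_
  filter_upwards [Lp.coeFn_sub (X.S f) (X.S g)] with ω h2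
  rw [h2]
  by_cases h3 : X.lab ω ∈ A
  · rw [if_pos h3, Set.indicator_of_mem h3, one_mul, Pi.sub_apply]
  · rw [if_neg h3, Set.indicator_of_notMem h3, zero_mul]

theorem _root_.Vale.Agent.P367.Data.S_ne {f : Lp ℝ 2 P} (hf : f ≠ 0) (c : ℝ) : ∀ᵐ ω ∂P, X.S f ω ≠ c := by
  refine ae_of_ae_map (p := fun x => x ≠ c) (X.meas_S f).aemeasurable ?_
  rw [X.gauss]
  have := noAtoms_gaussianReal (μ := 0) (pow_ne_zero 2 (nnnorm_ne_zero_iff.2 hf))
  exact Measure.ae_ne _ c

theorem _root_.Vale.Agent.P367.Data.en_lip (hF : Measurable F) (hF' : Measurable F') :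
    |X.en F - X.en F'| ≤ 2 * ‖X.msg Set.univ F - X.msg Set.univ F'‖ := by
  have hn : ∀ G : Ω → Bool, Measurable G → ‖X.msg Set.univ G‖ = 1 := fun G hG => by
    have h1 := X.norm_msg MeasurableSet.univ hG
    rw [probReal_univ] at h1
    exact (pow_eq_one_iff_of_nonneg (norm_nonneg _) two_ne_zero).1 h1
  have e : X.en F - X.en F' =
      inner ℝ (X.msg Set.univ F - X.msg Set.univ F') (X.S (X.msg Set.univ F)) +
        inner ℝ (X.msg Set.univ F') (X.S (X.msg Set.univ F - X.msg Set.univ F')) := by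
    rw [map_sub, inner_sub_left, inner_sub_right, Data.en, Data.en]
    ring
  have h1 := abs_real_inner_le_norm (X.msg Set.univ F - X.msg Set.univ F') (X.S (X.msg Set.univ F))
  have h2 := abs_real_inner_le_norm (X.msg Set.univ F')
    (X.S (X.msg Set.univ F - X.msg Set.univ F'))
  rw [X.S.norm_map, hn F hF] at h1
  rw [X.S.norm_map, hn F' hF'] at h2
  rw [e]
  linarith [abs_add_le (inner ℝ (X.msg Set.univ F - X.msg Set.univ F') (X.S (X.msg Set.univ F)))
    (inner ℝ (X.msg Set.univ F') (X.S (X.msg Set.univ F - X.msg Set.univ F')))]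

end

end Vale.Agent.P367.G
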