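import Vale.Agent.P367G.Gau1

/-! Messages, adjoint, supports. -/

set_option linter.all false

namespace Vale.Agent.P367.G

open MeasureTheory ProbabilityTheory Filter Topology Finset Vale.Agent.P146 Matrix
open scoped Classical

noncomputable section

variable {Ω : Type} [MeasurableSpace Ω] {Λ : Type} [MeasurableSpace Λ] {ν : Measure Λ}
  [IsProbabilityMeasure ν] {P : Measure Ω} [IsProbabilityMeasure P]

theorem toL_ae {F : Ω → ℝ} (h : MemLp F 2 P) : toL P F =ᵐ[P] F := by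
  unfold toL
  rw [dif_pos h]
  exact h.coeFn_toLp

theorem memLp_bd {F : Ω → ℝ} (hF : Measurable F) {C : ℝ} (h : ∀ ω, |F ω| ≤ C) : MemLp F 2 P :=
  MemLp.of_bound hF.aestronglyMeasurable C (Eventually.of_forall fun ω => h ω)

theorem inner_L (f g : Lp ℝ 2 P) : inner ℝ f g = ∫ ω, f ω * g ω ∂P := by
  rw [L2.inner_def]
  refine integral_congr_ae (Eventually.of_forall fun ω => ?_)
  simp [mul_comm]

theorem norm_L (f : Lp ℝ 2 P) : ‖f‖ ^ 2 = ∫ ω, f ω ^ 2 ∂P := by
  rw [← real_inner_self_eq_norm_sq, inner_L]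
  simp only [sq]

theorem meas_spin : Measurable spin := measurable_of_finite _

theorem spin_sq (b : Bool) : spin b ^ 2 = 1 := by
  cases b <;> simp [spin]

theorem spin_not (b : Bool) : spin (!b) = -spin b := by
  cases b <;> simp [spin]

variable (X : Data ν P) {A A' : Set Λ} {F F' : Ω → Bool}

theorem _root_.Vale.Agent.P367.Data.msg_ae (hA : MeasurableSet A) (hF : Measurable F) :
    X.msg A F =ᵐ[P] fun ω => if X.lab ω ∈ A then spin (F ω) else 0 := by
  refine toL_ae (memLp_bd (C := 1) ?_ fun ω => ?_)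
  · exact Measurable.ite (X.mlab hA) (meas_spin.comp hF) measurable_const
  · split_ifs
    · cases F ω <;> simp [spin]
    · simp

theorem _root_.Vale.Agent.P367.Data.msg_congr (h : ∀ ω, X.lab ω ∈ A → F ω = F' ω) : X.msg A F = X.msg A F' := by
  unfold Data.msg
  congr 1
  funext ω
  split_ifs with h1
  · rw [h ω h1]
  · rfl

theorem _root_.Vale.Agent.P367.Data.norm_msg (hA : MeasurableSet A) (hF : Measurable F) :
    ‖X.msg A F‖ ^ 2 = ν.real A := by
  rw [norm_L]
  have h1 : (fun ω => X.msg A F ω ^ 2) =ᵐ[P] (X.lab ⁻¹' A).indicator fun _ => (1 : ℝ) := by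
    filter_upwards [X.msg_ae hA hF] with ω hω
    rw [hω]
    by_cases h : X.lab ω ∈ A
    · rw [if_pos h, spin_sq, Set.indicator_of_mem (show ω ∈ X.lab ⁻¹' A from h)]
    · rw [if_neg h, Set.indicator_of_notMem (show ω ∉ X.lab ⁻¹' A from h)]
      norm_num
  rw [integral_congr_ae h1, integral_indicator_const _ (X.mlab hA), smul_eq_mul, mul_one,
    ← map_measureReal_apply X.mlab hA, X.law]

theorem _root_.Vale.Agent.P367.Data.msg_sup (hA : MeasurableSet A) (hF : Measurable F) : X.msg A F ∈ X.sup A := by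
  filter_upwards [X.msg_ae hA hF] with ω hω h
  rw [hω, if_neg h]

theorem _root_.Vale.Agent.P367.Data.sup_mono (h : A ⊆ A') : X.sup A ⊆ X.sup A' := by
  intro g hg
  change ∀ᵐ ω ∂P, X.lab ω ∉ A' → g ω = 0
  filter_upwards [hg] with ω hω h'
  exact hω fun h2 => h' (h h2)

theorem _root_.Vale.Agent.P367.Data.sup_zero (A : Set Λ) : (0 : Lp ℝ 2 P) ∈ X.sup A := by
  filter_upwards [Lp.coeFn_zero ℝ 2 P] with ω hω _
  exact hω

theorem _root_.Vale.Agent.P367.Data.sup_add {f g : Lp ℝ 2 P} (hf : f ∈ X.sup A) (hg : g ∈ X.sup A) : f + g ∈ X.sup A :=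
  by
  filter_upwards [hf, hg, Lp.coeFn_add f g] with ω h1 h2 h3 h
  rw [h3, Pi.add_apply, h1 h, h2 h, add_zero]

theorem _root_.Vale.Agent.P367.Data.sup_smul {f : Lp ℝ 2 P} (hf : f ∈ X.sup A) (c : ℝ) : c • f ∈ X.sup A := by
  filter_upwards [hf, Lp.coeFn_smul c f] with ω h1 h3 h
  rw [h3, Pi.smul_apply, h1 h, smul_zero]

theorem _root_.Vale.Agent.P367.Data.sup_sum {ι : Type} (t : Finset ι) {f : ι → Lp ℝ 2 P} (hf : ∀ i ∈ t, f i ∈ X.sup A) :
    ∑ i ∈ t, f i ∈ X.sup A := by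
  induction t using Finset.induction_on with
  | empty => rw [Finset.sum_empty]; exact X.sup_zero A
  | insert i t hi ih =>
    rw [Finset.sum_insert hi]
    exact X.sup_add (hf i (Finset.mem_insert_self i t))
      (ih fun j hj => hf j (Finset.mem_insert_of_mem hj))

theorem _root_.Vale.Agent.P367.Data.sup_orth (hd : Disjoint A A') {f g : Lp ℝ 2 P} (hf : f ∈ X.sup A)
    (hg : g ∈ X.sup A') : inner ℝ f g = 0 := by
  rw [inner_L]
  refine integral_eq_zero_of_ae ?_
  filter_upwards [hf, hg] with ω h1 h2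
  by_cases h : X.lab ω ∈ A
  · rw [h2 (Set.disjoint_left.1 hd h), mul_zero, Pi.zero_apply]
  · rw [h1 h, zero_mul, Pi.zero_apply]

theorem _root_.Vale.Agent.P367.Data.fld_ae (A : Set Λ) (F : Ω → Bool) :
    X.fld A F =ᵐ[P] fun ω => X.S (X.msg A F) ω + X.Sa (X.msg A F) ω := Lp.coeFn_add _ _

theorem _root_.Vale.Agent.P367.Data.inner_Sa (f g : Lp ℝ 2 P) : inner ℝ (X.Sa f) g = inner ℝ f (X.S g) := ContinuousLinearMap.adjoint_inner_left _ _ _

end

end Vale.Agent.P367.G
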