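import Vale.Agent.P367G.Ref

/-! The energy of the reference configuration. -/

set_option linter.all false

namespace Vale.Agent.P367.G

open MeasureTheory ProbabilityTheory Filter Topology Finset Vale.Agent.P146 Matrix
open scoped Classical

noncomputable section

variable {M N k : ℕ} {Ω : Type} [MeasurableSpace Ω] {m : Measure (Cl M N k)} {P : Measure Ω}
  [IsProbabilityMeasure P] {X : Data (m.prod un) P} {Pr : Prog k} {B a b : ℝ} {K : ℕ}
  {σ : Ω → Bool} {r : Fin M} {T : Finset (Fin M × Fin N)}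

theorem refe_dec {α : Type} {_ : MeasurableSpace α} {y : α → ℝ} (hy : Measurable y) :
    Measurable fun ω => decide (y ω < 0) :=
  measurable_to_bool (by
    have h : (fun ω => decide (y ω < 0)) ⁻¹' {true} = {ω | y ω < 0} := by
      ext ω
      simp
    rw [h]
    exact measurableSet_lt hy measurable_const)

theorem refe_prob (X : Data (m.prod un) P) : IsProbabilityMeasure (m.prod un) :=
  X.law ▸ Measure.isProbabilityMeasure_map X.mlab.aemeasurable

theorem refe_sg {α : Type} {_ : MeasurableSpace α} {y : α → ℝ} (hy : Measurable y) :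
    Measurable fun ω => if y ω < 0 then (-1 : ℝ) else 1 :=
  Measurable.ite (measurableSet_lt hy measurable_const) measurable_const measurable_const

theorem refe_spin (f : Fin k → Lp ℝ 2 P) (ω : Ω) : spin (neg X Pr f ω) =
    -if Pr.μ (X.vec f ω) - (X.lab ω).2 < 0 then (-1 : ℝ) else 1 := by
  unfold neg spin
  by_cases h : Pr.μ (X.vec f ω) - (X.lab ω).2 < 0 <;> simp only [h] <;> simp

theorem refe_int (hm : IsProbabilityMeasure m) (h : Pr.Nice B) {φ : (Fin k → ℝ) → ℝ}
    (hφ : Measurable φ) (hi : Integrable (fun ω => φ (X.vec (X.rf Pr) ω)) P) :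
    ∫ ω, spin (!neg X Pr (X.rf Pr) ω) * φ (X.vec (X.rf Pr) ω) ∂P = ∫ x, φ x * Pr.μ x ∂gk k := by
  have h1 : Measurable fun z : Lab M N k × (Fin k → ℝ) =>
      if Pr.μ z.2 - z.1.2 < 0 then (-1 : ℝ) else 1 :=
    refe_sg ((h.mm.comp measurable_snd).sub (measurable_snd.comp measurable_fst))
  have h2 := X.int_lab_vec (X.rf Pr)
    (H := fun z => (if Pr.μ z.2 - z.1.2 < 0 then (-1 : ℝ) else 1) * φ z.2)
    (h1.mul (hφ.comp measurable_snd))
    (hi.bdd_mul (c := 1) (h1.comp (X.mlab.prodMk (X.meas_vec _))).aestronglyMeasurable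
      (ae_of_all _ fun ω => by
        simp only [Function.comp_apply]
        split_ifs <;> simp))
  simp only [spin_not, refe_spin, neg_neg]
  refine h2.trans ?_
  rw [← X.law_gk (X.rf_on h), integral_map (X.meas_vec _).aemeasurable
    (hφ.fun_mul h.mm).aestronglyMeasurable]
  refine integral_congr_ae (ae_of_all _ fun ω => ?_)
  simp only
  rw [integral_mul_const, integral_fun_snd fun U =>
    if Pr.μ (X.vec (X.rf Pr) ω) - U < 0 then (-1 : ℝ) else 1, un_sign (h.bd _), probReal_univ,
    one_smul, mul_comm]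

theorem refe_abs (f : Lp ℝ 2 P) : ∫ ω, |f ω| ∂P ≤ ‖f‖ := by
  have h1 := variance_nonneg |⇑f| P
  rw [variance_eq_sub (Lp.memLp f).abs] at h1
  refine abs_le_of_sq_le_sq' ?_ (norm_nonneg _) |>.2
  rw [norm_L]
  simpa only [sub_nonneg, Pi.pow_apply, Pi.abs_apply, sq_abs] using h1

theorem meas_neg (h : Pr.Nice B) (f : Fin k → Lp ℝ 2 P) : Measurable (neg X Pr f) :=
  have := refe_prob X
  refe_dec ((h.mm.comp (X.meas_vec f)).sub (measurable_snd.comp X.mlab))

theorem sig_neg (h : Pr.Nice B) {V : Set (Lp ℝ 2 P)} {f : Fin k → Lp ℝ 2 P} (hf : ∀ i, f i ∈ V) :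
    Measurable[X.sig V] (neg X Pr f) :=
  have := refe_prob X
  refe_dec ((h.mm.comp (X.sig_vec hf)).sub (measurable_snd.comp (X.sig_lab V)))

/-- `Sa_proj` with the family `rf`; `int_lab_vec` and `un_sign` replace the bit by `Pr.μ`;
`law_gk`, `rf_ae`. -/
theorem en_ref (hm : IsProbabilityMeasure m) (h : Pr.Nice B) :
    X.en (fun ω => !neg X Pr (X.rf Pr) ω) = Pr.val := by
  have h1 : X.msg Set.univ (fun ω => !neg X Pr (X.rf Pr) ω) =ᵐ[P]
      fun ω => spin (!neg X Pr (X.rf Pr) ω) := by
    simpa only [Set.mem_univ, if_true] using X.msg_ae MeasurableSet.univ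
      (F := fun ω => !neg X Pr (X.rf Pr) ω)
      ((Measurable.of_discrete (f := fun b => !b)).comp (meas_neg h _))
  have h2 := X.Sa_proj (X.rf_on h) ((Measurable.of_discrete (f := fun b => spin (!b))).comp
    (sig_neg h fun i => Set.mem_range_self i)) h1
  rw [Data.en, ← X.inner_Sa, h2, sum_inner, Prog.val]
  refine Finset.sum_congr rfl fun i _ => ?_
  rw [real_inner_smul_left, inner_L, inner_L, ← refe_int (X := X) hm h (measurable_pi_apply i)
    ((Lp.memLp _).integrable one_le_two), ← refe_int (X := X) hm h (h.mu i)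
    ((memLp_bd ((h.mu i).comp (X.meas_vec _)) fun ω => h.ub i _).integrable one_le_two)]
  congr 1
  · refine integral_congr_ae ?_
    filter_upwards [h1] with ω h3
    rw [h3]
    rfl
  · refine integral_congr_ae ?_
    filter_upwards [h1, X.rf_ae h i] with ω h3 h4
    rw [h3, h4, mul_comm]

/-- `int_lab_vec` for the family `Sum.elim f g`, `ClLaw.int_Win`, `un_diff`, `Nice.ml`, and
`E |S f - S g| ≤ ‖f - g‖`. -/
theorem neg_close (hm : ClLaw m a b) (h : Pr.Nice B) (f g : Fin k → Lp ℝ 2 P)
    (T : Finset (Fin M × Fin N)) :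
    ∫ ω, (if X.lab ω ∈ Win k T then (spin (neg X Pr f ω) - spin (neg X Pr g ω)) ^ 2 else 0) ∂P ≤
      T.card * a * (2 * B * ∑ i, ‖f i - g i‖) := by
  have := hm.prob
  have hB := zero_le_one.trans h.one_le
  have ha := hm.apos.le
  have hb : ∀ c c' U : ℝ, |((if c - U < 0 then (-1 : ℝ) else 1) -
      if c' - U < 0 then (-1 : ℝ) else 1) ^ 2| ≤ 4 := fun c c' U => by
    split_ifs <;> norm_num
  have m1 : ∀ e : Fin k → Fin k ⊕ Fin k, Measurable fun z : Lab M N k × (Fin k ⊕ Fin k → ℝ) =>
      if Pr.μ (fun i => z.2 (e i)) - z.1.2 < 0 then (-1 : ℝ) else 1 := fun e =>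
    refe_sg ((h.mm.comp (by fun_prop)).sub (measurable_snd.comp measurable_fst))
  have m2 : Measurable fun z : Lab M N k × (Fin k ⊕ Fin k → ℝ) => if z.1 ∈ Win k T then
      ((if Pr.μ (fun i => z.2 (Sum.inl i)) - z.1.2 < 0 then (-1 : ℝ) else 1) -
        if Pr.μ (fun i => z.2 (Sum.inr i)) - z.1.2 < 0 then (-1 : ℝ) else 1) ^ 2 else 0 :=
    Measurable.ite (measurable_fst (meas_Win T))
      (((m1 Sum.inl).sub (m1 Sum.inr)).pow_const 2) measurable_const
  have h2 := X.int_lab_vec (Sum.elim f g) m2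
    ((memLp_bd (C := 4) (m2.comp (X.mlab.prodMk (X.meas_vec _))) fun ω => by
      simp only [Function.comp_apply]
      split_ifs <;> norm_num).integrable one_le_two)
  simp only [refe_spin, neg_sub_neg, sub_sq_comm]
  refine h2.trans_le ?_
  have i1 : ∀ i, Integrable (fun ω => |X.S (f i - g i) ω|) P := fun i =>
    ((Lp.memLp _).integrable one_le_two).abs
  refine (integral_mono_of_nonneg (g := fun ω => T.card * a * (2 * B * ∑ i, |X.S (f i - g i) ω|))
    (ae_of_all _ fun ω => integral_nonneg fun l => by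
      simp only [Pi.zero_apply]
      split_ifs <;> norm_num)
    (((integrable_finsetSum _ fun i _ => i1 i).const_mul _).const_mul _) ?_).trans ?_
  · filter_upwards [ae_all_iff.2 fun i => Lp.coeFn_sub (X.S (f i)) (X.S (g i))] with ω hω
    refine (hm.int_Win T (((refe_sg (measurable_const.sub measurable_id)).sub
      (refe_sg (measurable_const.sub measurable_id))).pow_const 2) (hb _ _)).trans_le ?_
    refine mul_le_mul_of_nonneg_left ((un_diff _ _).trans ?_) (by positivity)
    rw [mul_assoc]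
    refine mul_le_mul_of_nonneg_left ((h.ml _ _).trans_eq ?_) zero_le_two
    simp only [map_sub, hω]
    rfl
  · rw [integral_const_mul, integral_const_mul, integral_finsetSum _ fun i _ => i1 i]
    gcongr with i
    exact (refe_abs _).trans_eq (X.S.norm_map _)

end

end Vale.Agent.P367.G
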