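import Vale.Agent.P367G.Bus
import Vale.Agent.P367G.RefE

/-! The kernels. -/

set_option linter.all false

namespace Vale.Agent.P367.G

open MeasureTheory ProbabilityTheory Filter Topology Finset Vale.Agent.P146 Matrix
open scoped Classical

noncomputable section

theorem ker_meas_sgn {M N k K : ℕ} {Ω : Type} {m' : MeasurableSpace Ω} {lab : Ω → Lab M N k}
    (hl : Measurable lab) {y : Ω → ℝ} (hy : Measurable y) (B : ℝ) (κ : Fin K) :
    MeasurableSet {ω | y ω / B - thr K κ (lab ω).2 < 0} :=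
  measurableSet_lt ((hy.div_const B).sub
    ((meas_thr κ).measurable.comp (measurable_snd.comp hl))) measurable_const

theorem ker_meas_flp {M N k : ℕ} {Ω : Type} {m' : MeasurableSpace Ω} {lab : Ω → Lab M N k}
    (hl : Measurable lab) {C : Set (Lab M N k)} (hC : MeasurableSet C) {s σ : Ω → Bool}
    (hs : Measurable s) (hσ : Measurable σ) :
    Measurable fun ω => if lab ω ∈ C ∧ s ω = true then !σ ω else σ ω :=
  Measurable.ite ((hl hC).inter (hs (measurableSet_singleton true)))
    ((measurable_of_countable not).comp hσ) hσ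

variable {M N k : ℕ} {Ω : Type} [MeasurableSpace Ω] {m : Measure (Cl M N k)} {P : Measure Ω}
  [IsProbabilityMeasure P] {X : Data (m.prod un) P} {Pr : Prog k} {B a b : ℝ} {K : ℕ}
  {σ : Ω → Bool} {r : Fin M} {T : Finset (Fin M × Fin N)}

theorem ker_prob (X : Data (m.prod un) P) : IsProbabilityMeasure (m.prod un) :=
  X.law ▸ Measure.isProbabilityMeasure_map X.mlab.aemeasurable

theorem ker_stab (σ : Ω → Bool) (r : Fin M) (T : Finset (Fin M × Fin N)) (i : Fin k) (l : ℕ)
    (hl : (i : ℕ) < l) : KK X Pr B K σ r l T i = KK X Pr B K σ r (i + 1) T i := by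
  induction l with
  | zero => omega
  | succ l ih =>
    by_cases h : (i : ℕ) = l
    · rw [← h]
    · rw [← ih (by omega)]
      simp only [KK, if_neg h]

theorem ker_Wc_sub {c : Fin M × Fin N} (hc : c ∈ T) : Wc k c ⊆ Win k T := fun _ hl => ⟨c, hc, hl⟩

theorem ker_Win_mono {T' : Finset (Fin M × Fin N)} (h : T ⊆ T') : Win k T ⊆ Win k T' :=
  fun _ ⟨c, hc, hl⟩ => ⟨c, h hc, hl⟩

theorem ker_Win_disj (T : Finset (Fin M × Fin N)) : Disjoint (Win k Tᶜ) (Win k T) := by
  rw [Set.disjoint_left]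
  rintro l ⟨c, hc, hl⟩ ⟨c', hc', hl'⟩
  rw [hl] at hl'
  cases hl'
  exact (Finset.mem_compl.1 hc) hc'

theorem meas_bit {e : Ω → Bool} (he : Measurable e) {y : Ω → ℝ} (hy : Measurable y) (κ : Fin K) :
    Measurable (bit X B K e y κ) :=
  Measurable.ite (ker_meas_sgn X.mlab hy B κ) ((measurable_of_countable not).comp he) he

theorem spin_bit (e : Ω → Bool) (y : Ω → ℝ) (κ : Fin K) (ω : Ω) : spin (bit X B K e y κ ω) =
    spin (e ω) * if y ω / B - thr K κ (X.lab ω).2 < 0 then -1 else 1 := by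
  unfold bit
  split_ifs
  · rw [spin_not]
    ring
  · ring

theorem meas_sb (h : Pr.Nice B) (hσ : Measurable σ) (r : Fin M) (T : Finset (Fin M × Fin N))
    (i : Fin k) (c : Fin M × Fin N) (κ : Fin K) : Measurable (sb X Pr B K σ r T i c κ) :=
  haveI := ker_prob X
  meas_bit (meas_eps hσ r i c) ((h.mu i).comp (X.meas_vec _)) κ

/-- as `rf_eq` -/
theorem ker_eq (h : Pr.Nice B) (σ : Ω → Bool) (r : Fin M) (T : Finset (Fin M × Fin N))
    (i : Fin k) : ker X Pr B K σ r T i =
      ∑ c ∈ Tᶜ, ∑ κ : Fin K, (B / K) • X.msg (Wc k c) (sb X Pr B K σ r T i c κ) := by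
  have e : ∀ c, (fun ω => Pr.u i (X.vec (KK X Pr B K σ r i (insert c T)) ω)) =
      fun ω => Pr.u i (X.vec (ker X Pr B K σ r (insert c T)) ω) := by
    intro c
    funext ω
    refine h.ad i _ _ fun j hj => ?_
    unfold Data.vec ker
    rw [ker_stab σ r _ j i hj, ker_stab σ r _ j k j.2]
  have e1 : ker X Pr B K σ r T i = KK X Pr B K σ r (i + 1) T i := ker_stab σ r T i k i.2
  rw [e1]
  simp only [KK, if_true, sb, e]

theorem ker_sup (hm : ClLaw m a b) (h : Pr.Nice B) (hσ : Measurable σ) (r : Fin M)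
    (T : Finset (Fin M × Fin N)) (i : Fin k) : ker X Pr B K σ r T i ∈ X.sup (Win k Tᶜ) := by
  haveI := hm.prob
  rw [ker_eq h]
  refine X.sup_sum _ fun c hc => X.sup_sum _ fun κ _ => X.sup_smul ?_ _
  exact X.sup_mono (ker_Wc_sub hc) (X.msg_sup (meas_Wc c) (meas_sb h hσ r T i c κ))

/-- No Onsager term on the skipped classes. For `g ∈ sup (Win k T)` use `eps_int` with
`Y = sign * S g`, then `int_mul` (or `orth`) with `V = sup (Win k Tᶜ)`, and `Sa_zero`. -/
theorem ons (hm : ClLaw m a b) (h : Pr.Nice B) (hσ : Ok X σ) (r : Fin M) {c : Fin M × Fin N}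
    (hc : c ∉ T) (i : Fin k) (κ : Fin K) : ∀ᵐ ω ∂P, X.lab ω ∈ Win k T →
      X.fld (Wc k c) (sb X Pr B K σ r T i c κ) ω =
        X.S (X.msg (Wc k c) (sb X Pr B K σ r T i c κ)) ω := by
  haveI := hm.prob
  obtain ⟨κ0, hκ⟩ := eps_int hm hσ r i c
  set y : Ω → ℝ := fun ω => Pr.u i (X.vec (ker X Pr B K σ r (insert c T)) ω) with hy
  set sg : Ω → ℝ := fun ω => if y ω / B - thr K κ (X.lab ω).2 < 0 then -1 else 1 with hsg
  have hsup : ∀ j, ker X Pr B K σ r (insert c T) j ∈ X.sup (Win k Tᶜ) := fun j =>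
    X.sup_mono (ker_Win_mono (Finset.compl_subset_compl.2 (Finset.subset_insert c T)))
      (ker_sup hm h hσ.meas r _ j)
  have hVV : X.sup (Win k Tᶜ) ⊆ X.sup (Win k univ) :=
    X.sup_mono (ker_Win_mono (Finset.subset_univ _))
  have hsm : Measurable[X.sig (X.sup (Win k Tᶜ))] sg :=
    Measurable.ite (ker_meas_sgn (X.sig_lab _) ((h.mu i).comp (X.sig_vec hsup)) B κ)
      measurable_const measurable_const
  have hz : ∀ g ∈ X.sup (Win k T),
      inner ℝ (X.msg (Wc k c) (sb X Pr B K σ r T i c κ)) (X.S g) = 0 := by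
    intro g hg
    have hg' : g ∈ X.sup (Win k univ) := X.sup_mono (ker_Win_mono (Finset.subset_univ _)) hg
    have hY : Measurable[X.sig (X.sup (Win k univ))] fun ω => sg ω * X.S g ω :=
      (hsm.mono (X.sig_mono hVV) le_rfl).mul (X.sig_S hg')
    have hI : Integrable (fun ω => sg ω * X.S g ω) P := by
      refine ((Lp.memLp (X.S g)).integrable (by norm_num)).norm.mono'
        (hY.mono (X.sig_le _) le_rfl).aestronglyMeasurable (ae_of_all _ fun ω => ?_)
      simp only [hsg, norm_mul]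
      split_ifs <;> simp
    have e1 : inner ℝ (X.msg (Wc k c) (sb X Pr B K σ r T i c κ)) (X.S g) =
        ∫ ω, (if X.lab ω ∈ Wc k c then spin (eps X σ r i c ω) * (sg ω * X.S g ω) else 0) ∂P := by
      rw [inner_L]
      refine integral_congr_ae ?_
      filter_upwards [X.msg_ae (meas_Wc c) (meas_sb (X := X) (K := K) h hσ.meas r T i c κ)]
        with ω hω
      rw [hω]
      split_ifs
      · unfold sb
        rw [spin_bit, mul_assoc]
      · simp
    have hY' : Measurable[X.sig (X.sup (Win k Tᶜ))]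
        fun ω => if X.lab ω ∈ Wc k c then sg ω else 0 :=
      Measurable.ite (X.sig_lab _ (meas_Wc c)) hsm measurable_const
    have e2 := X.int_mul (V := X.sup (Win k Tᶜ)) (w := g)
      (fun g' hg'' => X.sup_orth (ker_Win_disj T) hg'' hg) hY' measurable_id
    have e3 : ∫ ω, (if X.lab ω ∈ Wc k c then sg ω * X.S g ω else 0) ∂P = 0 := by
      simp only [id, integral_id_gaussianReal, mul_zero, ite_mul, zero_mul] at e2
      exact e2
    rw [e1, hκ _ hY hI, e3, mul_zero]
  filter_upwards [X.Sa_zero (meas_Win T) hz, X.fld_ae (Wc k c) (sb X Pr B K σ r T i c κ)]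
    with ω h1 h2 hω
  rw [h2, h1 hω, add_zero]

theorem ok_cfg (hm : ClLaw m a b) (h : Pr.Nice B) (n : ℕ) : Ok X (cfg X Pr B K n) := by
  haveI := hm.prob
  induction n with
  | zero => exact ⟨measurable_const, measurable_const, fun _ _ => rfl⟩
  | succ n ih =>
    unfold cfg
    split_ifs with hn
    · have hs : ∀ j, ker X Pr B K (cfg X Pr B K n) ⟨n, hn⟩ (Tr N ⟨n, hn⟩) j ∈
          X.sup (Win k univ) := fun j =>
        X.sup_mono (ker_Win_mono (Finset.subset_univ _)) (ker_sup hm h ih.meas _ _ j)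
      have h1 := meas_neg (X := X) h (ker X Pr B K (cfg X Pr B K n) ⟨n, hn⟩ (Tr N ⟨n, hn⟩))
      have h2 := sig_neg (X := X) h hs
      refine ⟨ker_meas_flp X.mlab (meas_Win _) h1 ih.meas,
        ker_meas_flp (X.sig_lab _) (meas_Win _) h2 ih.sg, fun ω hω => ?_⟩
      · unfold flp
        rw [if_neg fun h' => hω (ker_Win_mono (Finset.subset_univ _) h'.1)]
        exact ih.bus ω hω
    · exact ih

/-- the classes of the later stages still hold `true`, those of the earlier stages their output -/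
theorem cfg_eq (n : ℕ) {c : Fin M × Fin N} {ω : Ω} (hω : X.lab ω ∈ Wc k c) :
    cfg X Pr B K n ω = if (c.1 : ℕ) < n then
      !neg X Pr (ker X Pr B K (cfg X Pr B K c.1) c.1 (Tr N c.1)) ω else true := by
  induction n with
  | zero => rfl
  | succ n ih =>
    rw [cfg]
    by_cases hn : n < M
    · rw [dif_pos hn]
      unfold flp
      by_cases hc : (c.1 : ℕ) = n
      · have hc' : (⟨n, hn⟩ : Fin M) = c.1 := Fin.ext hc.symm
        have hW : X.lab ω ∈ Win k (Tr N c.1) := ⟨c, by simp [Tr], hω⟩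
        rw [ih, hc', if_neg (by omega : ¬ (c.1 : ℕ) < n), if_pos (by omega : (c.1 : ℕ) < n + 1),
          ← hc]
        simp [hW]
      · have hW : X.lab ω ∉ Win k (Tr N ⟨n, hn⟩) := by
          rintro ⟨c', hc', hl⟩
          have : Sum.inl c = (Sum.inl c' : Cl M N k) := hω.symm.trans hl
          cases this
          simp only [Tr, Finset.mem_filter, Finset.mem_univ, true_and] at hc'
          exact hc (congrArg Fin.val hc')
        rw [if_neg fun h' => hW h'.1, ih]
        have : (c.1 : ℕ) < n ↔ (c.1 : ℕ) < n + 1 := by omega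
        simp only [this]
    · rw [dif_neg hn, ih]
      have h1 := c.1.2
      rw [if_pos (by omega : (c.1 : ℕ) < n), if_pos (by omega : (c.1 : ℕ) < n + 1)]

end

end Vale.Agent.P367.G
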