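import Vale.Agent.P367G.Alg

/-! Operations of the game. -/

set_option linter.all false

namespace Vale.Agent.P367.G

open MeasureTheory ProbabilityTheory Filter Topology Finset Vale.Agent.P146 Matrix
open scoped Classical

noncomputable section

variable {Ω : Type} [MeasurableSpace Ω] {Λ : Type} [MeasurableSpace Λ] {ν : Measure Λ}
  [IsProbabilityMeasure ν] {P : Measure Ω} [IsProbabilityMeasure P] {X : Data ν P}
  {Reach : (Ω → M2) → Prop}

variable {D D' R C A : Set Λ} {σ σ' s : Ω → Bool} {W W' : Ω → M2} {y y' : Ω → ℝ}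

theorem opr_gate (h : Rules X Reach) {V : Λ → M2} (hV : GOK V) :
    Opr X Reach D σ fun ω => V (X.lab ω) := fun Q hQ hr _ => h.gate V Q hV hQ hr

theorem Opr.comp (hW : MU W) (h1 : Opr X Reach D σ W) (h2 : Opr X Reach D' σ' W')
    (H : ∀ ω, X.lab ω ∈ D' → X.lab ω ∈ D ∧ cj (W ω) (Qb (σ ω)) = Qb (σ' ω)) :
    Opr X Reach D σ fun ω => W' ω * W ω := by
  intro Q hQ hr hD
  have h3 := h2 _ (hQ.gcj hW) (h1 Q hQ hr hD) fun ω hω => by
    rw [hD ω (H ω hω).1, (H ω hω).2]
  simpa only [cj_mul] using h3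

theorem Opr.mono (h : Opr X Reach D' σ' W) (H : ∀ ω, X.lab ω ∈ D' → X.lab ω ∈ D ∧ σ ω = σ' ω) :
    Opr X Reach D σ W := fun Q hQ hr hD =>
  h Q hQ hr fun ω hω => by rw [hD ω (H ω hω).1, (H ω hω).2]

theorem Opr.congr (h : Opr X Reach D σ W) (H : ∀ ω A, cj (W ω) A = cj (W' ω) A) :
    Opr X Reach D σ W' := by
  intro Q hQ hr hD
  have h3 := h Q hQ hr hD
  simpa only [H] using h3

theorem ops_int {V V' : Ω → M2} (hV : MU V) (hV' : MU V') :
    Integrable (fun ω => fro (V ω - V' ω)) P := by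
  refine Integrable.of_bound (meas_fro (A := fun ω => V ω - V' ω)
    fun a b => (hV.1 a b).sub (hV'.1 a b)).aestronglyMeasurable 8 (ae_of_all _ fun ω => ?_)
  rw [Real.norm_eq_abs, abs_of_nonneg (fro_nonneg _)]
  exact fro_uni_sub (hV.2 ω) (hV'.2 ω)

/-- Hint: `Rules.lim`, `fro_cj_sub`; integrability from `fro_uni_sub`, `meas_fro`. -/
theorem opr_lim (h : Rules X Reach) (hW : MU W)
    (H : ∀ δ > 0, ∃ W', MU W' ∧ Opr X Reach D σ W' ∧ ∫ ω, fro (W ω - W' ω) ∂P ≤ δ) :
    Opr X Reach D σ W := by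
  intro Q hQ hr hD
  refine h.lim _ (hQ.gcj hW) fun δ hδ => ?_
  obtain ⟨V, hV, h1, h2⟩ := H (δ / 4) (by positivity)
  refine ⟨_, hQ.gcj hV, h1 Q hQ hr hD, ?_⟩
  have h3 : ∫ ω, fro (cj (W ω) (Q ω) - cj (V ω) (Q ω)) ∂P ≤ ∫ ω, 4 * fro (W ω - V ω) ∂P :=
    integral_mono_of_nonneg (ae_of_all _ fun ω => fro_nonneg _) ((ops_int hW hV).const_mul 4)
      (ae_of_all _ fun ω => fro_cj_sub (hW.2 ω) (hV.2 ω) (hQ.2 ω))
  rw [integral_const_mul] at h3
  linarith

theorem Opr.ae (h : Rules X Reach) (h1 : Opr X Reach D σ W) (hW : MU W) (hW' : MU W')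
    (H : W =ᵐ[P] W') : Opr X Reach D σ W' := by
  refine opr_lim h hW' fun δ hδ => ⟨W, hW, h1, ?_⟩
  have e : (fun ω => fro (W' ω - W ω)) =ᵐ[P] fun _ => 0 := by
    filter_upwards [H] with ω hω
    rw [hω, sub_self, fro_zero]
  rw [integral_congr_ae e, integral_zero]
  exact hδ.le

theorem meas_fld (X : Data ν P) (A : Set Λ) (σ : Ω → Bool) : Measurable (X.fld A σ) :=
  (Lp.stronglyMeasurable _).measurable

theorem snd_cpl (h : Rules X Reach) (hR : MeasurableSet R) (hA : MeasurableSet A)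
    (hd : Disjoint R A) (hAD : A ⊆ D) (hσ : Measurable σ) : Snd X Reach D σ R (X.fld A σ) := by
  intro γ Q hQ hr hD
  have h3 := h.cpl R A γ σ Q hR hA hd hσ hQ hr fun ω hω => hD ω (hAD hω)
  have e : (fun ω => cj (if X.lab ω ∈ R then RZ (γ * X.fld A σ ω) else 1) (Q ω)) =
      fun ω => if X.lab ω ∈ R then cj (RZ (γ * X.fld A σ ω)) (Q ω) else Q ω := by
    funext ω
    split_ifs
    · rfl
    · exact cj_one _
  rw [e]
  exact h3

theorem snd_lab (h : Rules X Reach) (hR : MeasurableSet R) {U : Λ → ℝ} (hU : Measurable U) :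
    Snd X Reach D σ R fun ω => U (X.lab ω) := fun γ =>
  opr_gate (V := fun l => if l ∈ R then RZ (γ * U l) else 1) h
    (MU.ite (mu_RZ (hU.const_mul γ)) (mu_const uni_one) hR)

theorem ops_mu (hR : MeasurableSet R) (hy : Measurable y) (γ : ℝ) :
    MU fun ω => if X.lab ω ∈ R then RZ (γ * y ω) else 1 :=
  MU.ite (mu_RZ (hy.const_mul γ)) (mu_const uni_one) (X.mlab hR)

theorem Snd.add (hR : MeasurableSet R) (hy : Measurable y) (h1 : Snd X Reach D σ R y)
    (h2 : Snd X Reach D σ R y') : Snd X Reach D σ R fun ω => y ω + y' ω := by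
  intro γ
  have h3 := Opr.comp (ops_mu hR hy γ) (h1 γ) (h2 γ) fun ω hω => ⟨hω, by
    split_ifs
    · exact cj_RZ_Qb _ _
    · exact cj_one _⟩
  refine h3.congr fun ω A => ?_
  congr 1
  split_ifs
  · rw [← RZ_add, mul_add, add_comm]
  · exact mul_one _

theorem Snd.smul (h1 : Snd X Reach D σ R y) (c : ℝ) : Snd X Reach D σ R fun ω => c * y ω := by
  intro γ
  have h3 := h1 (γ * c)
  simpa only [mul_assoc] using h3

theorem snd_sum (h : Rules X Reach) (hR : MeasurableSet R) {ι : Type} (t : Finset ι)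
    {z : ι → Ω → ℝ} (hz : ∀ i, Measurable (z i)) (H : ∀ i ∈ t, Snd X Reach D σ R (z i)) :
    Snd X Reach D σ R fun ω => ∑ i ∈ t, z i ω := by
  induction t using Finset.induction_on with
  | empty => exact snd_lab (U := fun _ => 0) h hR measurable_const
  | insert i t hi ih =>
    simp only [Finset.sum_insert hi]
    exact Snd.add hR (hz i) (H i (Finset.mem_insert_self _ _))
      (ih fun j hj => H j (Finset.mem_insert_of_mem hj))

theorem Snd.ae (h : Rules X Reach) (hR : MeasurableSet R) (h1 : Snd X Reach D σ R y)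
    (hy : Measurable y) (hy' : Measurable y') (H : ∀ᵐ ω ∂P, X.lab ω ∈ R → y ω = y' ω) :
    Snd X Reach D σ R y' := by
  intro γ
  refine Opr.ae h (h1 γ) (ops_mu hR hy γ) (ops_mu hR hy' γ) ?_
  filter_upwards [H] with ω hω
  split_ifs with h2
  · rw [hω h2]
  · rfl

theorem Snd.mono (h : Snd X Reach D' σ' R y) (H : ∀ ω, X.lab ω ∈ D' → X.lab ω ∈ D ∧ σ ω = σ' ω) :
    Snd X Reach D σ R y := fun γ => (h γ).mono H

theorem ops_set (hC : MeasurableSet C) (hs : Measurable s) :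
    MeasurableSet {ω | X.lab ω ∈ C ∧ s ω = true} :=
  (X.mlab hC).inter (hs (measurableSet_singleton true))

theorem mu_Flp (hC : MeasurableSet C) (hs : Measurable s) : MU (Flp X C s) := by
  have h := MU.ite (mu_const uni_PX) (mu_const uni_one) (ops_set (X := X) hC hs)
  refine cast (congrArg MU (funext fun ω => ?_)) h
  unfold Flp
  split_ifs <;> rfl

theorem meas_flp (hC : MeasurableSet C) (hs : Measurable s) (hσ : Measurable σ) :
    Measurable (flp X C s σ) :=
  Measurable.ite (ops_set hC hs) ((measurable_of_finite fun b : Bool => !b).comp hσ) hσ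

theorem cj_Flp (C : Set Λ) (s σ : Ω → Bool) (ω : Ω) :
    cj (Flp X C s ω) (Qb (σ ω)) = Qb (flp X C s σ ω) := by
  unfold Flp flp
  split_ifs
  · exact cj_PX_Qb _
  · exact cj_one _

/-- compute, send, uncompute: apply `Flp`, then the phase, then `Flp` again (`Opr.mono`: outside
`C` the bits did not change); on `C` the product is `PX * 1 * PX = 1`. -/
theorem Snd.conj (hR : MeasurableSet R) (hC : MeasurableSet C) (hs : Measurable s)
    (hy : Measurable y) (hd : Disjoint R D) (hCD : C ⊆ D)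
    (h1 : Opr X Reach (D \ C) σ (Flp X C s)) (h2 : Snd X Reach D (flp X C s σ) R y) :
    Snd X Reach D σ R y := by
  intro γ
  have hF : MU (Flp X C s) := mu_Flp hC hs
  have h3 : Opr X Reach D σ (Flp X C s) := h1.mono fun ω hω => ⟨hω.1, rfl⟩
  have h4 := Opr.comp hF h3 (h2 γ) fun ω hω => ⟨hω, cj_Flp C s σ ω⟩
  have h5 := Opr.comp ((ops_mu hR hy γ).mul hF) h4 h1 fun ω hω => ⟨hω.1, by
    have e1 : X.lab ω ∉ R := fun h => Set.disjoint_left.1 hd h hω.1
    have e2 : ¬(X.lab ω ∈ C ∧ s ω = true) := fun h => hω.2 h.1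
    simp only [Flp, if_neg e1, if_neg e2, mul_one, cj_one]⟩
  refine h5.congr fun ω A => ?_
  congr 1
  unfold Flp
  by_cases e2 : X.lab ω ∈ C ∧ s ω = true
  · have e1 : X.lab ω ∉ R := fun h => Set.disjoint_left.1 hd h (hCD e2.1)
    rw [if_pos e2, if_neg e1, one_mul, PX_mul_PX]
  · rw [if_neg e2, mul_one, one_mul]

end

end Vale.Agent.P367.G
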