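import Vale.Agent.P367G.Alg

/-! Approximation of controlled rotations. -/

set_option linter.all false

namespace Vale.Agent.P367.G

open MeasureTheory ProbabilityTheory Filter Topology Finset Vale.Agent.P146 Matrix
open scoped Classical

noncomputable section

/-- a tilted rotation -/
def qsp0N (c s u v : ℂ) : M2 :=
  Matrix.of fun a b => if a = b then c else if a then u * -(Complex.I * s) else v * -(Complex.I * s)

theorem qsp0_conj (α τ : ℝ) : RZ α * RX τ * RZ (-α) = qsp0N (Real.cos τ) (Real.sin τ)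
    (Complex.exp (-(2 * α * Complex.I))) (Complex.exp (2 * α * Complex.I)) := by
  ext a b
  rw [RZ, RZ, mul_diagonal, diagonal_mul, mul_right_comm, ← Complex.exp_add]
  cases a <;> cases b <;> simp only [RX, qsp0N, spin, of_apply] <;> simp <;> left <;> congr 1 <;>
    ring

theorem qsp0_sin {x : ℝ} (hx : |x| ≤ 1) : |Real.sin x - x| ≤ x ^ 2 := by
  have h := Real.sin_bound hx
  have h0 := abs_nonneg x
  have e : Real.sin x - x = Real.sin x - (x - x ^ 3 / 6) - x ^ 3 / 6 := by ring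
  have h1 := abs_sub (Real.sin x - (x - x ^ 3 / 6)) (x ^ 3 / 6)
  rw [← e, abs_div, abs_pow, abs_of_pos (by norm_num : (0 : ℝ) < 6)] at h1
  have h2 : |x| ^ 3 ≤ |x| ^ 2 := pow_le_pow_of_le_one h0 hx (by norm_num)
  have h3 : |x| ^ 4 ≤ |x| ^ 2 := pow_le_pow_of_le_one h0 hx (by norm_num)
  rw [← sq_abs]
  nlinarith [sq_nonneg |x|]

theorem qsp0_diag (τ y : ℝ) (hy : y ^ 2 ≤ 4 * τ ^ 2) {u : ℂ} (hu : ‖u‖ = 1) :
    ‖(Real.cos τ : ℂ) * Real.cos τ - (Real.sin τ : ℂ) ^ 2 * u ^ 2 - Real.cos y‖ ≤ 4 * τ ^ 2 := by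
  have e : (Real.cos τ : ℂ) * Real.cos τ - (Real.sin τ : ℂ) ^ 2 * u ^ 2 - Real.cos y =
      ((Real.cos τ * Real.cos τ - Real.cos y : ℝ) : ℂ) - (Real.sin τ : ℂ) ^ 2 * u ^ 2 := by
    rw [Complex.ofReal_sub, Complex.ofReal_mul]
    ring
  rw [e]
  refine (norm_sub_le _ _).trans ?_
  rw [norm_mul, norm_pow, norm_pow, hu, one_pow, mul_one, Complex.norm_real, Complex.norm_real,
    Real.norm_eq_abs, Real.norm_eq_abs, sq_abs]
  have h1 := Real.sin_sq_le_sq (x := τ)
  have h2 := Real.one_sub_sq_div_two_le_cos (x := y)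
  have h3 := Real.cos_le_one y
  have h4 := Real.sin_sq_add_cos_sq τ
  have h5 : |Real.cos τ * Real.cos τ - Real.cos y| ≤ 3 * τ ^ 2 := by
    rw [abs_le]
    constructor <;> nlinarith [sq_nonneg τ, sq_nonneg (Real.sin τ)]
  linarith

theorem qsp0_off {τ k : ℝ} (hτ : |τ| ≤ 1 / 2) (hk : |k| ≤ 1) :
    |Real.sin (2 * τ * k) - 2 * Real.sin τ * Real.cos τ * k| ≤ 8 * τ ^ 2 := by
  have h0 : |2 * τ| ≤ 1 := by
    rw [abs_mul, abs_two]
    linarith
  have h1 := qsp0_sin h0
  have h2 := qsp0_sin (x := 2 * τ * k) (by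
    rw [abs_mul]
    exact mul_le_one₀ h0 (abs_nonneg _) hk)
  have h3 : |(Real.sin (2 * τ) - 2 * τ) * k| ≤ (2 * τ) ^ 2 := by
    rw [abs_mul]
    exact (mul_le_of_le_one_right (abs_nonneg _) hk).trans h1
  have h4 : k ^ 2 ≤ 1 := (sq_le_one_iff_abs_le_one k).2 hk
  have e : Real.sin (2 * τ * k) - 2 * Real.sin τ * Real.cos τ * k =
      Real.sin (2 * τ * k) - 2 * τ * k - (Real.sin (2 * τ) - 2 * τ) * k := by
    rw [Real.sin_two_mul]
    ring
  rw [e]
  refine (abs_sub _ _).trans ?_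
  nlinarith [mul_le_mul_of_nonneg_left h4 (sq_nonneg τ)]

theorem qsp0_add (n : ℕ) (A B : M2) :
    n * fro (A + B) ≤ (n + 1) * fro A + n * (n + 1) * fro B := by
  simp only [fro, Finset.mul_sum, ← Finset.sum_add_distrib]
  refine Finset.sum_le_sum fun a _ => Finset.sum_le_sum fun b _ => ?_
  have h2 := pow_le_pow_left₀ (norm_nonneg _) (norm_add_le (A a b) (B a b)) 2
  have h3 := mul_le_mul_of_nonneg_left h2 (Nat.cast_nonneg (α := ℝ) n)
  rw [Matrix.add_apply]
  nlinarith [sq_nonneg (‖A a b‖ - n * ‖B a b‖)]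

/-- One Trotter step. With `c = cos τ`, `s = sin τ` and `n θ = RZ (θ / 2) * PX * RZ (-θ / 2)` the
product is `c ^ 2 - i c s (n θ + n (-θ)) - s ^ 2 n θ * n (-θ)`, and `n θ + n (-θ) = 2 cos θ PX`.
Compute the four entries; `|cos x - 1| ≤ x ^ 2 / 2`, `|sin x - x| ≤ |x| ^ 3 / 4` for `|x| ≤ 1`. -/
theorem trot_step : ∃ C, 0 ≤ C ∧ ∀ θ τ : ℝ, |τ| ≤ 1 / 2 →
    fro (RZ (θ / 2) * RX τ * RZ (-(θ / 2)) * (RZ (-(θ / 2)) * RX τ * RZ (θ / 2)) -
      RX (2 * τ * Real.cos θ)) ≤ C * τ ^ 4 := by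
  refine ⟨160, by norm_num, fun θ τ hτ => ?_⟩
  have e1 := qsp0_conj (θ / 2) τ
  have e2 := qsp0_conj (-(θ / 2)) τ
  have a1 : (2 * ((θ / 2 : ℝ) : ℂ) * Complex.I) = θ * Complex.I := by
    push_cast
    ring
  have a2 : (2 * ((-(θ / 2) : ℝ) : ℂ) * Complex.I) = -(θ * Complex.I) := by
    push_cast
    ring
  rw [a1] at e1
  rw [neg_neg, a2, neg_neg] at e2
  rw [e1, e2]
  have hv : ‖Complex.exp (θ * Complex.I)‖ = 1 := Complex.norm_exp_ofReal_mul_I θ
  have hu : ‖Complex.exp (-(θ * Complex.I))‖ = 1 := by rw [Complex.exp_neg, norm_inv, hv, inv_one]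
  have huv : Complex.exp (θ * Complex.I) + Complex.exp (-(θ * Complex.I)) = 2 * Real.cos θ := by
    rw [Complex.ofReal_cos, Complex.two_cos, neg_mul]
  generalize Complex.exp (θ * Complex.I) = v at hv huv
  generalize Complex.exp (-(θ * Complex.I)) = u at hu huv
  have hk := Real.abs_cos_le_one θ
  have hy : (2 * τ * Real.cos θ) ^ 2 ≤ 4 * τ ^ 2 := by
    nlinarith [mul_le_mul_of_nonneg_left (Real.cos_sq_le_one θ) (sq_nonneg τ)]
  have d1 := pow_le_pow_left₀ (norm_nonneg _) (qsp0_diag τ _ hy hu) 2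
  have d2 := pow_le_pow_left₀ (norm_nonneg _) (qsp0_diag τ _ hy hv) 2
  have d3 := pow_le_pow_left₀ (abs_nonneg _) (qsp0_off hτ hk) 2
  have hI := Complex.I_mul_I
  set c : ℂ := ((Real.cos τ : ℝ) : ℂ) with hc
  set s : ℂ := ((Real.sin τ : ℝ) : ℂ) with hs
  set D := qsp0N c s u v * qsp0N c s v u - RX (2 * τ * Real.cos θ) with hD
  have t1 : D true true = c * c - s ^ 2 * u ^ 2 - Real.cos (2 * τ * Real.cos θ) := by
    simp only [hD, Matrix.sub_apply, Matrix.mul_apply, Fintype.sum_bool, qsp0N, RX, of_apply]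
    simp only [if_true, Bool.true_eq_false, Bool.false_eq_true, if_false]
    linear_combination s ^ 2 * u ^ 2 * hI
  have t2 : D false false = c * c - s ^ 2 * v ^ 2 - Real.cos (2 * τ * Real.cos θ) := by
    simp only [hD, Matrix.sub_apply, Matrix.mul_apply, Fintype.sum_bool, qsp0N, RX, of_apply]
    simp only [if_true, Bool.true_eq_false, Bool.false_eq_true, if_false]
    linear_combination s ^ 2 * v ^ 2 * hI
  have t3 : ∀ a b, a ≠ b → D a b = Complex.I * ((Real.sin (2 * τ * Real.cos θ) -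
      2 * Real.sin τ * Real.cos τ * Real.cos θ : ℝ) : ℂ) := fun a b hab => by
    rw [Complex.ofReal_sub, Complex.ofReal_mul, Complex.ofReal_mul, Complex.ofReal_mul,
      Complex.ofReal_ofNat, ← hs, ← hc]
    cases a <;> cases b <;> first | exact absurd rfl hab | skip
    all_goals
      simp only [hD, Matrix.sub_apply, Matrix.mul_apply, Fintype.sum_bool, qsp0N, RX, of_apply]
      simp only [if_true, Bool.true_eq_false, Bool.false_eq_true, if_false]
      linear_combination -(Complex.I * s * c) * huv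
  simp only [fro, Fintype.sum_bool]
  rw [t1, t2, t3 true false (by simp), t3 false true (by simp), norm_mul, Complex.norm_I, one_mul,
    Complex.norm_real, Real.norm_eq_abs]
  linarith

/-- telescoping: `√fro` is a unitarily invariant norm (or use Cauchy-Schwarz on the sum) -/
theorem fro_pow_sub {V W : M2} (hV : Uni V) (hW : Uni W) (n : ℕ) :
    fro (V ^ n - W ^ n) ≤ n ^ 2 * fro (V - W) := by
  induction n with
  | zero => simp [fro_zero]
  | succ n ih =>
    rcases Nat.eq_zero_or_pos n with rfl | hn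
    · simp
    have e : V ^ (n + 1) - W ^ (n + 1) = V * (V ^ n - W ^ n) + (V - W) * W ^ n := by
      rw [pow_succ', pow_succ']
      noncomm_ring
    have h := qsp0_add n (V * (V ^ n - W ^ n)) ((V - W) * W ^ n)
    rw [← e, fro_uni_mul hV, fro_mul_uni (pow_mem hW n)] at h
    have hn' : (0 : ℝ) < n := by exact_mod_cast hn
    refine le_of_mul_le_mul_left (h.trans ?_) hn'
    push_cast
    nlinarith [mul_le_mul_of_nonneg_left ih (by positivity : (0 : ℝ) ≤ n + 1)]

end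

end Vale.Agent.P367.G
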