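import Vale.Agent.P367.Defs43

/-! Smooth approximation of messages and outputs. -/

set_option linter.all false

namespace Vale.Agent.P367.G

open MeasureTheory ProbabilityTheory Filter Topology Finset Vale.Agent.P146 Matrix
open scoped Classical

noncomputable section

variable {k : ℕ}

instance (k : ℕ) : IsProbabilityMeasure (gk k) := by unfold gk; infer_instance

/-- bounded Lipschitz functions of the coordinates below `l` -/
def BL (l : Fin k) (f : (Fin k → ℝ) → ℝ) : Prop :=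
  (∃ B, (∀ x, |f x| ≤ B) ∧ ∀ x y, |f x - f y| ≤ B * ∑ i, |x i - y i|) ∧
    ∀ x y, (∀ i, i < l → x i = y i) → f x = f y

theorem r1a_norm {ι : Type} [Fintype ι] (x y : ι → ℝ) : ‖x - y‖ ≤ ∑ i, |x i - y i| := by
  refine (pi_norm_le_iff_of_nonneg (Finset.sum_nonneg fun i _ => abs_nonneg _)).2 fun i => ?_
  rw [Pi.sub_apply, Real.norm_eq_abs]
  exact Finset.single_le_sum (f := fun i => |x i - y i|) (fun i _ => abs_nonneg _)
    (Finset.mem_univ i)

theorem r1a_lip {ι : Type} [Fintype ι] {g : (ι → ℝ) → ℝ} {B : ℝ} (hg : ContDiff ℝ 1 g)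
    (hB : ∀ x, ‖fderiv ℝ g x‖ ≤ B) (x y : ι → ℝ) : |g x - g y| ≤ B * ∑ i, |x i - y i| := by
  have h0 : 0 ≤ B := (norm_nonneg _).trans (hB 0)
  have h := (convex_univ (𝕜 := ℝ) (E := ι → ℝ)).norm_image_sub_le_of_norm_fderiv_le (𝕜 := ℝ)
    (fun z _ => hg.differentiable one_ne_zero z) (fun z _ => hB z) (Set.mem_univ y)
    (Set.mem_univ x)
  rw [Real.norm_eq_abs] at h
  exact h.trans (mul_le_mul_of_nonneg_left (r1a_norm x y) h0)

theorem r1a_int {α : Type} [MeasurableSpace α] {μ : Measure α} {h : α → ℝ} (hh : MemLp h 2 μ)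
    {δ : ℝ} (hδ : 0 < δ) (hb : eLpNorm h 2 μ ≤ ENNReal.ofReal √δ) : ∫ x, h x ^ 2 ∂μ ≤ δ := by
  rw [hh.eLpNorm_eq_integral_rpow_norm two_ne_zero ENNReal.ofNat_ne_top,
    ENNReal.ofReal_le_ofReal_iff (Real.sqrt_nonneg _)] at hb
  have e : ∀ a, ‖h a‖ ^ (2 : ENNReal).toReal = h a ^ 2 := fun a => by
    rw [ENNReal.toReal_ofNat, Real.rpow_two, Real.norm_eq_abs, sq_abs]
  simp only [e] at hb
  have h0 : 0 ≤ ∫ x, h x ^ 2 ∂μ := integral_nonneg fun x => sq_nonneg _
  have e2 : (∫ x, h x ^ 2 ∂μ) ^ (2 : ENNReal).toReal⁻¹ = √(∫ x, h x ^ 2 ∂μ) := by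
    rw [ENNReal.toReal_ofNat, Real.sqrt_eq_rpow, one_div]
  rw [e2] at hb
  exact (Real.sqrt_le_sqrt_iff hδ.le).1 hb

/-- smooth compactly supported functions are dense: `MemLp.exist_eLpNorm_sub_le`; a `C1` function
with compact support is bounded with bounded derivative, and `‖x - y‖ ≤ ∑ i, |x i - y i|` -/
theorem r1_dense {ι : Type} [Fintype ι] {f : (ι → ℝ) → ℝ}
    (hf : MemLp f 2 (Measure.pi fun _ : ι => gaussianReal 0 1)) {δ : ℝ} (hδ : 0 < δ) :
    ∃ (g : (ι → ℝ) → ℝ) (B : ℝ), ContDiff ℝ 1 g ∧ (∀ x, |g x| ≤ B) ∧ (∀ x, ‖fderiv ℝ g x‖ ≤ B) ∧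
      (∀ x y, |g x - g y| ≤ B * ∑ i, |x i - y i|) ∧
      ∫ x, (f x - g x) ^ 2 ∂(Measure.pi fun _ : ι => gaussianReal 0 1) ≤ δ := by
  obtain ⟨g, h1, h2, h3⟩ := hf.exist_eLpNorm_sub_le ENNReal.ofNat_ne_top one_le_two
    (Real.sqrt_pos.2 hδ)
  have hc : ContDiff ℝ 1 g := h2.of_le (by exact_mod_cast le_top)
  obtain ⟨B1, hB1⟩ := h1.exists_bound_of_continuous hc.continuous
  obtain ⟨B2, hB2⟩ := (h1.fderiv (𝕜 := ℝ)).exists_bound_of_continuous
    (hc.continuous_fderiv one_ne_zero)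
  have hB : ∀ x, ‖fderiv ℝ g x‖ ≤ max B1 B2 := fun x => (hB2 x).trans (le_max_right _ _)
  refine ⟨g, max B1 B2, hc, fun x => (hB1 x).trans (le_max_left _ _), hB, r1a_lip hc hB, ?_⟩
  exact r1a_int (hf.sub (hc.continuous.memLp_of_hasCompactSupport h1)) hδ h3

/-- Apply `r1_dense` on the subtype `{i // i < l}`: the restriction map is measure preserving
(`measurePreserving_piEquivPiSubtypeProd` and `measurePreserving_fst`) and `f` factors through it
(extend by zero). -/
theorem r1_msg {l : Fin k} {f : (Fin k → ℝ) → ℝ} (hm : Measurable f) (hf : MemLp f 2 (gk k))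
    (ha : ∀ x y, (∀ i, i < l → x i = y i) → f x = f y) {δ : ℝ} (hδ : 0 < δ) :
    ∃ g, BL l g ∧ ∫ x, (f x - g x) ^ 2 ∂gk k ≤ δ := by
  let res : (Fin k → ℝ) → ({i : Fin k // i < l} → ℝ) := fun x i => x i.1
  let ex : ({i : Fin k // i < l} → ℝ) → (Fin k → ℝ) := fun y i => if h : i < l then y ⟨i, h⟩ else 0
  have hex : Measurable ex := by
    refine measurable_pi_lambda _ fun i => ?_
    by_cases h : i < l
    · simp only [ex, h, dif_pos]
      exact measurable_pi_apply _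
    · simp only [ex, h, dif_neg, not_false_iff]
      exact measurable_const
  have hres : MeasurePreserving res (gk k)
      (Measure.pi fun _ : {i : Fin k // i < l} => gaussianReal 0 1) :=
    (measurePreserving_fst (μ := Measure.pi fun _ : {i : Fin k // i < l} => gaussianReal 0 1)
      (ν := Measure.pi fun _ : {i : Fin k // ¬ i < l} => gaussianReal 0 1)).comp
      (measurePreserving_piEquivPiSubtypeProd (fun _ : Fin k => gaussianReal 0 1) (fun i => i < l))
  have hfac : ∀ x, f (ex (res x)) = f x := fun x => ha _ _ fun i hi => by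
    simp only [ex, res, hi, dif_pos]
  have hm' : Measurable fun y => f (ex y) := hm.comp hex
  have hf' : MemLp (fun y => f (ex y)) 2
      (Measure.pi fun _ : {i : Fin k // i < l} => gaussianReal 0 1) := by
    rw [← hres.map_eq, memLp_map_measure_iff hm'.aestronglyMeasurable hres.aemeasurable]
    have : (fun y => f (ex y)) ∘ res = f := funext hfac
    rw [this]
    exact hf
  obtain ⟨g, B, h1, h2, h3, h4, h5⟩ := r1_dense hf' hδ
  have h0 : 0 ≤ B := (abs_nonneg _).trans (h2 0)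
  refine ⟨fun x => g (res x), ⟨⟨B, fun x => h2 _, fun x y => (h4 _ _).trans ?_⟩, fun x y hxy => ?_⟩,
    ?_⟩
  · refine mul_le_mul_of_nonneg_left ?_ h0
    rw [← Fintype.sum_subtype_add_sum_subtype (fun i : Fin k => i < l) (fun i => |x i - y i|)]
    exact le_add_of_nonneg_right (Finset.sum_nonneg fun i _ => abs_nonneg _)
  · have : res x = res y := funext fun i => hxy i.1 i.2
    simp only [this]
  · have hmm : Measurable fun y => (f (ex y) - g y) ^ 2 :=
      (hm'.sub h1.continuous.measurable).pow_const 2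
    rw [← hres.map_eq, integral_map hres.aemeasurable hmm.aestronglyMeasurable] at h5
    simpa only [hfac] using h5

/-- `μ = sin (arcsin μ)`; approximate `arcsin μ` by `g` and take `sin ∘ g` -/
theorem r1_out {f : (Fin k → ℝ) → ℝ} (hm : Measurable f) (hb : ∀ x, |f x| ≤ 1) {δ : ℝ}
    (hδ : 0 < δ) : ∃ (g : (Fin k → ℝ) → ℝ) (B : ℝ), ContDiff ℝ 1 g ∧ (∀ x, |g x| ≤ 1) ∧
      (∀ x, ‖fderiv ℝ g x‖ ≤ B) ∧ (∀ x y, |g x - g y| ≤ B * ∑ i, |x i - y i|) ∧
      ∫ x, (f x - g x) ^ 2 ∂gk k ≤ δ := by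
  have hm' : Measurable fun x => Real.arcsin (f x) := Real.continuous_arcsin.measurable.comp hm
  have hf' : MemLp (fun x => Real.arcsin (f x)) 2 (gk k) :=
    MemLp.of_bound hm'.aestronglyMeasurable (Real.pi / 2) (Eventually.of_forall fun x => by
      rw [Real.norm_eq_abs, abs_le]
      exact ⟨Real.neg_pi_div_two_le_arcsin _, Real.arcsin_le_pi_div_two _⟩)
  obtain ⟨g, B, h1, h2, h3, h4, h5⟩ := r1_dense (ι := Fin k) hf' hδ
  have hc : ContDiff ℝ 1 fun x => Real.sin (g x) := Real.contDiff_sin.comp h1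
  have hB : ∀ x, ‖fderiv ℝ (fun x => Real.sin (g x)) x‖ ≤ B := fun x => by
    rw [fderiv_sin (h1.differentiable one_ne_zero x), norm_smul]
    calc ‖Real.cos (g x)‖ * ‖fderiv ℝ g x‖ ≤ 1 * B :=
          mul_le_mul (Real.abs_cos_le_one _) (h3 x) (norm_nonneg _) zero_le_one
      _ = B := one_mul _
  refine ⟨fun x => Real.sin (g x), B, hc, fun x => Real.abs_sin_le_one _, hB, r1a_lip hc hB,
    le_trans ?_ h5⟩
  have hg : MemLp g 2 (gk k) :=
    MemLp.of_bound h1.continuous.aestronglyMeasurable B (Eventually.of_forall h2)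
  refine integral_mono_of_nonneg (Eventually.of_forall fun x => sq_nonneg _)
    (hf'.sub hg).integrable_sq (Eventually.of_forall fun x => ?_)
  have e : f x = Real.sin (Real.arcsin (f x)) :=
    (Real.sin_arcsin (abs_le.1 (hb x)).1 (abs_le.1 (hb x)).2).symm
  have h6 := Real.abs_sin_sub_sin_le (Real.arcsin (f x)) (g x)
  rw [← e] at h6
  exact sq_le_sq.2 h6

end

end Vale.Agent.P367.G
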