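import Vale.Agent.P367G.R1

/-! Part R. -/

set_option linter.all false

namespace Vale.Agent.P367.G

open MeasureTheory ProbabilityTheory Filter Topology Finset Vale.Agent.P146 Matrix
open scoped Classical

noncomputable section

theorem r2x_cont {E : Type} [NormedAddCommGroup E] [InnerProductSpace ℝ E] {k : ℕ} {e : Fin k → E}
    (he : Orthonormal ℝ e) (n : Fin k) :
    ContinuousAt (fun v : Fin k → E => InnerProductSpace.gramSchmidt ℝ v n) e := by
  have h0 : InnerProductSpace.gramSchmidt ℝ e = e :=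
    InnerProductSpace.gramSchmidt_of_orthogonal ℝ he.2
  induction n using WellFoundedLT.induction with
  | ind n ih =>
    have h1 : (fun v : Fin k → E => InnerProductSpace.gramSchmidt ℝ v n) = fun v => v n -
        ∑ i ∈ Finset.Iio n, (inner ℝ (InnerProductSpace.gramSchmidt ℝ v i) (v n) /
          ‖InnerProductSpace.gramSchmidt ℝ v i‖ ^ 2) • InnerProductSpace.gramSchmidt ℝ v i := by
      funext v
      have := InnerProductSpace.gramSchmidt_def'' ℝ v n
      exact eq_sub_of_add_eq this.symm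
    rw [h1]
    refine (continuous_apply n).continuousAt.sub ?_
    refine tendsto_finsetSum _ fun i hi => ?_
    have hi' := ih i (Finset.mem_Iio.1 hi)
    refine ContinuousAt.smul (ContinuousAt.div ?_ ?_ ?_) hi'
    · exact hi'.inner (𝕜 := ℝ) (continuous_apply n).continuousAt
    · exact hi'.norm.pow 2
    · simp only [h0, he.1 i]; norm_num

/-- Triangular orthonormalisation near an orthonormal family. Induction on `k` (last vector:
subtract the projection on the previous ones and normalise), or sequences and limits. -/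
theorem r2_gs {E : Type} [NormedAddCommGroup E] [InnerProductSpace ℝ E] {k : ℕ} {e : Fin k → E}
    (he : Orthonormal ℝ e) {δ : ℝ} (hδ : 0 < δ) : ∃ η > 0, ∀ v : Fin k → E,
      (∀ i, ‖v i - e i‖ ≤ η) → ∃ c : Fin k → Fin k → ℝ, (∀ i j, i < j → c i j = 0) ∧
        Orthonormal ℝ (fun i => ∑ j, c i j • v j) ∧ ∀ i, ‖(∑ j, c i j • v j) - e i‖ ≤ δ := by
  have h0 : InnerProductSpace.gramSchmidt ℝ e = e :=
    InnerProductSpace.gramSchmidt_of_orthogonal ℝ he.2
  have hc : ∀ n, ContinuousAt (fun v : Fin k → E => (‖InnerProductSpace.gramSchmidt ℝ v n‖)⁻¹ •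
      InnerProductSpace.gramSchmidt ℝ v n) e := by
    intro n
    refine ContinuousAt.smul (ContinuousAt.inv₀ (r2x_cont he n).norm ?_) (r2x_cont he n)
    simp only [h0, he.1 n]; norm_num
  have hev : ∀ᶠ v in 𝓝 e, ∀ n, InnerProductSpace.gramSchmidt ℝ v n ≠ 0 ∧
      ‖(‖InnerProductSpace.gramSchmidt ℝ v n‖)⁻¹ • InnerProductSpace.gramSchmidt ℝ v n - e n‖ ≤ δ := by
    refine Filter.eventually_all.2 fun n => Filter.Eventually.and ?_ ?_
    · refine (r2x_cont he n).eventually_ne ?_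
      simp only [h0]
      exact he.ne_zero n
    · have h1 := Metric.continuousAt_iff'.1 (hc n) δ hδ
      filter_upwards [h1] with v hv
      simp only [h0, he.1 n, inv_one, one_smul, dist_eq_norm] at hv
      exact hv.le
  obtain ⟨η, hη, hb⟩ := Metric.eventually_nhds_iff.1 hev
  refine ⟨η / 2, by positivity, fun v hv => ?_⟩
  have hd : dist v e < η := by
    have : dist v e ≤ η / 2 := (dist_pi_le_iff (by positivity)).2 fun i => by
      rw [dist_eq_norm]; exact hv i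
    linarith
  have hv' := hb hd
  have hm : ∀ n, ∃ c : Fin k → ℝ, ∑ j ∈ Finset.Iic n, c j • v j =
      InnerProductSpace.gramSchmidt ℝ v n := by
    intro n
    have h1 := InnerProductSpace.gramSchmidt_mem_span ℝ v (le_refl n)
    rw [← Finset.coe_Iic] at h1
    exact (Submodule.mem_span_image_finset_iff_exists_fun' ℝ).1 h1
  choose c hcc using hm
  have hs : ∀ i, ∑ j, (if j ≤ i then ‖InnerProductSpace.gramSchmidt ℝ v i‖⁻¹ * c i j else 0) • v j =
      (‖InnerProductSpace.gramSchmidt ℝ v i‖)⁻¹ • InnerProductSpace.gramSchmidt ℝ v i := by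
    intro i
    obtain ⟨a, ha⟩ : ∃ a, a = ‖InnerProductSpace.gramSchmidt ℝ v i‖⁻¹ := ⟨_, rfl⟩
    rw [← ha, ← hcc i, Finset.smul_sum]
    simp only [ite_smul, zero_smul, mul_smul]
    rw [← Finset.sum_filter]
    refine Finset.sum_congr ?_ fun _ _ => rfl
    ext j; simp
  refine ⟨fun i j => if j ≤ i then ‖InnerProductSpace.gramSchmidt ℝ v i‖⁻¹ * c i j else 0,
    fun i j hij => if_neg (not_le.2 hij), ?_, fun i => ?_⟩
  · simp only [hs]
    refine ⟨fun i => ?_, fun i j hij => ?_⟩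
    · exact norm_smul_inv_norm (𝕜 := ℝ) (hv' i).1
    · simp only [inner_smul_left, inner_smul_right,
        InnerProductSpace.gramSchmidt_orthogonal ℝ v hij, mul_zero]
  · simp only [hs]
    exact (hv' i).2

variable {k : ℕ}

theorem r2x_inner {f g : (Fin k → ℝ) → ℝ} (hf : MemLp f 2 (gk k)) (hg : MemLp g 2 (gk k)) :
    inner ℝ (hf.toLp f) (hg.toLp g) = ∫ x, f x * g x ∂gk k := by
  rw [L2.inner_def]
  refine integral_congr_ae ?_
  filter_upwards [hf.coeFn_toLp, hg.coeFn_toLp] with x h1 h2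
  rw [h1, h2]
  simp [mul_comm]

theorem r2x_norm {f g : (Fin k → ℝ) → ℝ} (hf : MemLp f 2 (gk k)) (hg : MemLp g 2 (gk k)) :
    ‖hf.toLp f - hg.toLp g‖ ^ 2 = ∫ x, (f x - g x) ^ 2 ∂gk k := by
  rw [← MemLp.toLp_sub, ← real_inner_self_eq_norm_sq, r2x_inner]
  simp only [Pi.sub_apply, sq]

theorem r2x_lip_cont {g : (Fin k → ℝ) → ℝ} {B : ℝ}
    (h : ∀ x y, |g x - g y| ≤ B * ∑ i, |x i - y i|) : Continuous g := by
  refine continuous_iff_continuousAt.2 fun y => ?_
  have h1 : Tendsto (fun x : Fin k → ℝ => B * ∑ i, |x i - y i|) (𝓝 y) (𝓝 0) := by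
    have h2 : Continuous fun x : Fin k → ℝ => B * ∑ i, |x i - y i| := by fun_prop
    have h3 := h2.tendsto y
    simpa using h3
  refine tendsto_iff_norm_sub_tendsto_zero.2 ?_
  exact squeeze_zero (fun x => norm_nonneg _) (fun x => h x y) h1

theorem r2x_bl_cont {l : Fin k} {g : (Fin k → ℝ) → ℝ} (h : BL l g) : Continuous g := by
  obtain ⟨⟨B, -, h2⟩, -⟩ := h
  exact r2x_lip_cont h2

theorem r2x_bl_l2 {l : Fin k} {g : (Fin k → ℝ) → ℝ} (h : BL l g) : MemLp g 2 (gk k) := by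
  have hc := r2x_bl_cont h
  obtain ⟨⟨B, h1, -⟩, -⟩ := h
  exact MemLp.of_bound hc.aestronglyMeasurable B (Filter.Eventually.of_forall h1)

theorem r2x_bl_comb {g : Fin k → (Fin k → ℝ) → ℝ} (hg : ∀ j, BL j (g j)) (i : Fin k)
    {c : Fin k → ℝ} (hc : ∀ j, i < j → c j = 0) : BL i fun x => ∑ j, c j * g j x := by
  choose B hB1 hB2 using fun j => (hg j).1
  refine ⟨⟨∑ j, |c j| * B j, fun x => ?_, fun x y => ?_⟩, fun x y hxy => ?_⟩
  · refine (Finset.abs_sum_le_sum_abs _ _).trans (Finset.sum_le_sum fun j _ => ?_)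
    rw [abs_mul]
    exact mul_le_mul_of_nonneg_left (hB1 j x) (abs_nonneg _)
  · rw [← Finset.sum_sub_distrib, Finset.sum_mul]
    refine (Finset.abs_sum_le_sum_abs _ _).trans (Finset.sum_le_sum fun j _ => ?_)
    rw [← mul_sub, abs_mul, mul_assoc]
    exact mul_le_mul_of_nonneg_left (hB2 j x y) (abs_nonneg _)
  · refine Finset.sum_congr rfl fun j _ => ?_
    rcases lt_or_ge i j with hj | hj
    · simp only [hc j hj, zero_mul]
    · rw [(hg j).2 x y fun a ha => hxy a (ha.trans_le hj)]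

theorem r2x_toLp_comb {g : Fin k → (Fin k → ℝ) → ℝ} (hg : ∀ j, MemLp (g j) 2 (gk k))
    (c : Fin k → ℝ) (hs : MemLp (fun x => ∑ j, c j * g j x) 2 (gk k)) :
    ∑ j, c j • (hg j).toLp (g j) = hs.toLp _ := by
  refine Lp.ext ?_
  have h1 : ∀ᵐ x ∂gk k, ∀ j, (c j • (hg j).toLp (g j)) x = c j * g j x := by
    refine ae_all_iff.2 fun j => ?_
    filter_upwards [Lp.coeFn_smul (c j) ((hg j).toLp (g j)), (hg j).coeFn_toLp] with x h2 h3
    rw [h2, Pi.smul_apply, h3, smul_eq_mul]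
  filter_upwards [Lp.coeFn_fun_finsetSum Finset.univ fun j => c j • (hg j).toLp (g j), h1,
    hs.coeFn_toLp] with x h2 h3 h4
  rw [h2, h4]
  exact Finset.sum_congr rfl fun j _ => h3 j

/-- work in `Lp ℝ 2 (gk k)`: `r1_msg`, `r2_gs`; combinations of `BL j` functions, `j ≤ l`, are
`BL l` -/
theorem r2_msg {P : Prog k} (h : P.Meas) {δ : ℝ} (hδ : 0 < δ) :
    ∃ u : Fin k → (Fin k → ℝ) → ℝ, (∀ l, BL l (u l)) ∧
      (∀ l l', ∫ x, u l x * u l' x ∂gk k = if l = l' then 1 else 0) ∧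
      ∀ l, ∫ x, (P.u l x - u l x) ^ 2 ∂gk k ≤ δ := by
  have he : Orthonormal ℝ fun l => (h.l2 l).toLp (P.u l) := by
    rw [orthonormal_iff_ite]
    intro l l'
    rw [r2x_inner, h.on]
  obtain ⟨η, hη, hgs⟩ := r2_gs he (Real.sqrt_pos.2 hδ)
  choose g hg1 hg2 using fun l => r1_msg (h.mu l) (h.l2 l) (h.ad l) (pow_pos hη 2)
  obtain ⟨c, hc0, hc1, hc2⟩ := hgs (fun l => (r2x_bl_l2 (hg1 l)).toLp (g l)) fun l => by
    rw [norm_sub_rev]
    refine le_of_sq_le_sq ?_ hη.le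
    rw [r2x_norm]
    exact hg2 l
  have hb : ∀ i, BL i fun x => ∑ j, c i j * g j x := fun i => r2x_bl_comb hg1 i (hc0 i)
  have hs : ∀ i, ∑ j, c i j • (r2x_bl_l2 (hg1 j)).toLp (g j) = (r2x_bl_l2 (hb i)).toLp _ :=
    fun i => r2x_toLp_comb _ _ _
  simp only [hs] at hc1 hc2
  refine ⟨fun i x => ∑ j, c i j * g j x, hb, fun l l' => ?_, fun l => ?_⟩
  · rw [← r2x_inner (r2x_bl_l2 (hb l)) (r2x_bl_l2 (hb l'))]
    exact orthonormal_iff_ite.1 hc1 l l'
  · rw [← r2x_norm (h.l2 l) (r2x_bl_l2 (hb l)), norm_sub_rev, ← Real.sq_sqrt hδ.le]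
    exact pow_le_pow_left₀ (norm_nonneg _) (hc2 l) 2

theorem r2x_coord (l : Fin k) : MemLp (fun x : Fin k → ℝ => x l) 2 (gk k) ∧
    ∫ x, x l * x l ∂gk k = 1 := by
  have hp : MeasurePreserving (fun x : Fin k → ℝ => x l) (gk k) (gaussianReal 0 1) :=
    measurePreserving_eval (fun _ : Fin k => gaussianReal 0 1) l
  refine ⟨(memLp_id_gaussianReal' 2 (by simp)).comp_measurePreserving hp, ?_⟩
  have h1 : ∫ x, x l * x l ∂gk k = ∫ y, y * y ∂gaussianReal 0 1 := by
    rw [← hp.map_eq, integral_map hp.measurable.aemeasurable (by fun_prop)]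
  have h2 := variance_fun_id_gaussianReal (μ := 0) (v := 1)
  rw [variance_eq_integral measurable_id'.aemeasurable] at h2
  simp only [integral_id_gaussianReal, sub_zero, NNReal.coe_one, sq] at h2
  rw [h1, h2]

theorem r2x_mu {P : Prog k} (h : P.Meas) : MemLp P.μ 2 (gk k) ∧ ∫ x, P.μ x * P.μ x ∂gk k ≤ 1 := by
  refine ⟨MemLp.of_bound h.mm.aestronglyMeasurable 1 (Filter.Eventually.of_forall h.bd), ?_⟩
  have h1 : ∀ x, ‖P.μ x * P.μ x‖ ≤ 1 := fun x => by
    rw [Real.norm_eq_abs, abs_mul]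
    exact mul_le_one₀ (h.bd x) (abs_nonneg _) (h.bd x)
  have h2 := norm_integral_le_of_norm_le_const (μ := gk k) (Filter.Eventually.of_forall h1)
  simp only [probReal_univ, mul_one] at h2
  exact (le_abs_self _).trans h2

theorem r2x_one {f : (Fin k → ℝ) → ℝ} (hf : MemLp f 2 (gk k)) (h : ∫ x, f x * f x ∂gk k ≤ 1) :
    ‖hf.toLp f‖ ≤ 1 := by
  refine le_of_sq_le_sq ?_ zero_le_one
  rw [← real_inner_self_eq_norm_sq, r2x_inner, one_pow]
  exact h

theorem r2x_abs {E : Type} [NormedAddCommGroup E] [InnerProductSpace ℝ E] {x u u' m m' : E}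
    {s : ℝ} (hx : ‖x‖ ≤ 1) (hu : ‖u‖ ≤ 1) (hm : ‖m‖ ≤ 1) (hm' : ‖m'‖ ≤ 1)
    (h1 : ‖u - u'‖ ≤ s) (h2 : ‖m - m'‖ ≤ s) :
    |inner ℝ x m * inner ℝ u m - inner ℝ x m' * inner ℝ u' m'| ≤ 3 * s := by
  have hs : 0 ≤ s := (norm_nonneg _).trans h1
  have key : ∀ {a b : E} {p q : ℝ}, ‖a‖ ≤ p → ‖b‖ ≤ q → |inner ℝ a b| ≤ p * q := fun ha hb =>
    (abs_real_inner_le_norm _ _).trans
      (mul_le_mul ha hb (norm_nonneg _) ((norm_nonneg _).trans ha))
  have e : inner ℝ x m * inner ℝ u m - inner ℝ x m' * inner ℝ u' m' =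
      inner ℝ x (m - m') * inner ℝ u m + inner ℝ x m' * inner ℝ u (m - m') +
        inner ℝ x m' * inner ℝ (u - u') m' := by
    simp only [inner_sub_left, inner_sub_right]; ring
  have a1 := key hx h2
  have a2 := key hu hm
  have a3 := key hx hm'
  have a4 := key hu h2
  have a5 := key h1 hm'
  simp only [one_mul, mul_one] at a1 a2 a3 a4 a5
  have b1 : |inner ℝ x (m - m') * inner ℝ u m| ≤ s := by
    rw [abs_mul]
    simpa using mul_le_mul a1 a2 (abs_nonneg _) hs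
  have b2 : |inner ℝ x m' * inner ℝ u (m - m')| ≤ s := by
    rw [abs_mul]
    simpa using mul_le_mul a3 a4 (abs_nonneg _) zero_le_one
  have b3 : |inner ℝ x m' * inner ℝ (u - u') m'| ≤ s := by
    rw [abs_mul]
    simpa using mul_le_mul a3 a5 (abs_nonneg _) zero_le_one
  rw [e]
  refine (abs_add_three _ _ _).trans ?_
  linarith

/-- Cauchy-Schwarz: every factor of `Prog.val` is at most one in absolute value and moves by at
most `√δ` or `2 √δ` -/
theorem r2_val {P P' : Prog k} (h : P.Meas) (h' : P'.Meas) {δ : ℝ} (hδ : 0 ≤ δ)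
    (hu : ∀ l, ∫ x, (P.u l x - P'.u l x) ^ 2 ∂gk k ≤ δ)
    (hμ : ∫ x, (P.μ x - P'.μ x) ^ 2 ∂gk k ≤ δ) : |P.val - P'.val| ≤ 3 * k * √δ := by
  unfold Prog.val
  rw [← Finset.sum_sub_distrib]
  refine (Finset.abs_sum_le_sum_abs _ _).trans ?_
  have hb : ∀ l, |(∫ x, x l * P.μ x ∂gk k) * (∫ x, P.u l x * P.μ x ∂gk k) -
      (∫ x, x l * P'.μ x ∂gk k) * ∫ x, P'.u l x * P'.μ x ∂gk k| ≤ 3 * √δ := by
    intro l
    rw [← r2x_inner (r2x_coord l).1 (r2x_mu h).1, ← r2x_inner (r2x_coord l).1 (r2x_mu h').1,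
      ← r2x_inner (h.l2 l) (r2x_mu h).1, ← r2x_inner (h'.l2 l) (r2x_mu h').1]
    refine r2x_abs (r2x_one _ (r2x_coord l).2.le) (r2x_one _ ?_) (r2x_one _ (r2x_mu h).2)
      (r2x_one _ (r2x_mu h').2) (Real.le_sqrt_of_sq_le ?_) (Real.le_sqrt_of_sq_le ?_)
    · rw [h.on]; simp
    · rw [r2x_norm]; exact hu l
    · rw [r2x_norm]; exact hμ
  refine (Finset.sum_le_sum fun l _ => hb l).trans (le_of_eq ?_)
  simp only [Finset.sum_const, Finset.card_univ, Fintype.card_fin, nsmul_eq_mul]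
  ring

theorem partR : PartR := by
  intro k P h ε hε
  obtain ⟨s, hs⟩ : ∃ s : ℝ, s = ε / (3 * (k + 1)) := ⟨_, rfl⟩
  have hs0 : 0 < s := by rw [hs]; positivity
  have hs1 : 3 * k * s ≤ ε := by
    have h1 : 3 * (k + 1) * s = ε := by rw [hs]; field_simp
    nlinarith
  obtain ⟨u, hu1, hu2, hu3⟩ := r2_msg h (pow_pos hs0 2)
  obtain ⟨g, B, hg1, hg2, hg3, hg4, hg5⟩ := r1_out h.mm h.bd (pow_pos hs0 2)
  choose C hC1 hC2 using fun l => (hu1 l).1
  have hC0 : ∀ l, 0 ≤ C l := fun l => (abs_nonneg _).trans (hC1 l 0)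
  have hB0 : 0 ≤ B := (norm_nonneg _).trans (hg3 0)
  have hS : 0 ≤ ∑ l, C l := Finset.sum_nonneg fun l _ => hC0 l
  have hCl : ∀ l, C l ≤ 1 + B + ∑ l, C l := fun l => by
    have := Finset.single_le_sum (f := C) (fun l _ => hC0 l) (Finset.mem_univ l)
    linarith
  have hB1 : B ≤ 1 + B + ∑ l, C l := by linarith
  have hn : ∀ x y : Fin k → ℝ, 0 ≤ ∑ i, |x i - y i| := fun x y =>
    Finset.sum_nonneg fun i _ => abs_nonneg _
  have hM : Prog.Meas ⟨u, g⟩ :=
    ⟨fun l => (r2x_bl_cont (hu1 l)).measurable, fun l => r2x_bl_l2 (hu1 l), fun l => (hu1 l).2,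
      hu2, hg1.continuous.measurable, hg2⟩
  refine ⟨⟨u, g⟩, 1 + B + ∑ l, C l, ⟨hM, by linarith, fun l x => (hC1 l x).trans (hCl l),
    fun l x y => (hC2 l x y).trans (mul_le_mul_of_nonneg_right (hCl l) (hn x y)),
    fun x y => (hg4 x y).trans (mul_le_mul_of_nonneg_right hB1 (hn x y)), hg1,
    fun x => (hg3 x).trans hB1⟩, ?_⟩
  have hv := r2_val h hM (sq_nonneg s) hu3 hg5
  rw [Real.sqrt_sq hs0.le] at hv
  have := (abs_le.1 hv).2
  linarith

end

end Vale.Agent.P367.G
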