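import Vale.Agent.P367G.Gau2
import Vale.Agent.P367G.Thr

/-! The reference fields. -/

set_option linter.all false

namespace Vale.Agent.P367.G

open MeasureTheory ProbabilityTheory Filter Topology Finset Vale.Agent.P146 Matrix
open scoped Classical

noncomputable section

variable {Ω : Type} [MeasurableSpace Ω] {Λ : Type} [MeasurableSpace Λ] {ν : Measure Λ}
  [IsProbabilityMeasure ν] {P : Measure Ω} [IsProbabilityMeasure P]

variable (X : Data ν P) {k : ℕ} {Pr : Prog k} {B : ℝ}

theorem ref_RR (Pr : Prog k) (i : Fin k) : ∀ l : ℕ, (i : ℕ) < l → X.RR Pr l i = X.RR Pr (i + 1) i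
  | 0, h => absurd h (Nat.not_lt_zero _)
  | l + 1, h => by
    by_cases e : (i : ℕ) = l
    · rw [← e]
    · have h1 : X.RR Pr (l + 1) i = X.RR Pr l i := if_neg e
      rw [h1]
      exact ref_RR Pr i l (by omega)

theorem ref_res {l : ℕ} (hl : l ≤ k) :
    (gk k).map (fun (x : Fin k → ℝ) (i : Fin l) => x (Fin.castLE hl i)) = gk l := by
  have h1 : iIndepFun (fun (i : Fin k) (x : Fin k → ℝ) => x i) (gk k) :=
    iIndepFun_pi (X := fun _ x => x) fun _ => aemeasurable_id
  have h2 := (h1.precomp (Fin.castLE_injective hl)).map_fun_eq_pi_map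
    fun i => (measurable_pi_apply _).aemeasurable
  rw [h2]
  unfold gk
  congr 1
  funext i
  exact (measurePreserving_eval (fun _ : Fin k => gaussianReal 0 1) (Fin.castLE hl i)).map_eq

theorem ref_int {l : ℕ} (hl : l ≤ k) {f : Fin k → Lp ℝ 2 P}
    (hf : Orthonormal ℝ fun i : Fin l => f (Fin.castLE hl i)) {G : (Fin k → ℝ) → ℝ}
    (hG : Measurable G) (ha : ∀ x y : Fin k → ℝ, (∀ i : Fin k, (i : ℕ) < l → x i = y i) → G x = G y) :
    ∫ ω, G (X.vec f ω) ∂P = ∫ x, G x ∂gk k := by
  let e : (Fin l → ℝ) → Fin k → ℝ := fun y i => if h : (i : ℕ) < l then y ⟨i, h⟩ else 0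
  have he : Measurable e := by
    refine measurable_pi_lambda _ fun i => ?_
    by_cases h : (i : ℕ) < l
    · simp only [e, dif_pos h]
      exact measurable_pi_apply _
    · simp only [e, dif_neg h]
      exact measurable_const
  have hr : Measurable fun (x : Fin k → ℝ) (i : Fin l) => x (Fin.castLE hl i) :=
    measurable_pi_lambda _ fun i => measurable_pi_apply _
  have h1 : ∀ x : Fin k → ℝ, G x = G (e fun i => x (Fin.castLE hl i)) := fun x =>
    ha _ _ fun i hi => by
      simp only [e, dif_pos hi]
      rfl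
  have hm : Measurable fun y => G (e y) := hG.comp he
  calc ∫ ω, G (X.vec f ω) ∂P
      = ∫ ω, G (e (X.vec (fun i : Fin l => f (Fin.castLE hl i)) ω)) ∂P :=
        integral_congr_ae (Eventually.of_forall fun ω => h1 _)
    _ = ∫ y, G (e y) ∂gk l := by
        rw [← X.law_gk hf, integral_map (X.meas_vec _).aemeasurable hm.aestronglyMeasurable]
    _ = ∫ x, G (e fun i => x (Fin.castLE hl i)) ∂gk k := by
        rw [← ref_res hl, integral_map hr.aemeasurable hm.aestronglyMeasurable]
    _ = ∫ x, G x ∂gk k := integral_congr_ae (Eventually.of_forall fun x => (h1 x).symm)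

/-- `RR l i = RR (i + 1) i` for `l > i`, and adaptedness -/
theorem _root_.Vale.Agent.P367.Data.rf_eq (h : Pr.Nice B) (i : Fin k) :
    X.rf Pr i = toL P fun ω => Pr.u i (X.vec (X.rf Pr) ω) := by
  have h1 : X.rf Pr i = toL P fun ω => Pr.u i (X.vec (X.RR Pr i) ω) :=
    (ref_RR X Pr i k i.2).trans (if_pos rfl)
  rw [h1]
  congr 1
  funext ω
  refine h.ad i _ _ fun j hj => ?_
  unfold Data.vec Data.rf
  rw [ref_RR X Pr j i hj, ref_RR X Pr j k j.2]

theorem ref_ae (h : Pr.Nice B) (i : Fin k) :
    X.rf Pr i =ᵐ[P] fun ω => Pr.u i (X.vec (X.rf Pr) ω) := by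
  have h1 := toL_ae (P := P) (memLp_bd ((h.mu i).comp (X.meas_vec (X.rf Pr))) fun ω => h.ub i _)
  rw [X.rf_eq h i]
  exact h1

/-- Induction on `l`: the kernels of index below `l` are orthonormal. Step: the vector of these
fields has the law `gk l` (`law_gk` for the family on `Fin l`), and a function on `Fin k → ℝ` which
depends only on the coordinates below `l` has the same integral against `gk k` as its restriction
(extension by zero) against `gk l`. Alternatively prove the law statement for the subtype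
`{i // i < l}` directly from `Data.chr`. -/
theorem _root_.Vale.Agent.P367.Data.rf_on (h : Pr.Nice B) : Orthonormal ℝ (X.rf Pr) := by
  have key : ∀ l, l ≤ k → ∀ i j : Fin k, (i : ℕ) < l → (j : ℕ) < l →
      inner ℝ (X.rf Pr i) (X.rf Pr j) = if i = j then (1 : ℝ) else 0 := by
    intro l
    induction l with
    | zero => intro _ i j hi; exact absurd hi (Nat.not_lt_zero _)
    | succ l ih =>
      intro hl i j hi hj
      have hl' : l ≤ k := by omega
      have hf : Orthonormal ℝ fun i : Fin l => X.rf Pr (Fin.castLE hl' i) := by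
        rw [orthonormal_iff_ite]
        intro a b
        rw [ih hl' _ _ a.2 b.2]
        simp only [(Fin.castLE_injective hl').eq_iff]
      rw [inner_L, ← h.on i j, ← ref_int X hl' hf (G := fun x => Pr.u i x * Pr.u j x)
        ((h.mu i).mul (h.mu j)) fun x y hxy => by
        rw [h.ad i x y fun a ha => hxy a (by have : (a : ℕ) < i := ha; omega),
          h.ad j x y fun a ha => hxy a (by have : (a : ℕ) < j := ha; omega)]]
      refine integral_congr_ae ?_
      filter_upwards [ref_ae X h i, ref_ae X h j] with ω h1 h2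
      rw [h1, h2]
  rw [orthonormal_iff_ite]
  intro i j
  rw [key k le_rfl i j i.2 j.2]

theorem _root_.Vale.Agent.P367.Data.rf_ae (h : Pr.Nice B) (i : Fin k) :
    X.rf Pr i =ᵐ[P] fun ω => Pr.u i (X.vec (X.rf Pr) ω) := ref_ae X h i

end

end Vale.Agent.P367.G
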