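import Vale.Agent.P367G.Defs2

/-! Thresholds and classes. -/

set_option linter.all false

namespace Vale.Agent.P367.G

open MeasureTheory ProbabilityTheory Filter Topology Finset Vale.Agent.P146 Matrix
open scoped Classical

noncomputable section

theorem thr0_apply {s : Set ℝ} (hs : MeasurableSet s) :
    un s = 2⁻¹ * volume (s ∩ Set.Icc (-1 : ℝ) 1) := by
  rw [un, Measure.smul_apply, Measure.restrict_apply hs, smul_eq_mul]

instance : IsProbabilityMeasure un := ⟨by
  rw [thr0_apply MeasurableSet.univ, Set.univ_inter, Real.volume_Icc]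
  norm_num
  exact ENNReal.inv_mul_cancel two_ne_zero ENNReal.ofNat_ne_top⟩

theorem un_ae : ∀ᵐ U ∂un, |U| ≤ 1 :=
  Measure.ae_smul_measure ((ae_restrict_mem (measurableSet_Icc (a := (-1 : ℝ)) (b := 1))).mono
    fun _ h => abs_le.2 (Set.mem_Icc.1 h)) _

theorem un_ne (c : ℝ) : ∀ᵐ U ∂un, U ≠ c :=
  Measure.ae_smul_measure (ae_restrict_of_ae (Measure.ae_ne volume c)) _

theorem un_thr_ne {K : ℕ} (κ : Fin K) (c : ℝ) : ∀ᵐ U ∂un, c - thr K κ U ≠ 0 := by
  have hK : (K : ℝ) ≠ 0 := Nat.cast_ne_zero.2 κ.pos.ne'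
  filter_upwards [un_ne ((c + 1) * K - 2 * κ - 1)] with U hU h
  refine hU ?_
  rw [thr, sub_eq_zero] at h
  rw [h]
  field_simp
  ring

theorem meas_thr {K : ℕ} (κ : Fin K) : Continuous (thr K κ) := by
  unfold thr
  fun_prop

theorem un_sign {c : ℝ} (hc : |c| ≤ 1) :
    ∫ U, (if c - U < 0 then (-1 : ℝ) else 1) ∂un = c := by
  obtain ⟨h1, h2⟩ := abs_le.1 hc
  have h3 : (fun U => if c - U < 0 then (-1 : ℝ) else 1) =
      fun U => 1 - (Set.Ioi c).indicator (fun _ => (2 : ℝ)) U := by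
    funext U
    by_cases h : c < U
    · rw [if_pos (sub_neg.2 h), Set.indicator_of_mem (Set.mem_Ioi.2 h)]
      norm_num
    · rw [if_neg fun h' => h (sub_neg.1 h'), Set.indicator_of_notMem (s := Set.Ioi c) h, sub_zero]
  have h4 : Set.Ioi c ∩ Set.Icc (-1 : ℝ) 1 = Set.Ioc c 1 :=
    Set.ext fun U => ⟨fun h => ⟨h.1, h.2.2⟩, fun h => ⟨h.1, h1.trans h.1.le, h.2⟩⟩
  rw [h3, integral_sub (integrable_const _) ((integrable_const _).indicator measurableSet_Ioi),
    integral_indicator_const _ measurableSet_Ioi, measureReal_def, thr0_apply measurableSet_Ioi, h4,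
    Real.volume_Ioc, ENNReal.toReal_mul, ENNReal.toReal_ofReal (sub_nonneg.2 h2)]
  simp
  ring

theorem un_diff (c c' : ℝ) :
    ∫ U, ((if c - U < 0 then (-1 : ℝ) else 1) - if c' - U < 0 then (-1 : ℝ) else 1) ^ 2 ∂un ≤
      2 * |c - c'| := by
  have h3 : (fun U => ((if c - U < 0 then (-1 : ℝ) else 1) -
      if c' - U < 0 then (-1 : ℝ) else 1) ^ 2) = (Set.uIoc c' c).indicator fun _ => (4 : ℝ) := by
    funext U
    simp only [Set.indicator, Set.mem_uIoc, sub_neg, ← not_lt]
    by_cases h : c < U <;> by_cases h' : c' < U <;> simp [h, h'] <;> norm_num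
  have h4 : un.real (Set.uIoc c' c) ≤ 2⁻¹ * |c - c'| := by
    refine ENNReal.toReal_le_of_le_ofReal (by positivity) ?_
    rw [thr0_apply measurableSet_uIoc, ENNReal.ofReal_mul (by positivity), ← Real.volume_uIoc,
      ENNReal.ofReal_inv_of_pos two_pos, ENNReal.ofReal_ofNat]
    exact mul_le_mul_right (measure_mono Set.inter_subset_left) _
  rw [h3, integral_indicator_const _ measurableSet_uIoc, smul_eq_mul]
  linarith

theorem thr0_count {t : ℝ} (ht : -1 ≤ t) (n : ℕ) :
    (∑ κ ∈ range n, if t < κ then (-1 : ℝ) else 1) ≤ n ∧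
      (∑ κ ∈ range n, if t < κ then (-1 : ℝ) else 1) + n ≤ 2 * t + 2 ∧
      2 * min t n ≤ (∑ κ ∈ range n, if t < κ then (-1 : ℝ) else 1) + n := by
  induction n with
  | zero =>
    simp only [range_zero, sum_empty, Nat.cast_zero]
    exact ⟨le_rfl, by linarith, by linarith [min_le_right t 0]⟩
  | succ n ih =>
    obtain ⟨h1, h2, h3⟩ := ih
    rw [sum_range_succ, Nat.cast_succ]
    split_ifs with h
    · rw [min_eq_left h.le] at h3
      exact ⟨by linarith, by linarith, by linarith [min_le_left t (n + 1)]⟩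
    · rw [min_eq_right (not_lt.1 h)] at h3
      exact ⟨by linarith, by linarith [not_lt.1 h], by linarith [min_le_right t (n + 1)]⟩

/-- the thresholds increase with `κ`, `thr κ ∈ [-1 + 2 κ / K, -1 + 2 (κ + 1) / K]`; or bound each
sign by a clipped ramp and telescope -/
theorem stair {K : ℕ} (hK : 0 < K) {c U : ℝ} (hc : |c| ≤ 1) (hU : |U| ≤ 1) :
    |(1 / (K : ℝ)) * (∑ κ : Fin K, if c - thr K κ U < 0 then (-1 : ℝ) else 1) - c| ≤ 2 / K := by
  have hK' : (0 : ℝ) < K := Nat.cast_pos.2 hK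
  obtain ⟨h1, h2⟩ := abs_le.1 hc
  obtain ⟨h3, h4⟩ := abs_le.1 hU
  have h5 : 0 ≤ (c + 1) * K := mul_nonneg (by linarith) hK'.le
  have h6 : (c + 1) * K ≤ 2 * K := mul_le_mul_of_nonneg_right (by linarith) hK'.le
  obtain ⟨t, ht⟩ : ∃ t : ℝ, t = ((c + 1) * K - 1 - U) / 2 := ⟨_, rfl⟩
  have h7 : ∀ κ : Fin K, c - thr K κ U < 0 ↔ t < ((κ : ℕ) : ℝ) := fun κ => by
    rw [thr, sub_neg, ← sub_lt_iff_lt_add', lt_div_iff₀ hK', ht]
    constructor <;> intro h <;> linarith
  obtain ⟨-, h8, h9⟩ := thr0_count (t := t) (by linarith) K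
  rw [min_eq_left (by linarith)] at h9
  simp only [h7]
  rw [Fin.sum_univ_eq_sum_range (fun κ => if t < (κ : ℝ) then (-1 : ℝ) else 1) K]
  obtain ⟨s, hs⟩ : ∃ s : ℝ, s = ∑ κ ∈ range K, if t < κ then (-1 : ℝ) else 1 := ⟨_, rfl⟩
  rw [← hs] at h8 h9 ⊢
  have h10 : 1 / (K : ℝ) * s - c = (s - c * K) / K := by field_simp
  rw [h10, abs_div, abs_of_pos hK']
  refine div_le_div_of_nonneg_right (abs_le.2 ⟨?_, ?_⟩) hK'.le <;> linarith

theorem thr0_int (v : NNReal) : Integrable (fun x : ℝ => |x|) (gaussianReal 0 v) :=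
  ((memLp_id_gaussianReal' 1 ENNReal.one_ne_top).integrable le_rfl).abs

theorem c0_pos : 0 < c0 := by
  have := nullSingletonClass_gaussianReal (μ := 0) (v := 1) one_ne_zero
  rw [c0, integral_pos_iff_support_of_nonneg (fun x => abs_nonneg x) (thr0_int 1)]
  have h : Function.support (fun x : ℝ => |x|) = {0}ᶜ := by
    ext x
    simp
  rw [h, prob_compl_eq_one_sub (measurableSet_singleton _), measure_singleton]
  simp

theorem int_abs_gauss (v : NNReal) : ∫ x, |x| ∂gaussianReal 0 v = √v * c0 := by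
  have h : gaussianReal 0 v = (gaussianReal 0 1).map (√v * ·) := by
    rw [gaussianReal_map_const_mul, mul_zero, mul_one]
    congr 1
    exact NNReal.eq (Real.sq_sqrt v.2).symm
  rw [h, integral_map (by fun_prop) (by fun_prop), c0, ← integral_const_mul]
  simp only [abs_mul, abs_of_nonneg (Real.sqrt_nonneg _)]

theorem gauss_cheb (v : NNReal) {l : ℝ} (hl : 0 < l) :
    (gaussianReal 0 v).real {x | l ≤ |x|} ≤ v / l ^ 2 := by
  have h := meas_ge_le_variance_div_sq (μ := gaussianReal 0 v)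
    (memLp_id_gaussianReal' 2 ENNReal.ofNat_ne_top) hl
  rw [variance_id_gaussianReal] at h
  refine ENNReal.toReal_le_of_le_ofReal (by positivity) ?_
  simpa [integral_id_gaussianReal] using h

/-- symmetry, no atoms needed when `v ≠ 0` is assumed -/
theorem gauss_sym {v : NNReal} (hv : v ≠ 0) (l : ℝ) :
    ∫ x, (if x + l < 0 then (-1 : ℝ) else 1) ∂gaussianReal 0 v =
      ∫ x, (if x - l < 0 then (1 : ℝ) else -1) ∂gaussianReal 0 v := by
  have := nullSingletonClass_gaussianReal (μ := 0) hv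
  have h : gaussianReal 0 v = (gaussianReal 0 v).map fun x => -x := by
    rw [gaussianReal_map_neg, neg_zero]
  have hm : Measurable fun x : ℝ => if x + l < 0 then (-1 : ℝ) else 1 :=
    Measurable.ite (measurableSet_lt (by fun_prop) measurable_const) measurable_const
      measurable_const
  conv_lhs => rw [h]
  rw [integral_map (by fun_prop) hm.aestronglyMeasurable]
  refine integral_congr_ae ((Measure.ae_ne _ l).mono fun x hx => ?_)
  rcases lt_or_gt_of_ne hx with h1 | h1
  · simp only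
    rw [if_neg (by linarith), if_pos (by linarith)]
  · simp only
    rw [if_pos (by linarith), if_neg (by linarith)]

end

end Vale.Agent.P367.G
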